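import Mathlib

/-!
# P162 : perfect matchings as fixed-point-free involutions; splitting along a closed set; counting

`IsMt μ` : the permutation `μ` of `S` is an involution without fixed points (a perfect matching).
`Closed μ x` : the finite set `x` is a union of edges of `μ`.
-/

namespace Vale.Agent.P162.Mtc

open Finset

/-- `μ` is a perfect matching: an involution without fixed points. -/
def IsMt {S : Type*} (μ : Equiv.Perm S) : Prop := (∀ x, μ (μ x) = x) ∧ (∀ x, μ x ≠ x)

/-- `x` is a union of edges of `μ`. -/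
def Closed {S : Type*} (μ : Equiv.Perm S) (x : Finset S) : Prop := ∀ a, μ a ∈ x ↔ a ∈ x

section Split

variable {S : Type*} [DecidableEq S]

omit [DecidableEq S] in
lemma closed_not {μ : Equiv.Perm S} {x : Finset S} (h : Closed μ x) :
    ∀ a, μ a ∉ x ↔ a ∉ x := fun a => not_congr (h a)

/-- Splitting a matching along a closed set. -/
def splitMt (x : Finset S) :
    {μ : Equiv.Perm S // IsMt μ ∧ Closed μ x} ≃
      {μ : Equiv.Perm {a // a ∈ x} // IsMt μ} × {μ : Equiv.Perm {a // a ∉ x} // IsMt μ} where
  toFun μ :=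
    (⟨μ.1.subtypePerm μ.2.2,
        fun a => Subtype.ext (μ.2.1.1 a.1), fun a h => μ.2.1.2 a.1 (congrArg Subtype.val h)⟩,
     ⟨μ.1.subtypePerm (closed_not μ.2.2),
        fun a => Subtype.ext (μ.2.1.1 a.1), fun a h => μ.2.1.2 a.1 (congrArg Subtype.val h)⟩)
  invFun p :=
    ⟨Equiv.Perm.subtypeCongr p.1.1 p.2.1, by
      refine ⟨⟨fun a => ?_, fun a => ?_⟩, fun a => ?_⟩
      · by_cases h : a ∈ x
        · rw [Equiv.Perm.subtypeCongr.left_apply _ _ h,
            Equiv.Perm.subtypeCongr.left_apply_subtype, p.1.2.1]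
        · rw [Equiv.Perm.subtypeCongr.right_apply _ _ h,
            Equiv.Perm.subtypeCongr.right_apply_subtype, p.2.2.1]
      · by_cases h : a ∈ x
        · rw [Equiv.Perm.subtypeCongr.left_apply _ _ h]
          intro h'
          exact p.1.2.2 ⟨a, h⟩ (Subtype.ext h')
        · rw [Equiv.Perm.subtypeCongr.right_apply _ _ h]
          intro h'
          exact p.2.2.2 ⟨a, h⟩ (Subtype.ext h')
      · by_cases h : a ∈ x
        · rw [Equiv.Perm.subtypeCongr.left_apply _ _ h]
          exact ⟨fun _ => h, fun _ => (p.1.1 ⟨a, h⟩).2⟩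
        · rw [Equiv.Perm.subtypeCongr.right_apply _ _ h]
          exact ⟨fun h' => absurd h' (p.2.1 ⟨a, h⟩).2, fun h' => absurd h' h⟩⟩
  left_inv μ := by
    apply Subtype.ext
    ext a
    by_cases h : a ∈ x
    · show (Equiv.Perm.subtypeCongr _ _) a = _
      rw [Equiv.Perm.subtypeCongr.left_apply _ _ h]
      rfl
    · show (Equiv.Perm.subtypeCongr _ _) a = _
      rw [Equiv.Perm.subtypeCongr.right_apply _ _ h]
      rfl
  right_inv p := by
    apply Prod.ext
    · apply Subtype.ext
      ext a
      show (Equiv.Perm.subtypeCongr p.1.1 p.2.1) a.1 = _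
      rw [Equiv.Perm.subtypeCongr.left_apply_subtype]
    · apply Subtype.ext
      ext a
      show (Equiv.Perm.subtypeCongr p.1.1 p.2.1) a.1 = _
      rw [Equiv.Perm.subtypeCongr.right_apply_subtype]

@[simp] lemma splitMt_fst_coe (x : Finset S) (μ : {μ : Equiv.Perm S // IsMt μ ∧ Closed μ x})
    (a : {a // a ∈ x}) : (((splitMt x μ).1.1 a : {a // a ∈ x}) : S) = μ.1 a.1 := rfl

@[simp] lemma splitMt_snd_coe (x : Finset S) (μ : {μ : Equiv.Perm S // IsMt μ ∧ Closed μ x})
    (a : {a // a ∉ x}) : (((splitMt x μ).2.1 a : {a // a ∉ x}) : S) = μ.1 a.1 := rfl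

/-- Splitting a subset of `S` along `x`. -/
def splitSet (x : Finset S) :
    Finset S ≃ Finset {a // a ∈ x} × Finset {a // a ∉ x} where
  toFun y := (y.subtype (· ∈ x), y.subtype (· ∉ x))
  invFun p := p.1.map (Function.Embedding.subtype _) ∪ p.2.map (Function.Embedding.subtype _)
  left_inv y := by
    ext a
    simp only [Finset.mem_union, Finset.mem_map, Finset.mem_subtype,
      Function.Embedding.coe_subtype, Subtype.exists, exists_and_right, exists_eq_right]
    by_cases h : a ∈ x
    · simp [h]
    · simp [h]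
  right_inv p := by
    apply Prod.ext
    · ext a
      simp only [Finset.mem_subtype, Finset.mem_union, Finset.mem_map,
        Function.Embedding.coe_subtype, Subtype.exists, exists_and_right, exists_eq_right]
      constructor
      · rintro (⟨h, h'⟩ | ⟨h, _⟩)
        · exact h'
        · exact absurd a.2 h
      · intro h
        exact Or.inl ⟨a.2, h⟩
    · ext a
      simp only [Finset.mem_subtype, Finset.mem_union, Finset.mem_map,
        Function.Embedding.coe_subtype, Subtype.exists, exists_and_right, exists_eq_right]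
      constructor
      · rintro (⟨h, _⟩ | ⟨h, h'⟩)
        · exact absurd h a.2
        · exact h'
      · intro h
        exact Or.inr ⟨a.2, h⟩

@[simp] lemma mem_splitSet_fst (x y : Finset S) (a : {a // a ∈ x}) :
    a ∈ (splitSet x y).1 ↔ a.1 ∈ y := Finset.mem_subtype

@[simp] lemma mem_splitSet_snd (x y : Finset S) (a : {a // a ∉ x}) :
    a ∈ (splitSet x y).2 ↔ a.1 ∈ y := Finset.mem_subtype

lemma card_splitSet_fst (x y : Finset S) : (splitSet x y).1.card = (y ∩ x).card := by
  show (y.subtype (· ∈ x)).card = _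
  rw [Finset.card_subtype, Finset.filter_mem_eq_inter]

lemma card_splitSet_snd (x y : Finset S) : (splitSet x y).2.card = (y \ x).card := by
  show (y.subtype (· ∉ x)).card = _
  rw [Finset.card_subtype, Finset.filter_notMem_eq_sdiff]

lemma card_splitSet (x y : Finset S) :
    (splitSet x y).1.card + (splitSet x y).2.card = y.card := by
  rw [card_splitSet_fst, card_splitSet_snd, Finset.card_inter_add_card_sdiff]

/-- closedness splits -/
lemma closed_split (x y : Finset S) (μ : {μ : Equiv.Perm S // IsMt μ ∧ Closed μ x}) :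
    Closed μ.1 y ↔ Closed (splitMt x μ).1.1 (splitSet x y).1
      ∧ Closed (splitMt x μ).2.1 (splitSet x y).2 := by
  constructor
  · intro h
    exact ⟨fun a => by simpa using h a.1, fun a => by simpa using h a.1⟩
  · rintro ⟨h1, h2⟩ a
    by_cases h : a ∈ x
    · simpa using h1 ⟨a, h⟩
    · simpa using h2 ⟨a, h⟩

/-- Splitting a two-colouring of `S` along `x`. -/
def splitFun (x : Finset S) :
    (S → Bool) ≃ ({a // a ∈ x} → Bool) × ({a // a ∉ x} → Bool) :=
  Equiv.piEquivPiSubtypeProd (· ∈ x) (fun _ => Bool)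

@[simp] lemma splitFun_fst (x : Finset S) (τ : S → Bool) (a : {a // a ∈ x}) :
    (splitFun x τ).1 a = τ a.1 := rfl

@[simp] lemma splitFun_snd (x : Finset S) (τ : S → Bool) (a : {a // a ∉ x}) :
    (splitFun x τ).2 a = τ a.1 := rfl

/-- transversality splits -/
lemma transversal_split (x : Finset S) (τ : S → Bool)
    (μ : {μ : Equiv.Perm S // IsMt μ ∧ Closed μ x}) :
    (∀ a, τ (μ.1 a) = !τ a) ↔
      (∀ a, (splitFun x τ).1 ((splitMt x μ).1.1 a) = !(splitFun x τ).1 a)
        ∧ (∀ a, (splitFun x τ).2 ((splitMt x μ).2.1 a) = !(splitFun x τ).2 a) := by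
  constructor
  · intro h
    exact ⟨fun a => by simpa using h a.1, fun a => by simpa using h a.1⟩
  · rintro ⟨h1, h2⟩ a
    by_cases h : a ∈ x
    · simpa using h1 ⟨a, h⟩
    · simpa using h2 ⟨a, h⟩

end Split

/-! ### transport and the numbers `dm k` -/

lemma isMt_permCongr {S S' : Type*} (e : S ≃ S') (μ : Equiv.Perm S) :
    IsMt μ ↔ IsMt (e.permCongr μ) := by
  constructor
  · intro h
    refine ⟨fun y => ?_, fun y hy => ?_⟩
    · simp [Equiv.permCongr_apply, h.1]
    · rw [Equiv.permCongr_apply] at hy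
      apply h.2 (e.symm y)
      rw [Equiv.eq_symm_apply]; exact hy
  · intro h
    refine ⟨fun x => ?_, fun x hx => ?_⟩
    · have := h.1 (e x)
      simpa [Equiv.permCongr_apply] using this
    · apply h.2 (e x)
      simp [Equiv.permCongr_apply, hx]

/-- transport of matchings along a bijection -/
def mtCongr {S S' : Type*} (e : S ≃ S') :
    {μ : Equiv.Perm S // IsMt μ} ≃ {μ : Equiv.Perm S' // IsMt μ} :=
  Equiv.subtypeEquiv e.permCongr (isMt_permCongr e)

/-- the number of perfect matchings of a `k`-point set -/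
noncomputable def dm (k : ℕ) : ℕ := Nat.card {μ : Equiv.Perm (Fin k) // IsMt μ}

lemma card_mt (S : Type*) [Fintype S] :
    Nat.card {μ : Equiv.Perm S // IsMt μ} = dm (Fintype.card S) :=
  Nat.card_congr (mtCongr (Fintype.equivFin S))

lemma card_mt_closed {S : Type*} [Fintype S] [DecidableEq S] (x : Finset S) :
    Nat.card {μ : Equiv.Perm S // IsMt μ ∧ Closed μ x}
      = dm x.card * dm (Fintype.card S - x.card) := by
  rw [Nat.card_congr (splitMt x), Nat.card_prod, card_mt, card_mt, Fintype.card_coe]
  congr 2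
  rw [← Finset.card_compl]
  exact Fintype.card_of_subtype xᶜ (by simp)

/-! ### a canonical transversal, closed sets, transversals -/

section Count

variable {S : Type*} [Fintype S] [DecidableEq S]

instance (μ : Equiv.Perm S) : DecidablePred (Closed μ) := fun x => by
  unfold Closed; infer_instance

/-- a transversal of the matching `μ` (the endpoint with the smaller label in each edge) -/
noncomputable def T0 (μ : Equiv.Perm S) : Finset S :=
  univ.filter (fun a => Fintype.equivFin S a < Fintype.equivFin S (μ a))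

lemma mem_T0_iff {μ : Equiv.Perm S} (hμ : IsMt μ) (a : S) : μ a ∈ T0 μ ↔ a ∉ T0 μ := by
  unfold T0
  simp only [Finset.mem_filter, Finset.mem_univ, true_and, hμ.1 a, not_lt]
  have hne : Fintype.equivFin S (μ a) ≠ Fintype.equivFin S a := fun h =>
    hμ.2 a ((Fintype.equivFin S).injective h)
  exact ⟨fun h => h.le, fun h => lt_of_le_of_ne h hne⟩

lemma closed_union {μ : Equiv.Perm S} (hμ : IsMt μ) (t : Finset S) :
    Closed μ (t ∪ t.image μ) := by
  intro a
  simp only [Finset.mem_union, Finset.mem_image]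
  constructor
  · rintro (h | ⟨b, hb, hba⟩)
    · exact Or.inr ⟨μ a, h, hμ.1 a⟩
    · exact Or.inl (by rwa [← μ.injective hba])
  · rintro (h | ⟨b, hb, hba⟩)
    · exact Or.inr ⟨a, h, rfl⟩
    · exact Or.inl (by rw [← hba, hμ.1]; exact hb)

lemma closed_eq {μ : Equiv.Perm S} (hμ : IsMt μ) {y : Finset S} (hy : Closed μ y) :
    (y ∩ T0 μ) ∪ (y ∩ T0 μ).image μ = y := by
  ext a
  simp only [Finset.mem_union, Finset.mem_image, Finset.mem_inter]
  constructor
  · rintro (h | ⟨b, hb, hba⟩)
    · exact h.1
    · rw [← hba]; exact (hy b).2 hb.1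
  · intro h
    by_cases ha : a ∈ T0 μ
    · exact Or.inl ⟨h, ha⟩
    · exact Or.inr ⟨μ a, ⟨(hy a).2 h, (mem_T0_iff hμ a).2 ha⟩, hμ.1 a⟩

lemma disjoint_image {μ : Equiv.Perm S} (hμ : IsMt μ) {t : Finset S} (ht : t ⊆ T0 μ) :
    Disjoint (T0 μ) (t.image μ) := by
  rw [Finset.disjoint_right]
  intro a ha
  obtain ⟨b, hb, rfl⟩ := Finset.mem_image.mp ha
  intro h
  exact (mem_T0_iff hμ b).1 h (ht hb)

lemma union_inter_T0 {μ : Equiv.Perm S} (hμ : IsMt μ) {t : Finset S} (ht : t ⊆ T0 μ) :
    (t ∪ t.image μ) ∩ T0 μ = t := by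
  rw [Finset.union_inter_distrib_right, Finset.inter_eq_left.mpr ht,
    Finset.inter_comm, Finset.disjoint_iff_inter_eq_empty.mp (disjoint_image hμ ht),
    Finset.union_empty]

lemma card_union {μ : Equiv.Perm S} (hμ : IsMt μ) {t : Finset S} (ht : t ⊆ T0 μ) :
    (t ∪ t.image μ).card = 2 * t.card := by
  rw [Finset.card_union_of_disjoint
    (Finset.disjoint_of_subset_left ht (disjoint_image hμ ht)),
    Finset.card_image_of_injective _ μ.injective]
  ring

lemma closed_card {μ : Equiv.Perm S} (hμ : IsMt μ) {y : Finset S} (hy : Closed μ y) :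
    y.card = 2 * (y ∩ T0 μ).card := by
  conv_lhs => rw [← closed_eq hμ hy]
  exact card_union hμ Finset.inter_subset_right

lemma closed_even {μ : Equiv.Perm S} (hμ : IsMt μ) {y : Finset S} (hy : Closed μ y) :
    Even y.card := by
  rw [closed_card hμ hy]; exact even_two_mul _

lemma closed_univ (μ : Equiv.Perm S) : Closed μ (Finset.univ : Finset S) := fun a => by simp

lemma card_eq_two_mul_T0 {μ : Equiv.Perm S} (hμ : IsMt μ) :
    Fintype.card S = 2 * (T0 μ).card := by
  have := closed_card hμ (closed_univ μ)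
  rwa [Finset.card_univ, Finset.univ_inter] at this

/-- sums over closed sets are sums over subsets of the transversal -/
lemma sum_closed {μ : Equiv.Perm S} (hμ : IsMt μ) (g : Finset S → ℝ) :
    ∑ y ∈ univ.filter (Closed μ), g y = ∑ t ∈ (T0 μ).powerset, g (t ∪ t.image μ) := by
  apply Finset.sum_nbij' (fun y => y ∩ T0 μ) (fun t => t ∪ t.image μ)
  · intro y _
    exact Finset.mem_powerset.mpr Finset.inter_subset_right
  · intro t _
    simp only [Finset.mem_filter, Finset.mem_univ, true_and]
    exact closed_union hμ t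
  · intro y hy
    exact closed_eq hμ (Finset.mem_filter.mp hy).2
  · intro t ht
    exact union_inter_T0 hμ (Finset.mem_powerset.mp ht)
  · intro y hy
    rw [closed_eq hμ (Finset.mem_filter.mp hy).2]

/-- sums of a function of the size over closed sets -/
lemma sum_closed_card {μ : Equiv.Perm S} (hμ : IsMt μ) {M : ℕ} (hM : Fintype.card S = 2 * M)
    (f : ℕ → ℝ) :
    ∑ y ∈ univ.filter (Closed μ), f y.card
      = ∑ n ∈ Finset.range (M + 1), (M.choose n : ℝ) * f (2 * n) := by
  have hT : (T0 μ).card = M := by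
    have := card_eq_two_mul_T0 hμ
    omega
  rw [sum_closed hμ (fun y => f y.card)]
  have : ∑ t ∈ (T0 μ).powerset, f (t ∪ t.image μ).card
      = ∑ t ∈ (T0 μ).powerset, (fun n => f (2 * n)) t.card := by
    apply Finset.sum_congr rfl
    intro t ht
    rw [card_union hμ (Finset.mem_powerset.mp ht)]
  rw [this, Finset.sum_powerset_apply_card (fun n => f (2 * n)), hT]
  simp [nsmul_eq_mul]

/-- the number of closed sets with `2 n` points -/
lemma card_closed_sets {μ : Equiv.Perm S} (hμ : IsMt μ) {M : ℕ} (hM : Fintype.card S = 2 * M)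
    (n : ℕ) :
    (univ.filter (fun y : Finset S => Closed μ y ∧ y.card = 2 * n)).card = M.choose n := by
  have h := sum_closed_card hμ hM (fun k => if k = 2 * n then 1 else 0)
  have h1 : ∑ y ∈ univ.filter (Closed μ), (if y.card = 2 * n then (1 : ℝ) else 0)
      = ((univ.filter (fun y : Finset S => Closed μ y ∧ y.card = 2 * n)).card : ℝ) := by
    rw [← Finset.sum_filter, Finset.filter_filter]
    simp
  have h2 : ∑ k ∈ Finset.range (M + 1), (M.choose k : ℝ) * (if 2 * k = 2 * n then 1 else 0)
      = (M.choose n : ℝ) := by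
    have : ∀ k, (M.choose k : ℝ) * (if 2 * k = 2 * n then 1 else 0)
        = if k = n then (M.choose k : ℝ) else 0 := by
      intro k
      by_cases hk : k = n
      · simp [hk]
      · have : ¬ (2 * k = 2 * n) := by omega
        simp [hk, this]
    simp_rw [this]
    rw [Finset.sum_ite_eq' (Finset.range (M + 1)) n (fun k => (M.choose k : ℝ))]
    split_ifs with hn
    · rfl
    · have : M < n := by simpa using hn
      simp [Nat.choose_eq_zero_of_lt this]
  rw [h1, h2] at h
  exact_mod_cast h

end Count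

end Vale.Agent.P162.Mtc
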