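import Vale.Agent.P162.KL.Chan

namespace Vale.Agent.P162.KL

open Finset Real

variable {Om A : Type*} [Fintype Om] [Fintype A] [DecidableEq A]

/-- data processing: the divergence of a random variable is at most the full divergence -/
theorem Dv_le_kl {P U : Om → ℝ} (h : Pair P U) (X : Om → A) : Dv P U X ≤ kl P U := by
  unfold Dv kl
  have h1 : ∀ a : A, pm P X a * Real.log (pm P X a / pm U X a) ≤
      ∑ w ∈ Finset.univ.filter (fun w => X w = a), P w * Real.log (P w / U w) := by
    intro a
    unfold pm
    exact log_sum _ _ _ (fun w _ => h.nnP w) (fun w _ => h.nnU w) (fun w _ => h.ac w)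
  calc ∑ a, pm P X a * Real.log (pm P X a / pm U X a)
      ≤ ∑ a, ∑ w ∈ Finset.univ.filter (fun w => X w = a), P w * Real.log (P w / U w) :=
        Finset.sum_le_sum (fun a _ => h1 a)
    _ = ∑ w, P w * Real.log (P w / U w) := Finset.sum_fiberwise Finset.univ X _

/-- an injective random variable carries the full divergence -/
theorem Dv_inj {P U : Om → ℝ} (X : Om → A) (hX : Function.Injective X) :
    Dv P U X = kl P U := by
  unfold Dv kl
  have h1 : ∀ a : A, pm P X a * Real.log (pm P X a / pm U X a) =
      ∑ w ∈ Finset.univ.filter (fun w => X w = a), P w * Real.log (P w / U w) := by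
    intro a
    unfold pm
    by_cases hex : ∃ w, X w = a
    · obtain ⟨w, rfl⟩ := hex
      have hf : Finset.univ.filter (fun w' => X w' = X w) = {w} := by
        ext w'
        simp only [Finset.mem_filter, Finset.mem_univ, true_and, Finset.mem_singleton]
        exact ⟨fun e => hX e, fun e => by rw [e]⟩
      rw [hf]
      simp
    · have hf : Finset.univ.filter (fun w' => X w' = a) = ∅ := by
        ext w'
        simp only [Finset.mem_filter, Finset.mem_univ, true_and, Finset.notMem_empty, iff_false]
        exact fun e => hex ⟨w', e⟩
      rw [hf]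
      simp
  calc ∑ a, pm P X a * Real.log (pm P X a / pm U X a)
      = ∑ a, ∑ w ∈ Finset.univ.filter (fun w => X w = a), P w * Real.log (P w / U w) :=
        Finset.sum_congr rfl (fun a _ => h1 a)
    _ = ∑ w, P w * Real.log (P w / U w) := Finset.sum_fiberwise Finset.univ X _

/-- a constant random variable has divergence zero -/
theorem Dv_const {P U : Om → ℝ} (h : Pair P U) (X : Om → A) (a0 : A) (hX : ∀ w, X w = a0) :
    Dv P U X = 0 := by
  unfold Dv kl
  apply Finset.sum_eq_zero
  intro a _
  unfold pm
  by_cases ha : a = a0
  · subst ha
    have hf : Finset.univ.filter (fun w => X w = a) = Finset.univ := by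
      ext w
      simp [hX w]
    rw [hf, h.sumP, h.sumU]
    simp
  · have hf : Finset.univ.filter (fun w => X w = a) = ∅ := by
      ext w
      simp only [Finset.mem_filter, Finset.mem_univ, true_and, Finset.notMem_empty, iff_false]
      rw [hX w]
      exact fun e => ha e.symm
    rw [hf]
    simp

end Vale.Agent.P162.KL
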