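import Vale.Agent.P162.KL.Tensor

namespace Vale.Agent.P162.KL

open Finset Real

/-- a law and the uniform law form a `Pair` -/
theorem pair_unif {A : Type*} [Fintype A] (p : A → ℝ) (hp : IsLaw p) : Pair p (unif A) := by
  have hne := Tz.IsLaw.nonempty hp
  exact ⟨hp.1, Tz.unif_nonneg, fun w h => absurd h (Tz.unif_pos w).ne', hp.2, Tz.unif_sum⟩

theorem isLaw_unif (A : Type*) [Fintype A] [Nonempty A] : IsLaw (unif A) := Tz.unif_isLaw

theorem kl_unif_nonneg {A : Type*} [Fintype A] (p : A → ℝ) (hp : IsLaw p) :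
    0 ≤ kl p (unif A) := Tz.kl_unif_nonneg hp

theorem SDPI_mono {A B : Type*} [Fintype A] [Fintype B] (K : A → B → ℝ) (η η' : ℝ)
    (h : SDPI K η) (hle : η ≤ η') : SDPI K η' := Tz.SDPI_mono h hle

end Vale.Agent.P162.KL
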