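import Mathlib

/-!
# P162 : scalar inequalities for the function `phi t = t log t - t + 1`
-/

namespace Vale.Agent.P162.KL

open Real

/-- `phi t = t log t - t + 1`, the integrand of the relative entropy. -/
noncomputable def phi (t : ℝ) : ℝ := t * Real.log t - t + 1

/-- Hellinger type lower bound. -/
theorem sq_sqrt_sub_one_le_phi (t : ℝ) (ht : 0 ≤ t) : (Real.sqrt t - 1) ^ 2 ≤ phi t := by
  unfold phi
  rcases ht.eq_or_lt with h0 | hpos
  · subst h0
    simp
  · have hs : 0 < Real.sqrt t := Real.sqrt_pos.2 hpos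
    have h1 := Real.one_sub_inv_le_log_of_pos hs
    have h2 : Real.log t = 2 * Real.log (Real.sqrt t) := by
      rw [Real.log_sqrt hpos.le]
      ring
    have h3 : Real.sqrt t * Real.sqrt t = t := Real.mul_self_sqrt hpos.le
    have h4 : t * (1 - (Real.sqrt t)⁻¹) = t - Real.sqrt t := by
      have : t * (Real.sqrt t)⁻¹ = Real.sqrt t := by
        nth_rewrite 1 [← h3]
        field_simp
      rw [mul_sub, mul_one, this]
    have h5 := mul_le_mul_of_nonneg_left h1 hpos.le
    rw [h4] at h5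
    rw [h2]
    nlinarith

theorem phi_nonneg (t : ℝ) (ht : 0 ≤ t) : 0 ≤ phi t :=
  le_trans (sq_nonneg _) (sq_sqrt_sub_one_le_phi t ht)

/-- bounded part minus one -/
noncomputable def trA (L t : ℝ) : ℝ := if t ≤ L then t - 1 else -1

/-- tail part -/
noncomputable def trT (L t : ℝ) : ℝ := if t ≤ L then 0 else t

theorem trA_add_trT (L t : ℝ) : trA L t + trT L t = t - 1 := by
  unfold trA trT
  split_ifs <;> ring

theorem trT_nonneg (L t : ℝ) (ht : 0 ≤ t) : 0 ≤ trT L t := by
  unfold trT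
  split_ifs
  · exact le_rfl
  · exact ht

theorem trT_le (L t : ℝ) (ht : 0 ≤ t) : trT L t ≤ t := by
  unfold trT
  split_ifs
  · exact ht
  · exact le_rfl

theorem trA_sq_le (L t : ℝ) (hL : 6 ≤ L) (ht : 0 ≤ t) : (trA L t) ^ 2 ≤ 2 * L * phi t := by
  have hphi := sq_sqrt_sub_one_le_phi t ht
  have hsL : Real.sqrt L * Real.sqrt L = L := Real.mul_self_sqrt (by linarith)
  have hsL0 : 0 ≤ Real.sqrt L := Real.sqrt_nonneg L
  have hsL2 : (12 : ℝ) / 5 ≤ Real.sqrt L := by
    apply Real.le_sqrt_of_sq_le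
    norm_num
    linarith
  unfold trA
  split_ifs with h
  · have hst : Real.sqrt t * Real.sqrt t = t := Real.mul_self_sqrt ht
    have hst0 : 0 ≤ Real.sqrt t := Real.sqrt_nonneg t
    have hle : Real.sqrt t ≤ Real.sqrt L := Real.sqrt_le_sqrt h
    have h1 : (t - 1) ^ 2 = (Real.sqrt t - 1) ^ 2 * (Real.sqrt t + 1) ^ 2 := by
      nth_rewrite 1 [← hst]
      ring
    have h2 : (Real.sqrt t + 1) ^ 2 ≤ 2 * L := by
      have : (Real.sqrt t + 1) ^ 2 ≤ (Real.sqrt L + 1) ^ 2 := by
        apply pow_le_pow_left₀ (by linarith)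
        linarith
      nlinarith
    rw [h1]
    calc (Real.sqrt t - 1) ^ 2 * (Real.sqrt t + 1) ^ 2 ≤ phi t * (2 * L) :=
          mul_le_mul hphi h2 (sq_nonneg _) (phi_nonneg t ht)
      _ = 2 * L * phi t := by ring
  · have hlt : L < t := not_le.1 h
    have hle : Real.sqrt L ≤ Real.sqrt t := Real.sqrt_le_sqrt hlt.le
    have h1 : (1 : ℝ) ≤ (Real.sqrt t - 1) ^ 2 := by nlinarith
    have h2 : (1 : ℝ) ≤ phi t := le_trans h1 hphi
    nlinarith

theorem trT_mul_le (L t : ℝ) (hL : 6 ≤ L) (ht : 0 ≤ t) :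
    trT L t * (Real.log L - 1) ≤ phi t := by
  unfold trT
  split_ifs with h
  · rw [zero_mul]
    exact phi_nonneg t ht
  · have hlt : L < t := not_le.1 h
    have hlog : Real.log L ≤ Real.log t := Real.log_le_log (by linarith) hlt.le
    unfold phi
    have : t * (Real.log L - 1) ≤ t * (Real.log t - 1) :=
      mul_le_mul_of_nonneg_left (by linarith) ht
    nlinarith

end Vale.Agent.P162.KL
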