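import Vale.Agent.P162.KL.Chan
import Vale.Agent.P162.KL.Scalar

/-!
# P162 : Pinsker's inequality on finite types (sharp constant)
-/

namespace Vale.Agent.P162.KL

open Finset Real

/-- auxiliary function for the pointwise inequality -/
noncomputable def pinH (x : ℝ) : ℝ := Real.log x - (5 * x ^ 2 - 4 * x - 1) / (2 * x ^ 2 + 4 * x)

theorem pinH_hasDerivAt (x : ℝ) (hx : 0 < x) :
    HasDerivAt pinH ((x - 1) ^ 3 / (x ^ 2 * (x + 2) ^ 2)) x := by
  have hden : (2 * x ^ 2 + 4 * x) ≠ 0 := by positivity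
  have h1 : HasDerivAt (fun y : ℝ => 5 * y ^ 2 - 4 * y - 1) (5 * (2 * x) - 4) x := by
    have := (((hasDerivAt_pow 2 x).const_mul 5).sub ((hasDerivAt_id x).const_mul 4)).sub_const 1
    simpa using this
  have h2 : HasDerivAt (fun y : ℝ => 2 * y ^ 2 + 4 * y) (2 * (2 * x) + 4) x := by
    have := ((hasDerivAt_pow 2 x).const_mul 2).add ((hasDerivAt_id x).const_mul 4)
    have h5 : ((fun y : ℝ => 2 * y ^ 2) + fun y : ℝ => 4 * id y) = fun y : ℝ => 2 * y ^ 2 + 4 * y := by
      funext y
      simp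
    rw [h5] at this
    simpa using this
  have h3 := (Real.hasDerivAt_log hx.ne').sub (h1.div h2 hden)
  have h4 : x⁻¹ - ((5 * (2 * x) - 4) * (2 * x ^ 2 + 4 * x) - (5 * x ^ 2 - 4 * x - 1) * (2 * (2 * x) + 4))
      / (2 * x ^ 2 + 4 * x) ^ 2 = (x - 1) ^ 3 / (x ^ 2 * (x + 2) ^ 2) := by
    field_simp
    ring
  rw [h4] at h3
  exact h3

theorem pinH_one : pinH 1 = 0 := by
  unfold pinH
  norm_num

theorem pinH_nonneg (x : ℝ) (hx : 0 < x) : 0 ≤ pinH x := by
  rcases le_total 1 x with h1 | h1
  · have hmono : MonotoneOn pinH (Set.Ici 1) := by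
      apply monotoneOn_of_deriv_nonneg (convex_Ici 1)
      · intro y hy
        have hy0 : (0 : ℝ) < y := lt_of_lt_of_le one_pos hy
        exact (pinH_hasDerivAt y hy0).continuousAt.continuousWithinAt
      · intro y hy
        rw [interior_Ici] at hy
        have hy0 : (0 : ℝ) < y := lt_trans one_pos hy
        exact (pinH_hasDerivAt y hy0).differentiableAt.differentiableWithinAt
      · intro y hy
        rw [interior_Ici] at hy
        have hy0 : (0 : ℝ) < y := lt_trans one_pos hy
        rw [(pinH_hasDerivAt y hy0).deriv]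
        have : 0 ≤ y - 1 := by
          have : (1 : ℝ) < y := hy
          linarith
        positivity
    have := hmono (Set.mem_Ici.2 le_rfl) (Set.mem_Ici.2 h1) h1
    rwa [pinH_one] at this
  · have hanti : AntitoneOn pinH (Set.Ioc 0 1) := by
      apply antitoneOn_of_deriv_nonpos (convex_Ioc 0 1)
      · intro y hy
        exact (pinH_hasDerivAt y hy.1).continuousAt.continuousWithinAt
      · intro y hy
        rw [interior_Ioc] at hy
        exact (pinH_hasDerivAt y hy.1).differentiableAt.differentiableWithinAt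
      · intro y hy
        rw [interior_Ioc] at hy
        rw [(pinH_hasDerivAt y hy.1).deriv]
        have h0 : 0 ≤ 1 - y := by linarith [hy.2]
        have h3 : (y - 1) ^ 3 = -((1 - y) ^ 3) := by ring
        rw [h3, neg_div]
        have hy0 := hy.1
        have : 0 ≤ (1 - y) ^ 3 / (y ^ 2 * (y + 2) ^ 2) := by positivity
        linarith
    have := hanti (Set.mem_Ioc.2 ⟨hx, h1⟩) (Set.mem_Ioc.2 ⟨one_pos, le_rfl⟩) h1
    rwa [pinH_one] at this

/-- The pointwise inequality behind Pinsker. -/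
theorem sq_le_phi (t : ℝ) (ht : 0 ≤ t) : 3 * (t - 1) ^ 2 ≤ (2 * t + 4) * phi t := by
  rcases ht.eq_or_lt with h0 | hpos
  · subst h0
    unfold phi
    norm_num
  · have h := pinH_nonneg t hpos
    unfold pinH at h
    unfold phi
    have hden : 0 < 2 * t ^ 2 + 4 * t := by positivity
    have h1 : (5 * t ^ 2 - 4 * t - 1) / (2 * t ^ 2 + 4 * t) ≤ Real.log t := by linarith
    rw [div_le_iff₀ hden] at h1
    nlinarith

/-- Pinsker's inequality. -/
theorem pinsker {A : Type*} [Fintype A] (p q : A → ℝ) (hp : ∀ a, 0 ≤ p a) (hq : ∀ a, 0 ≤ q a)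
    (hac : ∀ a, q a = 0 → p a = 0) (hsp : ∑ a, p a = 1) (hsq : ∑ a, q a = 1) :
    (∑ a, |p a - q a|) ^ 2 ≤ 2 * kl p q := by
  have hkl : kl p q = ∑ a, q a * phi (p a / q a) := by
    have h1 : ∀ a, q a * phi (p a / q a) = p a * Real.log (p a / q a) - p a + q a := by
      intro a
      unfold phi
      by_cases h0 : q a = 0
      · rw [hac a h0, h0]; ring
      · field_simp
    simp only [h1]
    rw [Finset.sum_add_distrib, Finset.sum_sub_distrib, hsp, hsq]
    unfold kl
    ring
  -- Cauchy-Schwarz with weights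
  set u : A → ℝ := fun a => Real.sqrt (q a * ((2 * (p a / q a) + 4) / 3)) with hu
  set v : A → ℝ := fun a => Real.sqrt (q a * phi (p a / q a)) with hv
  have hr : ∀ a, 0 ≤ p a / q a := fun a => div_nonneg (hp a) (hq a)
  have hA : ∀ a, 0 ≤ q a * ((2 * (p a / q a) + 4) / 3) := fun a =>
    mul_nonneg (hq a) (by have := hr a; positivity)
  have hB : ∀ a, 0 ≤ q a * phi (p a / q a) := fun a => mul_nonneg (hq a) (phi_nonneg _ (hr a))
  have hterm : ∀ a, |p a - q a| ≤ u a * v a := by
    intro a
    rw [hu, hv]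
    simp only
    rw [← Real.sqrt_mul (hA a)]
    apply Real.abs_le_sqrt
    by_cases h0 : q a = 0
    · rw [hac a h0, h0]; simp
    · have h1 := sq_le_phi (p a / q a) (hr a)
      have h2 : p a - q a = q a * (p a / q a - 1) := by field_simp
      rw [h2]
      have h3 : 0 ≤ q a ^ 2 := sq_nonneg _
      nlinarith
  have hCS := Finset.sum_mul_sq_le_sq_mul_sq Finset.univ u v
  have hu2 : ∑ a, u a ^ 2 = 2 := by
    have : ∀ a, u a ^ 2 = (2 * p a + 4 * q a) / 3 := by
      intro a
      rw [hu]
      simp only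
      rw [Real.sq_sqrt (hA a)]
      by_cases h0 : q a = 0
      · rw [hac a h0, h0]; ring
      · field_simp
    simp only [this]
    rw [← Finset.sum_div, Finset.sum_add_distrib, ← Finset.mul_sum, ← Finset.mul_sum, hsp, hsq]
    norm_num
  have hv2 : ∑ a, v a ^ 2 = kl p q := by
    rw [hkl]
    apply Finset.sum_congr rfl
    intro a _
    rw [hv]
    simp only
    rw [Real.sq_sqrt (hB a)]
  rw [hu2, hv2] at hCS
  have h0 : 0 ≤ ∑ a, |p a - q a| := Finset.sum_nonneg (fun a _ => abs_nonneg _)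
  have h1 : ∑ a, |p a - q a| ≤ ∑ a, u a * v a := Finset.sum_le_sum (fun a _ => hterm a)
  calc (∑ a, |p a - q a|) ^ 2 ≤ (∑ a, u a * v a) ^ 2 := by
        apply pow_le_pow_left₀ h0 h1
    _ ≤ 2 * kl p q := hCS

/-- Divergence at most `1/8` from uniform gives total variation at most `1/4`. -/
theorem tvUnif_le_quarter {G : Type*} [Fintype G] [Nonempty G] (μ : G → ℝ) (h : IsLaw μ)
    (hk : kl μ (unif G) ≤ 1 / 8) : tvUnif μ ≤ 1 / 4 := by
  have hcard : (0 : ℝ) < (Fintype.card G : ℝ) := by exact_mod_cast Fintype.card_pos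
  have hP := pinsker μ (unif G) h.1 (fun a => by unfold unif; positivity)
    (fun a ha => by
      unfold unif at ha
      exact absurd ha (by positivity)) h.2
    (by
      unfold unif
      rw [Finset.sum_const, Finset.card_univ, nsmul_eq_mul]
      field_simp)
  unfold tvUnif
  unfold unif at hP
  set s := ∑ g : G, |μ g - 1 / (Fintype.card G : ℝ)| with hs
  have hs0 : 0 ≤ s := Finset.sum_nonneg (fun a _ => abs_nonneg _)
  have h2 : s ^ 2 ≤ (1 / 2) ^ 2 := by
    have : kl μ (fun _ => 1 / (Fintype.card G : ℝ)) ≤ 1 / 8 := hk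
    nlinarith
  have h3 : s ≤ 1 / 2 := by
    have := abs_le_of_sq_le_sq h2 (by norm_num)
    exact le_trans (le_abs_self s) this
  linarith

end Vale.Agent.P162.KL
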