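import Vale.Agent.P162.KL.Chan
import Vale.Agent.P162.Scalar.Harmonic

/-!
P162 : from one-step implications between contraction statements to the harmonic bound.

`PZ M e` stands for: the closed-set channel on `2 M` points contracts with constant `e`;
`PT M e` stands for: the transversal channel on `2 M` points contracts with constant `e`.
-/

namespace Vale.Agent.P162.KL

/-- the set of admissible constants of a strong data processing inequality is closed -/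
theorem SDPI_closed {A B : Type*} [Fintype A] [Fintype B] (K : A → B → ℝ) (η : ℝ)
    (h : ∀ e, η < e → SDPI K e) : SDPI K η := by
  intro p hp
  obtain ⟨a, ha⟩ : ∃ a, a = kl (push K p) (push K (unif A)) := ⟨_, rfl⟩
  obtain ⟨b, hb⟩ : ∃ b, b = kl p (unif A) := ⟨_, rfl⟩
  rw [← ha, ← hb]
  have h1 : ∀ ε : ℝ, 0 < ε → a ≤ (η + ε) * b := by
    intro ε hε
    have := h (η + ε) (by linarith) p hp
    rwa [← ha, ← hb] at this
  by_cases hb0 : b ≤ 0
  · have := h1 1 one_pos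
    nlinarith
  · have hbpos : 0 < b := not_le.mp hb0
    apply le_of_forall_pos_le_add
    intro ε hε
    have := h1 (ε / b) (by positivity)
    have h2 : (η + ε / b) * b = η * b + ε := by field_simp
    linarith

section best

variable (P : ℝ → Prop)

/-- the least admissible nonnegative constant -/
noncomputable def bestOf : ℝ := sInf {e | 0 ≤ e ∧ P e}

lemma bestOf_nonneg (c : ℝ) (hc0 : 0 ≤ c) (hc : P c) : 0 ≤ bestOf P :=
  le_csInf ⟨c, hc0, hc⟩ (fun _ he => he.1)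

lemma bestOf_le (c : ℝ) (hc0 : 0 ≤ c) (hc : P c) : bestOf P ≤ c :=
  csInf_le ⟨0, fun _ he => he.1⟩ ⟨hc0, hc⟩

lemma bestOf_spec (mono : ∀ e e', P e → e ≤ e' → P e')
    (closed : ∀ e, (∀ e', e < e' → P e') → P e) (c : ℝ) (hc0 : 0 ≤ c) (hc : P c) :
    P (bestOf P) := by
  apply closed
  intro e' he'
  obtain ⟨e, he, hlt⟩ := exists_lt_of_csInf_lt (s := {e | 0 ≤ e ∧ P e}) ⟨c, hc0, hc⟩ he'
  exact mono e e' he.2 hlt.le

end best

theorem assemble (PZ PT : ℕ → ℝ → Prop)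
    (monoZ : ∀ M e e', PZ M e → e ≤ e' → PZ M e')
    (closedZ : ∀ M e, (∀ e', e < e' → PZ M e') → PZ M e)
    (monoT : ∀ M e e', PT M e → e ≤ e' → PT M e')
    (closedT : ∀ M e, (∀ e', e < e' → PT M e') → PT M e)
    (trivZ : ∀ M, PZ M 1) (trivT : ∀ M, PT M (1 / 2))
    (K : ℝ) (hK : 0 ≤ K) (M1 : ℕ) (hKM : K < M1)
    (stepZ : ∀ M : ℕ, M1 ≤ M → ∀ g : ℝ, 0 ≤ g →
      (∀ n : ℕ, 2 * M ≤ 5 * n → 5 * n ≤ 3 * M → PZ n g) →
        PZ M ((1 + K / M) * (g + K / M) / (1 - K / M + g)))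
    (stepT : ∀ M : ℕ, M1 ≤ M → ∀ zt sg : ℝ, 0 ≤ zt → 0 ≤ sg → PZ M zt →
      (∀ n : ℕ, 2 * M ≤ 5 * n → 5 * n ≤ 3 * M → PT n sg) →
        PT M ((20 / 19 * zt + sg + K / M) / 2)) :
    ∃ j0 : ℕ, ∀ j : ℕ, j0 ≤ j → PT (2 ^ j) ((17 / 10) / ((j : ℝ) + 1)) := by
  obtain ⟨z, hz⟩ : ∃ z : ℕ → ℝ, z = fun M => bestOf (PZ M) := ⟨_, rfl⟩
  obtain ⟨s, hs⟩ : ∃ s : ℕ → ℝ, s = fun M => bestOf (PT M) := ⟨_, rfl⟩
  have hz0 : ∀ M, 0 ≤ z M := fun M => by
    rw [hz]; exact bestOf_nonneg (PZ M) 1 zero_le_one (trivZ M)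
  have hz1 : ∀ M, z M ≤ 1 := fun M => by
    rw [hz]; exact bestOf_le (PZ M) 1 zero_le_one (trivZ M)
  have hzP : ∀ M, PZ M (z M) := fun M => by
    rw [hz]; exact bestOf_spec (PZ M) (monoZ M) (closedZ M) 1 zero_le_one (trivZ M)
  have hs0 : ∀ M, 0 ≤ s M := fun M => by
    rw [hs]; exact bestOf_nonneg (PT M) (1 / 2) (by norm_num) (trivT M)
  have hs1 : ∀ M, s M ≤ 1 / 2 := fun M => by
    rw [hs]; exact bestOf_le (PT M) (1 / 2) (by norm_num) (trivT M)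
  have hsP : ∀ M, PT M (s M) := fun M => by
    rw [hs]; exact bestOf_spec (PT M) (monoT M) (closedT M) (1 / 2) (by norm_num) (trivT M)
  have hzle : ∀ M c, 0 ≤ c → PZ M c → z M ≤ c := fun M c hc0 hc => by
    rw [hz]; exact bestOf_le (PZ M) c hc0 hc
  have hsle : ∀ M c, 0 ≤ c → PT M c → s M ≤ c := fun M c hc0 hc => by
    rw [hs]; exact bestOf_le (PT M) c hc0 hc
  have hZ : ∀ M : ℕ, M1 ≤ M → ∀ g : ℝ, 0 ≤ g →
      (∀ n : ℕ, 2 * M ≤ 5 * n → 5 * n ≤ 3 * M → z n ≤ g) →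
      z M * (1 - K / M + g) ≤ (1 + K / M) * (g + K / M) := by
    intro M hM g hg hwin
    have hM1R : (M1 : ℝ) ≤ M := by exact_mod_cast hM
    have hMpos : (0 : ℝ) < M := by linarith
    have he0 : 0 ≤ K / M := by positivity
    have he1 : K / M < 1 := by rw [div_lt_one hMpos]; linarith
    have hden : 0 < 1 - K / M + g := by linarith
    have h1 := stepZ M hM g hg (fun n h1 h2 => monoZ n _ _ (hzP n) (hwin n h1 h2))
    have h2 := hzle M _ (by positivity) h1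
    rwa [le_div_iff₀ hden] at h2
  have hT : ∀ M : ℕ, M1 ≤ M → ∀ sg : ℝ, 0 ≤ sg →
      (∀ n : ℕ, 2 * M ≤ 5 * n → 5 * n ≤ 3 * M → s n ≤ sg) →
      2 * s M ≤ 20 / 19 * z M + sg + K / M := by
    intro M hM sg hsg hwin
    have hM1R : (M1 : ℝ) ≤ M := by exact_mod_cast hM
    have hMpos : (0 : ℝ) < M := by linarith
    have he0 : 0 ≤ K / M := by positivity
    have h1 := stepT M hM (z M) sg (hz0 M) hsg (hzP M)
      (fun n h1 h2 => monoT n _ _ (hsP n) (hwin n h1 h2))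
    have h2 := hsle M _ (by have := hz0 M; positivity) h1
    linarith
  obtain ⟨j0, hj0⟩ := Vale.Agent.P162.harmonic_two_fifths K M1 hK z s hz0 hz1 hs0 hs1 hZ hT
  exact ⟨j0, fun j hj => monoT _ _ _ (hsP (2 ^ j)) (hj0 j hj)⟩

end Vale.Agent.P162.KL
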