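import Vale.Agent.P162.KL.Chan

/-!
# P162 : the new-bit channel of the Thorp shuffle is the channel matching -> uniform transversal
-/

namespace Vale.Agent.P162.KL

open Finset

/-- the position with the same index in the other half of the deck -/
def flipHalfFun (M : ℕ) (x : Fin (2 * M)) : Fin (2 * M) :=
  if _h : x.val < M then ⟨x.val + M, by omega⟩ else ⟨x.val - M, by omega⟩

theorem flipHalfFun_val (M : ℕ) (x : Fin (2 * M)) :
    (flipHalfFun M x).val = if x.val < M then x.val + M else x.val - M := by
  unfold flipHalfFun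
  split_ifs <;> rfl

theorem flipHalfFun_invol (M : ℕ) (x : Fin (2 * M)) : flipHalfFun M (flipHalfFun M x) = x := by
  apply Fin.ext
  have hx := x.2
  rw [flipHalfFun_val, flipHalfFun_val]
  split_ifs <;> omega

/-- the exchange of the two halves of the deck, as a permutation of the positions -/
def flipP (M : ℕ) : Equiv.Perm (Fin (2 * M)) :=
  ⟨flipHalfFun M, flipHalfFun M, flipHalfFun_invol M, flipHalfFun_invol M⟩

theorem flipP_val (M : ℕ) (x : Fin (2 * M)) :
    (flipP M x).val = if x.val < M then x.val + M else x.val - M := flipHalfFun_val M x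

/-- a perfect matching of `S`, encoded as an involution without fixed points -/
def IsMt {S : Type*} (μ : Equiv.Perm S) : Prop := (∀ x, μ (μ x) = x) ∧ ∀ x, μ x ≠ x

instance {S : Type*} [Fintype S] [DecidableEq S] : DecidablePred (IsMt : Equiv.Perm S → Prop) :=
  fun μ => by unfold IsMt; infer_instance

theorem isMt_flipP (M : ℕ) : IsMt (flipP M) := by
  refine ⟨flipHalfFun_invol M, ?_⟩
  intro x h
  have h1 := congrArg Fin.val h
  have hx := x.2
  rw [flipP_val] at h1
  split_ifs at h1 <;> omega

/-- the matching of the cards: `x` and `x'` are matched if their positions `h x`, `h x'` have the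
same index in the two halves of the deck -/
def matchOf (M : ℕ) (h : Equiv.Perm (Fin (2 * M))) : Equiv.Perm (Fin (2 * M)) :=
  h⁻¹ * flipP M * h

theorem matchOf_apply (M : ℕ) (h : Equiv.Perm (Fin (2 * M))) (x : Fin (2 * M)) :
    matchOf M h x = h.symm (flipP M (h x)) := rfl

theorem isMt_matchOf (M : ℕ) (h : Equiv.Perm (Fin (2 * M))) : IsMt (matchOf M h) := by
  refine ⟨?_, ?_⟩
  · intro x
    rw [matchOf_apply, matchOf_apply, Equiv.apply_symm_apply, (isMt_flipP M).1,
      Equiv.symm_apply_apply]
  · intro x hx
    rw [matchOf_apply, Equiv.symm_apply_eq] at hx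
    exact (isMt_flipP M).2 _ hx

theorem thorpMap_val (m : ℕ) (b : Fin m → Bool) (x : Fin (2 * m)) :
    (thorpMap m b x).val = if h : x.val < m then 2 * x.val + (if b ⟨x.val, h⟩ then 1 else 0)
      else 2 * (x.val - m) + (if b ⟨x.val - m, by omega⟩ then 0 else 1) := by
  unfold thorpMap
  by_cases h : x.val < m
  · rw [dif_pos h, dif_pos h]
  · rw [dif_neg h, dif_neg h]

/-- closed form of the new bit -/
theorem newBit_eq (M : ℕ) (h : Equiv.Perm (Fin (2 * M))) (b : Fin M → Bool) (x : Fin (2 * M)) :
    newBit M h b x = if hx : (h x).val < M then b ⟨(h x).val, hx⟩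
      else !b ⟨(h x).val - M, by have := (h x).2; omega⟩ := by
  unfold newBit
  rw [thorpMap_val]
  by_cases hx : (h x).val < M
  · rw [dif_pos hx, dif_pos hx]
    cases hb : b ⟨(h x).val, hx⟩
    · rw [decide_eq_false_iff_not]
      simp only [Bool.false_eq_true, if_false]
      omega
    · rw [decide_eq_true_eq]
      simp only [if_true]
      omega
  · rw [dif_neg hx, dif_neg hx]
    cases hb : b ⟨(h x).val - M, by have := (h x).2; omega⟩
    · rw [Bool.not_false, decide_eq_true_eq]
      simp only [Bool.false_eq_true, if_false]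
      omega
    · rw [Bool.not_true, decide_eq_false_iff_not]
      simp only [if_true]
      omega

theorem newBit_matchOf (M : ℕ) (h : Equiv.Perm (Fin (2 * M))) (b : Fin M → Bool)
    (x : Fin (2 * M)) : newBit M h b (matchOf M h x) = !newBit M h b x := by
  rw [newBit_eq, newBit_eq]
  have e : h (matchOf M h x) = flipP M (h x) := by
    rw [matchOf_apply, Equiv.apply_symm_apply]
  have hv := flipP_val M (h x)
  have hx := (h x).2
  by_cases h1 : (h x).val < M
  · have h2 : ¬ (h (matchOf M h x)).val < M := by
      rw [e, hv, if_pos h1]; omega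
    rw [dif_neg h2, dif_pos h1]
    congr 2
    apply Fin.ext
    simp only [e, hv, if_pos h1]
    omega
  · have h2 : (h (matchOf M h x)).val < M := by
      rw [e, hv, if_neg h1]; omega
    rw [dif_pos h2, dif_neg h1, Bool.not_not]
    congr 1
    apply Fin.ext
    simp only [e, hv, if_neg h1]

/-- the position `i` of the top half -/
def lowPos (M : ℕ) (i : Fin M) : Fin (2 * M) := ⟨i.val, by have := i.2; omega⟩

theorem newBit_lowPos (M : ℕ) (h : Equiv.Perm (Fin (2 * M))) (b : Fin M → Bool) (i : Fin M) :
    newBit M h b (h.symm (lowPos M i)) = b i := by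
  rw [newBit_eq]
  have e : h (h.symm (lowPos M i)) = lowPos M i := Equiv.apply_symm_apply _ _
  have h1 : (h (h.symm (lowPos M i))).val < M := by rw [e]; exact i.2
  rw [dif_pos h1]
  congr 1
  apply Fin.ext
  simp only [e]
  rfl

/-- The new-bit channel: the uniform law on the `2 ^ M` transversals of the matching. -/
theorem bitChan_eq (M : ℕ) (h : Equiv.Perm (Fin (2 * M))) (τ : Fin (2 * M) → Bool) :
    bitChan M h τ = if (∀ x, τ (matchOf M h x) = !τ x) then 1 / 2 ^ M else 0 := by
  unfold bitChan
  split_ifs with hτ
  · have hcard : (Finset.univ.filter (fun b : Fin M → Bool => newBit M h b = τ))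
        = {fun i => τ (h.symm (lowPos M i))} := by
      ext b
      simp only [Finset.mem_filter, Finset.mem_univ, true_and, Finset.mem_singleton]
      constructor
      · intro hb
        funext i
        rw [← hb, newBit_lowPos]
      · intro hb
        subst hb
        funext x
        rw [newBit_eq]
        have hx := (h x).2
        by_cases h1 : (h x).val < M
        · rw [dif_pos h1]
          have : lowPos M ⟨(h x).val, h1⟩ = h x := Fin.ext rfl
          rw [this, Equiv.symm_apply_apply]
        · rw [dif_neg h1]
          have : lowPos M ⟨(h x).val - M, by omega⟩ = flipP M (h x) := by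
            apply Fin.ext
            rw [flipP_val, if_neg h1]
            rfl
          rw [this, ← matchOf_apply, hτ, Bool.not_not]
    rw [hcard, Finset.card_singleton]
    norm_num
  · have hcard : (Finset.univ.filter (fun b : Fin M → Bool => newBit M h b = τ)) = ∅ := by
      apply Finset.filter_eq_empty_iff.2
      intro b _ hb
      apply hτ
      intro x
      rw [← hb, newBit_matchOf]
    rw [hcard]
    simp

theorem isChan_bitChan (M : ℕ) : IsChan (bitChan M) := by
  intro h
  refine ⟨fun τ => by unfold bitChan; positivity, ?_⟩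
  unfold bitChan
  rw [← Finset.sum_div, ← Nat.cast_sum]
  have : ∑ τ : Fin (2 * M) → Bool,
      (Finset.univ.filter (fun b : Fin M → Bool => newBit M h b = τ)).card
      = (Finset.univ : Finset (Fin M → Bool)).card :=
    (Finset.card_eq_sum_card_fiberwise (fun b _ => Finset.mem_univ (newBit M h b))).symm
  rw [this, Finset.card_univ]
  simp

/-! ### all matchings are conjugate, the fibres of `matchOf` have the same size -/

theorem cycleType_of_isMt {S : Type*} [Fintype S] [DecidableEq S] (μ : Equiv.Perm S)
    (h : IsMt μ) : μ.cycleType = Multiset.replicate (Fintype.card S / 2) 2 := by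
  have hsq : μ ^ 2 = 1 := by
    ext x
    simp [sq, h.1]
  have h2 : ∀ n ∈ μ.cycleType, n = 2 := by
    intro n hn
    have h1 := Equiv.Perm.two_le_of_mem_cycleType hn
    have h3 : n ∣ 2 := (Equiv.Perm.dvd_of_mem_cycleType hn).trans (orderOf_dvd_of_pow_eq_one hsq)
    have := Nat.le_of_dvd (by norm_num) h3
    omega
  have hsupp : μ.support = Finset.univ := by
    ext x
    simp [h.2 x]
  have hsum := Equiv.Perm.sum_cycleType μ
  rw [hsupp, Finset.card_univ] at hsum
  have e := Multiset.eq_replicate_card.2 h2
  rw [e, Multiset.sum_replicate, smul_eq_mul] at hsum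
  rw [e]
  congr 1
  omega

theorem exists_matchOf_eq (M : ℕ) (μ : Equiv.Perm (Fin (2 * M))) (hμ : IsMt μ) :
    ∃ h, matchOf M h = μ := by
  have hc : IsConj (flipP M) μ := by
    rw [Equiv.Perm.isConj_iff_cycleType_eq, cycleType_of_isMt _ (isMt_flipP M),
      cycleType_of_isMt _ hμ]
  obtain ⟨c, hc⟩ := isConj_iff.1 hc
  exact ⟨c⁻¹, by unfold matchOf; rw [inv_inv]; exact hc⟩

theorem matchOf_one (M : ℕ) : matchOf M 1 = flipP M := by
  unfold matchOf
  simp

theorem matchOf_mul (M : ℕ) (h h₀ : Equiv.Perm (Fin (2 * M))) :
    matchOf M (h * h₀) = h₀⁻¹ * matchOf M h * h₀ := by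
  unfold matchOf
  group

theorem card_fibre_matchOf (M : ℕ) (μ : Equiv.Perm (Fin (2 * M))) (hμ : IsMt μ) :
    (Finset.univ.filter (fun h => matchOf M h = μ)).card
      = (Finset.univ.filter (fun h => matchOf M h = flipP M)).card := by
  obtain ⟨h₀, rfl⟩ := exists_matchOf_eq M μ hμ
  symm
  apply Finset.card_bij (fun h _ => h * h₀)
  · intro h hh
    simp only [Finset.mem_filter, Finset.mem_univ, true_and] at hh ⊢
    rw [matchOf_mul, hh]
    rfl
  · intro a _ b _ hab
    exact mul_right_cancel hab
  · intro g hg
    simp only [Finset.mem_filter, Finset.mem_univ, true_and] at hg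
    refine ⟨g * h₀⁻¹, ?_, by group⟩
    simp only [Finset.mem_filter, Finset.mem_univ, true_and]
    rw [matchOf_mul, hg]
    unfold matchOf
    group

theorem card_fibre_matchOf_pos (M : ℕ) :
    0 < (Finset.univ.filter (fun h => matchOf M h = flipP M)).card :=
  Finset.card_pos.2 ⟨1, by simp [matchOf_one]⟩

/-! ### lifting an SDPI along a map with fibres of constant size -/

theorem pm_id {A : Type*} [Fintype A] [DecidableEq A] (q : A → ℝ) : pm q (id : A → A) = q := by
  funext a
  simp [pm, Finset.filter_eq']

theorem SDPI_lift {A A' B : Type*} [Fintype A] [Fintype A'] [Fintype B] [DecidableEq A]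
    [DecidableEq A'] (π : A → A') (c : ℕ) (hc0 : 0 < c)
    (hc : ∀ a', (Finset.univ.filter (fun a => π a = a')).card = c)
    (K' : A' → B → ℝ) (η : ℝ) (hη : 0 ≤ η) (h : SDPI K' η) : SDPI (fun a => K' (π a)) η := by
  intro p hp
  have hcardA : (Fintype.card A : ℝ) = c * Fintype.card A' := by
    have : Fintype.card A = ∑ a' : A', (Finset.univ.filter (fun a => π a = a')).card := by
      rw [← Finset.card_univ]
      exact Finset.card_eq_sum_card_fiberwise (fun a _ => Finset.mem_univ (π a))
    rw [this]
    simp [hc]
    ring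
  have hA : (Fintype.card A : ℝ) ≠ 0 := by
    intro h0
    have h1 : Fintype.card A = 0 := by exact_mod_cast h0
    have : IsEmpty A := Fintype.card_eq_zero_iff.1 h1
    have h2 := hp.2
    simp at h2
  have hc' : (c : ℝ) ≠ 0 := by positivity
  have hA' : (Fintype.card A' : ℝ) ≠ 0 := by
    intro h0
    rw [h0, mul_zero] at hcardA
    exact hA hcardA
  have hpush : ∀ q : A → ℝ, push (fun a => K' (π a)) q = push K' (pm q π) := by
    intro q
    funext b
    unfold push pm
    rw [← Finset.sum_fiberwise Finset.univ π]
    apply Finset.sum_congr rfl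
    intro a' _
    rw [Finset.sum_mul]
    apply Finset.sum_congr rfl
    intro a ha
    show q a * K' (π a) b = q a * K' a' b
    rw [(Finset.mem_filter.1 ha).2]
  have hunif : pm (unif A) π = unif A' := by
    funext a'
    unfold pm unif
    rw [Finset.sum_const, hc, nsmul_eq_mul, hcardA]
    field_simp
  rw [hpush, hpush, hunif]
  have hp' : IsLaw (pm p π) := ⟨pm_nonneg p hp.1 π, by rw [pm_sum]; exact hp.2⟩
  refine (h _ hp').trans (mul_le_mul_of_nonneg_left ?_ hη)
  have hpair : Pair p (unif A) := by
    refine ⟨hp.1, fun w => by unfold unif; positivity, ?_, hp.2, ?_⟩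
    · intro w hw
      unfold unif at hw
      exact absurd hw (by positivity)
    · unfold unif
      rw [Finset.sum_const, Finset.card_univ, nsmul_eq_mul]
      field_simp
  have h1 := Dv_comp_le hpair (id : A → A) π
  unfold Dv at h1
  rw [pm_id, pm_id, Function.comp_id, hunif] at h1
  exact h1

/-! ### the transversal channel on matchings -/

/-- the channel matching -> uniform transversal (a colouring `τ` of the points which takes both
values on every edge) -/
noncomputable def trChan (S : Type*) [Fintype S] (μ : {μ : Equiv.Perm S // IsMt μ})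
    (τ : S → Bool) : ℝ :=
  open Classical in if (∀ x, τ (μ.1 x) = !τ x) then 1 / 2 ^ (Fintype.card S / 2) else 0

theorem bitChan_eq_trChan (M : ℕ) (h : Equiv.Perm (Fin (2 * M))) :
    bitChan M h = trChan (Fin (2 * M)) ⟨matchOf M h, isMt_matchOf M h⟩ := by
  funext τ
  rw [bitChan_eq]
  unfold trChan
  have : Fintype.card (Fin (2 * M)) / 2 = M := by simp
  rw [this]
  congr

/-- An SDPI for the transversal channel on the matchings of `Fin (2 M)` gives the same SDPI for the
new-bit channel of the Thorp shuffle of `2 M` cards. -/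
theorem SDPI_bitChan_of_trChan (M : ℕ) [Fintype {μ : Equiv.Perm (Fin (2 * M)) // IsMt μ}]
    (η : ℝ) (hη : 0 ≤ η) (h : SDPI (trChan (Fin (2 * M))) η) : SDPI (bitChan M) η := by
  have h1 := SDPI_lift (fun h : Equiv.Perm (Fin (2 * M)) =>
      (⟨matchOf M h, isMt_matchOf M h⟩ : {μ : Equiv.Perm (Fin (2 * M)) // IsMt μ}))
    _ (card_fibre_matchOf_pos M) (by
      intro μ
      rw [← card_fibre_matchOf M μ.1 μ.2]
      congr 1
      ext h
      simp [Subtype.ext_iff]) (trChan (Fin (2 * M))) η hη h
  have e : bitChan M = fun h : Equiv.Perm (Fin (2 * M)) =>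
      trChan (Fin (2 * M)) ⟨matchOf M h, isMt_matchOf M h⟩ := by
    funext h
    exact bitChan_eq_trChan M h
  rw [e]
  exact h1

end Vale.Agent.P162.KL
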