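import Vale.Agent.P162.KL.Basic
import Vale.Agent.P162.Defs

/-!
# P162 : channels, strong data processing, the new-bit channel of the Thorp shuffle
Definitions only (shared interface of the TOP half and the (P2) half).
-/

namespace Vale.Agent.P162.KL

open Finset Real

/-- a probability law on a finite type -/
def IsLaw {A : Type*} [Fintype A] (p : A → ℝ) : Prop := (∀ a, 0 ≤ p a) ∧ ∑ a, p a = 1

/-- the uniform law -/
noncomputable def unif (A : Type*) [Fintype A] : A → ℝ := fun _ => 1 / (Fintype.card A : ℝ)

/-- a channel (stochastic matrix) -/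
def IsChan {A B : Type*} [Fintype B] (K : A → B → ℝ) : Prop := ∀ a, IsLaw (K a)

/-- output law of the channel `K` for the input law `p` -/
noncomputable def push {A B : Type*} [Fintype A] (K : A → B → ℝ) (p : A → ℝ) : B → ℝ :=
  fun b => ∑ a, p a * K a b

/-- strong data processing inequality with constant `η`, reference = uniform input law -/
def SDPI {A B : Type*} [Fintype A] [Fintype B] (K : A → B → ℝ) (η : ℝ) : Prop :=
  ∀ p : A → ℝ, IsLaw p → kl (push K p) (push K (unif A)) ≤ η * kl p (unif A)

/-- joint law of `(f ω, output of K at ω)` when `ω` has law `μ` -/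
noncomputable def joint {Om A B : Type*} [Fintype Om] [DecidableEq A] (f : Om → A)
    (K : Om → B → ℝ) (μ : Om → ℝ) : A × B → ℝ :=
  fun ab => ∑ ω, if f ω = ab.1 then μ ω * K ω ab.2 else 0

/-- the column of new lowest bits: card `x` sits at position `h x`, the shuffle with coins `b`
moves it to `thorpMap M b (h x)`; the entry is `true` iff that position is odd -/
def newBit (M : ℕ) (h : Equiv.Perm (Fin (2 * M))) (b : Fin M → Bool) : Fin (2 * M) → Bool :=
  fun x => decide ((thorpMap M b (h x)).val % 2 = 1)

/-- the new-bit channel of the Thorp shuffle of `2 M` cards -/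
noncomputable def bitChan (M : ℕ) (h : Equiv.Perm (Fin (2 * M))) (τ : Fin (2 * M) → Bool) : ℝ :=
  ((Finset.univ.filter (fun b : Fin M → Bool => newBit M h b = τ)).card : ℝ) / 2 ^ M

end Vale.Agent.P162.KL
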