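import Vale.Agent.P162.KL.AbsStep53
import Vale.Agent.P162.KL.Chan

/-!
# P162 : from `KL.SDPI` of a channel to `Abs.JS` of a joint weight carried by an embedded copy
-/

namespace Vale.Agent.P162.Abs

open Finset Real Vale.Agent.P162.KL

variable {A Y A1 B1 : Type*} [Fintype A] [Fintype Y] [Fintype A1] [Fintype B1]

/-- a term identity: change of the normalisation inside the logarithm -/
theorem log_shift (P V m n : ℝ) (h : P ≠ 0 → (V ≠ 0 ∧ m ≠ 0 ∧ n ≠ 0)) :
    P * Real.log (P / (m * (V / n))) = P * Real.log (P / V) - P * Real.log (m / n) := by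
  by_cases hP : P = 0
  · subst hP; simp
  · obtain ⟨hV, hm, hn⟩ := h hP
    have e : P / (m * (V / n)) = (P / V) / (m / n) := by
      field_simp
    rw [e, Real.log_div (div_ne_zero hP hV) (div_ne_zero hm hn)]
    ring

/-- the homogeneous form of `SDPI` in the normalisation of `klw` -/
theorem SDPI_klw {K : A1 → B1 → ℝ} {η : ℝ} (hK : IsChan K) (h : SDPI K η) (f : A1 → ℝ)
    (hf : ∀ a, 0 ≤ f a) :
    (∑ b, (∑ a, f a * K a b) * Real.log ((∑ a, f a * K a b) / (∑ a, K a b)))
        - (∑ a, f a) * Real.log ((∑ a, f a) / (Fintype.card A1 : ℝ)) ≤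
      η * ((∑ a, f a * Real.log (f a))
        - (∑ a, f a) * Real.log ((∑ a, f a) / (Fintype.card A1 : ℝ))) := by
  set m := ∑ a, f a with hm
  set n : ℝ := (Fintype.card A1 : ℝ) with hn
  have hm_ne : ∀ a, f a ≠ 0 → m ≠ 0 := by
    intro a ha hm0
    exact ha ((Finset.sum_eq_zero_iff_of_nonneg (fun a _ => hf a)).1 hm0 a (Finset.mem_univ a))
  have hn_ne : ∀ _a : A1, n ≠ 0 := by
    intro a
    have : 0 < Fintype.card A1 := Fintype.card_pos_iff.2 ⟨a⟩
    rw [hn]
    exact_mod_cast this.ne'
  have hU : ∀ b, push K (unif A1) b = (∑ a, K a b) / n := by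
    intro b
    unfold push unif
    rw [Finset.sum_div]
    exact Finset.sum_congr rfl (fun a _ => by ring)
  have hP : ∀ b, push K f b = ∑ a, f a * K a b := fun b => rfl
  have e1 : ∑ b, push K f b * Real.log (push K f b / (m * push K (unif A1) b)) =
      (∑ b, (∑ a, f a * K a b) * Real.log ((∑ a, f a * K a b) / (∑ a, K a b)))
        - m * Real.log (m / n) := by
    have hs : ∑ b, ∑ a, f a * K a b = m := by
      rw [Finset.sum_comm]
      refine Finset.sum_congr rfl (fun a _ => ?_)
      rw [← Finset.mul_sum, (hK a).2, mul_one]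
    rw [← hs, Finset.sum_mul, ← Finset.sum_sub_distrib, hs]
    refine Finset.sum_congr rfl (fun b _ => ?_)
    rw [hU b, hP b]
    apply log_shift
    intro hne
    obtain ⟨a, _, ha⟩ := Finset.exists_ne_zero_of_sum_ne_zero hne
    have hfa : f a ≠ 0 := left_ne_zero_of_mul ha
    have hKa : K a b ≠ 0 := right_ne_zero_of_mul ha
    refine ⟨?_, hm_ne a hfa, hn_ne a⟩
    intro hV
    exact hKa ((Finset.sum_eq_zero_iff_of_nonneg (fun a _ => (hK a).1 b)).1 hV a
      (Finset.mem_univ a))
  have e2 : ∑ a, f a * Real.log (f a / (m * unif A1 a)) =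
      (∑ a, f a * Real.log (f a)) - m * Real.log (m / n) := by
    rw [hm, Finset.sum_mul, ← Finset.sum_sub_distrib, ← hm]
    refine Finset.sum_congr rfl (fun a _ => ?_)
    have := log_shift (f a) 1 m n (fun hne => ⟨one_ne_zero, hm_ne a hne, hn_ne a⟩)
    rw [div_one] at this
    unfold unif
    exact this
  have hm0 : 0 ≤ m := Finset.sum_nonneg (fun a _ => hf a)
  rcases hm0.eq_or_lt with hz | hpos
  · have hfz : ∀ a, f a = 0 := fun a =>
      (Finset.sum_eq_zero_iff_of_nonneg (fun a _ => hf a)).1 hz.symm a (Finset.mem_univ a)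
    simp [← hz, hfz]
  · have hlaw : IsLaw (fun a => f a / m) := by
      refine ⟨fun a => div_nonneg (hf a) hpos.le, ?_⟩
      rw [← Finset.sum_div, div_self hpos.ne']
    have h0 := h _ hlaw
    have c1 : kl (push K (fun a => f a / m)) (push K (unif A1)) =
        (∑ b, push K f b * Real.log (push K f b / (m * push K (unif A1) b))) / m := by
      unfold kl
      rw [Finset.sum_div]
      refine Finset.sum_congr rfl (fun b _ => ?_)
      have : push K (fun a => f a / m) b = push K f b / m := by
        unfold push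
        rw [Finset.sum_div]
        exact Finset.sum_congr rfl (fun a _ => by ring)
      rw [this, div_div]
      ring
    have c2 : kl (fun a => f a / m) (unif A1) =
        (∑ a, f a * Real.log (f a / (m * unif A1 a))) / m := by
      unfold kl
      rw [Finset.sum_div]
      refine Finset.sum_congr rfl (fun a _ => ?_)
      rw [div_div]
      ring
    rw [c1, c2, e1, e2, ← mul_div_assoc, div_le_div_iff_of_pos_right hpos] at h0
    exact h0

/-- **Embedding lemma.**  A joint weight that is `c` times a channel on an embedded copy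
`i : A1 → A`, `j : B1 → Y` and vanishes elsewhere inherits the SDPI constant of the channel. -/
theorem JS_of_SDPI_embed {K : A1 → B1 → ℝ} {η : ℝ} (hK : IsChan K) (h : SDPI K η)
    (W : A → Y → ℝ) (i : A1 → A) (hi : Function.Injective i) (j : B1 → Y)
    (hj : Function.Injective j) (c : ℝ) (hc : 0 ≤ c) (hWij : ∀ a b, W (i a) (j b) = c * K a b)
    (hWa : ∀ a y, a ∉ Set.range i → W a y = 0) (hWy : ∀ a y, y ∉ Set.range j → W a y = 0) :
    JS W η := by
  intro f hf
  set f1 : A1 → ℝ := fun a => f (i a) with hf1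
  set m := ∑ a, f1 a with hm
  set n : ℝ := (Fintype.card A1 : ℝ) with hn
  have o1 : ∀ b, ∑ a, f a * W a (j b) = c * ∑ a, f1 a * K a b := by
    intro b
    rw [Finset.mul_sum]
    symm
    apply Fintype.sum_of_injective i hi
    · intro a ha; rw [hWa a _ ha, mul_zero]
    · intro a; rw [hWij]; ring
  have o2 : ∀ b, ∑ a, W a (j b) = c * ∑ a, K a b := by
    intro b
    rw [Finset.mul_sum]
    symm
    apply Fintype.sum_of_injective i hi
    · intro a ha; rw [hWa a _ ha]
    · intro a; rw [hWij]
  have o3 : ∀ y, y ∉ Set.range j → ∑ a, f a * W a y = 0 := by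
    intro y hy
    exact Finset.sum_eq_zero (fun a _ => by rw [hWy a y hy, mul_zero])
  have o4 : ∀ y, y ∉ Set.range j → ∑ a, W a y = 0 := by
    intro y hy
    exact Finset.sum_eq_zero (fun a _ => hWy a y hy)
  have sP : ∑ b, ∑ a, f1 a * K a b = m := by
    rw [Finset.sum_comm]
    refine Finset.sum_congr rfl (fun a _ => ?_)
    rw [← Finset.mul_sum, (hK a).2, mul_one]
  have sV : ∑ b, ∑ a, K a b = n := by
    rw [Finset.sum_comm]
    simp only [(hK _).2]
    simp [hn]
  -- outputs
  have out_kl : kl (fun y => ∑ a, f a * W a y) (fun y => ∑ a, W a y) =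
      c * ∑ b, (∑ a, f1 a * K a b) * Real.log ((∑ a, f1 a * K a b) / (∑ a, K a b)) := by
    unfold kl
    rw [Finset.mul_sum]
    symm
    apply Fintype.sum_of_injective j hj
    · intro y hy; beta_reduce; rw [o3 y hy, zero_mul]
    · intro b; beta_reduce; rw [o1, o2, rew_term]
  have out_p : ∑ y, ∑ a, f a * W a y = c * m := by
    rw [← sP, Finset.mul_sum]
    symm
    apply Fintype.sum_of_injective j hj
    · intro y hy; exact o3 y hy
    · intro b; rw [o1]
  have out_q : ∑ y, ∑ a, W a y = c * n := by
    rw [← sV, Finset.mul_sum]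
    symm
    apply Fintype.sum_of_injective j hj
    · intro y hy; exact o4 y hy
    · intro b; rw [o2]
  -- inputs
  have i1 : ∀ a, ∑ y, W (i a) y = c := by
    intro a
    have : ∑ b, c * K a b = ∑ y, W (i a) y := by
      apply Fintype.sum_of_injective j hj
      · intro y hy; exact hWy _ y hy
      · intro b; rw [hWij]
    rw [← this, ← Finset.mul_sum, (hK a).2, mul_one]
  have i2 : ∀ a, a ∉ Set.range i → ∑ y, W a y = 0 := by
    intro a ha
    exact Finset.sum_eq_zero (fun y _ => hWa a y ha)
  have in_kl : kl (fun a => f a * ∑ y, W a y) (fun a => ∑ y, W a y) =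
      c * ∑ a, f1 a * Real.log (f1 a) := by
    rw [kl_density, Finset.mul_sum]
    symm
    apply Fintype.sum_of_injective i hi
    · intro a ha; rw [i2 a ha, zero_mul]
    · intro a; rw [i1]
  have in_p : ∑ a, f a * ∑ y, W a y = c * m := by
    rw [hm, Finset.mul_sum]
    symm
    apply Fintype.sum_of_injective i hi
    · intro a ha; rw [i2 a ha, mul_zero]
    · intro a; rw [i1]; ring
  have in_q : ∑ a, ∑ y, W a y = c * n := by
    have : ∑ _a : A1, c = ∑ a, ∑ y, W a y := by
      apply Fintype.sum_of_injective i hi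
      · intro a ha; exact i2 a ha
      · intro a; rw [i1]
    rw [← this]
    simp [hn, mul_comm]
  unfold klw
  rw [out_kl, out_p, out_q, in_kl, in_p, in_q, rew_term]
  have key := SDPI_klw hK h f1 (fun a => hf (i a))
  have := mul_le_mul_of_nonneg_left key hc
  calc _ = c * ((∑ b, (∑ a, f1 a * K a b) * Real.log ((∑ a, f1 a * K a b) / (∑ a, K a b)))
        - m * Real.log (m / n)) := by ring
    _ ≤ c * (η * ((∑ a, f1 a * Real.log (f1 a)) - m * Real.log (m / n))) := this
    _ = _ := by ring

end Vale.Agent.P162.Abs
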