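import Vale.Agent.P162.KL.Basic

/-!
# P162 : the abstract inequalities behind STEP Z and STEP T

Everything is a statement on finite sums of unnormalised joint weights.  `X` is the input type
(matchings), `φ` the density of the input law with respect to the reference weight `u`.
-/

namespace Vale.Agent.P162.KL

open Finset Real

variable {X Y : Type*} [Fintype X] [Fintype Y]

/-- data processing for one output letter. -/
theorem out_le_in (w : X → ℝ) (hw : ∀ m, 0 ≤ w m) (φ : X → ℝ) (hφ : ∀ m, 0 ≤ φ m) :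
    (∑ m, φ m * w m) * Real.log ((∑ m, φ m * w m) / (∑ m, w m))
      ≤ ∑ m, φ m * w m * Real.log (φ m) := by
  have h := log_sum Finset.univ (fun m => φ m * w m) w (fun m _ => mul_nonneg (hφ m) (hw m))
    (fun m _ => hw m) (fun m _ h0 => by simp [h0])
  refine le_trans h (le_of_eq ?_)
  apply Finset.sum_congr rfl
  intro m _
  by_cases h0 : w m = 0
  · simp [h0]
  · rw [mul_div_assoc, div_self h0, mul_one]

/-- a class of output letters whose total weight does not depend on the input has a nonnegative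
contribution to the divergence. -/
theorem class_nonneg (w : X → Y → ℝ) (hw : ∀ m y, 0 ≤ w m y) (φ : X → ℝ) (hφ : ∀ m, 0 ≤ φ m)
    (u : X → ℝ) (hnorm : ∑ m, φ m * u m = ∑ m, u m) (s : Finset Y) (p : ℝ)
    (hs : ∀ m, ∑ y ∈ s, w m y = p * u m) :
    0 ≤ ∑ y ∈ s, (∑ m, φ m * w m y) * Real.log ((∑ m, φ m * w m y) / (∑ m, w m y)) := by
  have h := log_sum s (fun y => ∑ m, φ m * w m y) (fun y => ∑ m, w m y)
    (fun y _ => Finset.sum_nonneg (fun m _ => mul_nonneg (hφ m) (hw m y)))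
    (fun y _ => Finset.sum_nonneg (fun m _ => hw m y))
    (fun y _ h0 => by
      have hz := (Finset.sum_eq_zero_iff_of_nonneg (fun m _ => hw m y)).1 h0
      apply Finset.sum_eq_zero
      intro m hm
      rw [hz m hm, mul_zero])
  have e1 : ∑ y ∈ s, ∑ m, φ m * w m y = p * ∑ m, u m := by
    rw [Finset.sum_comm]
    have : ∀ m, ∑ y ∈ s, φ m * w m y = p * (φ m * u m) := by
      intro m
      rw [← Finset.mul_sum, hs m]
      ring
    rw [Finset.sum_congr rfl (fun m _ => this m), ← Finset.mul_sum, hnorm]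
  have e2 : ∑ y ∈ s, ∑ m, w m y = p * ∑ m, u m := by
    rw [Finset.sum_comm, Finset.sum_congr rfl (fun m _ => hs m), ← Finset.mul_sum]
  rw [e1, e2] at h
  refine le_trans (le_of_eq ?_) h
  by_cases h0 : p * ∑ m, u m = 0
  · rw [h0, zero_mul]
  · rw [div_self h0, Real.log_one, mul_zero]

/-- the input side of a class of output letters. -/
theorem class_input (w : X → Y → ℝ) (φ : X → ℝ) (u : X → ℝ) (s : Finset Y) (p : ℝ)
    (hs : ∀ m, ∑ y ∈ s, w m y = p * u m) :
    ∑ y ∈ s, ∑ m, φ m * w m y * Real.log (φ m) = p * ∑ m, u m * (φ m * Real.log (φ m)) := by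
  rw [Finset.sum_comm, Finset.mul_sum]
  apply Finset.sum_congr rfl
  intro m _
  have : ∀ y, φ m * w m y * Real.log (φ m) = w m y * (φ m * Real.log (φ m)) := fun y => by ring
  rw [Finset.sum_congr rfl (fun y _ => this y), ← Finset.sum_mul, hs m]
  ring

/-- the common core of the two steps: a two-stage observation `(y, z)`; the second stage
contracts with constant `η y` given `y`; `η ≤ g` on the window, `η ≤ 1` off the window, and the
probability of being off the window is `dl` whatever the input is. -/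
theorem two_stage (W : X → Y → ℝ) (hW : ∀ m y, 0 ≤ W m y)
    (φ : X → ℝ) (hφ : ∀ m, 0 ≤ φ m)
    (u : X → ℝ) (hu : ∀ m, u m = ∑ y, W m y)
    (hnorm : ∑ m, φ m * u m = ∑ m, u m)
    (In : Y → Prop) [DecidablePred In] (dl : ℝ)
    (hout : ∀ m, ∑ y ∈ univ.filter (fun y => ¬ In y), W m y = dl * u m)
    (η : Y → ℝ) (g : ℝ) (hg : 0 ≤ g)
    (hin : ∀ y, In y → η y ≤ g) (hoff : ∀ y, ¬ In y → η y ≤ 1)
    (A : Y → ℝ)
    (hcond : ∀ y, A y - (∑ m, φ m * W m y) * Real.log ((∑ m, φ m * W m y) / (∑ m, W m y))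
        ≤ η y * (∑ m, φ m * W m y * Real.log (φ m)
          - (∑ m, φ m * W m y) * Real.log ((∑ m, φ m * W m y) / (∑ m, W m y)))) :
    ∑ y, A y ≤ (1 - g) * ∑ y, (∑ m, φ m * W m y) * Real.log ((∑ m, φ m * W m y) / (∑ m, W m y))
      + (g + dl) * ∑ m, u m * (φ m * Real.log (φ m)) := by
  set t : Y → ℝ := fun y => (∑ m, φ m * W m y) * Real.log ((∑ m, φ m * W m y) / (∑ m, W m y))
    with ht
  set F : Y → ℝ := fun y => ∑ m, φ m * W m y * Real.log (φ m) with hF
  have hE : ∀ y, 0 ≤ F y - t y := fun y => by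
    have := out_le_in (fun m => W m y) (fun m => hW m y) φ hφ
    simp only [hF, ht]
    linarith
  have hFsum : ∑ y, F y = ∑ m, u m * (φ m * Real.log (φ m)) := by
    have := class_input W φ u Finset.univ 1 (fun m => by rw [one_mul, hu m])
    rw [one_mul] at this
    exact this
  have hFout : ∑ y ∈ univ.filter (fun y => ¬ In y), F y
      = dl * ∑ m, u m * (φ m * Real.log (φ m)) := class_input W φ u _ dl hout
  have htout : 0 ≤ ∑ y ∈ univ.filter (fun y => ¬ In y), t y :=
    class_nonneg W hW φ hφ u hnorm _ dl hout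
  have hterm : ∀ y, A y ≤ t y + g * (F y - t y) + (if ¬ In y then F y - t y else 0) := by
    intro y
    have h1 := hcond y
    have h2 := hE y
    by_cases hy : In y
    · have h3 := mul_le_mul_of_nonneg_right (hin y hy) h2
      simp only [hy, not_true_eq_false, if_false]
      simp only [hF, ht] at h3 h2 ⊢
      linarith
    · have h3 := mul_le_mul_of_nonneg_right (hoff y hy) h2
      have h4 := mul_nonneg hg h2
      simp only [hy, not_false_eq_true, if_true]
      simp only [hF, ht] at h3 h2 h4 ⊢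
      linarith
  have hsum := Finset.sum_le_sum (fun y (_ : y ∈ Finset.univ) => hterm y)
  rw [Finset.sum_add_distrib, Finset.sum_add_distrib, ← Finset.mul_sum, Finset.sum_sub_distrib,
    ← Finset.sum_filter, Finset.sum_sub_distrib, hFsum, hFout] at hsum
  have e : (1 - g) * ∑ y, t y + (g + dl) * ∑ m, u m * (φ m * Real.log (φ m))
      = ∑ y, t y + g * (∑ m, u m * (φ m * Real.log (φ m)) - ∑ y, t y)
        + dl * ∑ m, u m * (φ m * Real.log (φ m)) := by ring
  rw [e]
  linarith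

/-- ABSTRACT STEP Z.  `W m y z` = joint weight of (input, first copy, second copy). -/
theorem stepZ_abs (W : X → Y → Y → ℝ) (hW : ∀ m y z, 0 ≤ W m y z)
    (φ : X → ℝ) (hφ : ∀ m, 0 ≤ φ m)
    (u : X → ℝ) (hu : ∀ m, u m = ∑ y, ∑ z, W m y z)
    (W1 : X → Y → ℝ) (hW1 : ∀ m y, W1 m y = ∑ z, W m y z)
    (Q R : Y → Y → ℝ) (hQ : ∀ y z, Q y z = ∑ m, φ m * W m y z) (hR : ∀ y z, R y z = ∑ m, W m y z)
    (q1 ν : Y → ℝ) (hq1 : ∀ y, q1 y = ∑ z, Q y z) (hν : ∀ y, ν y = ∑ z, R y z)
    (hnorm : ∑ m, φ m * u m = ∑ m, u m)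
    (In : Y → Prop) [DecidablePred In] (dl : ℝ)
    (hout : ∀ m, ∑ y ∈ univ.filter (fun y => ¬ In y), W1 m y = dl * u m)
    (η : Y → ℝ) (g ε : ℝ) (hg : 0 ≤ g)
    (hin : ∀ y, In y → η y ≤ g) (hoff : ∀ y, ¬ In y → η y ≤ 1)
    (hBL : (1 - ε) * (2 * kl q1 ν) ≤ ∑ y, ∑ z, Q y z * Real.log (Q y z / R y z))
    (hcond : ∀ y, ∑ z, Q y z * Real.log (Q y z / R y z) - q1 y * Real.log (q1 y / ν y)
        ≤ η y * (∑ m, φ m * W1 m y * Real.log (φ m) - q1 y * Real.log (q1 y / ν y))) :
    kl q1 ν * (1 - 2 * ε + g) ≤ (g + dl) * ∑ m, u m * (φ m * Real.log (φ m)) := by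
  have hq1' : ∀ y, q1 y = ∑ m, φ m * W1 m y := by
    intro y
    rw [hq1 y, Finset.sum_congr rfl (fun z _ => hQ y z), Finset.sum_comm]
    apply Finset.sum_congr rfl
    intro m _
    rw [hW1 m y, Finset.mul_sum]
  have hν' : ∀ y, ν y = ∑ m, W1 m y := by
    intro y
    rw [hν y, Finset.sum_congr rfl (fun z _ => hR y z), Finset.sum_comm]
    apply Finset.sum_congr rfl
    intro m _
    rw [hW1 m y]
  have hW1nn : ∀ m y, 0 ≤ W1 m y := fun m y => by
    rw [hW1 m y]
    exact Finset.sum_nonneg (fun z _ => hW m y z)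
  have hu' : ∀ m, u m = ∑ y, W1 m y := fun m => by
    rw [hu m]
    exact Finset.sum_congr rfl (fun y _ => (hW1 m y).symm)
  have key := two_stage W1 hW1nn φ hφ u hu' hnorm In dl hout η g hg hin hoff
    (fun y => ∑ z, Q y z * Real.log (Q y z / R y z)) (fun y => by
      have := hcond y
      rw [hq1' y, hν' y] at this
      exact this)
  have hkl : kl q1 ν
      = ∑ y, (∑ m, φ m * W1 m y) * Real.log ((∑ m, φ m * W1 m y) / (∑ m, W1 m y)) := by
    unfold kl
    apply Finset.sum_congr rfl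
    intro y _
    rw [hq1' y, hν' y]
  rw [← hkl] at key
  have e : kl q1 ν * (1 - 2 * ε + g) = (1 - ε) * (2 * kl q1 ν) - (1 - g) * kl q1 ν := by ring
  rw [e]
  linarith

/-- Change of the size law of the observed set: `rho a` is the ratio of the two size laws. -/
theorem reweight_abs (Wc : X → Y → ℝ) (hWc : ∀ m z, 0 ≤ Wc m z)
    (φ : X → ℝ) (hφ : ∀ m, 0 ≤ φ m) (u : X → ℝ) (hnorm : ∑ m, φ m * u m = ∑ m, u m)
    (sz : Y → ℕ) (I : Finset ℕ) (hI : ∀ z, sz z ∈ I)
    (pu rho : ℕ → ℝ) (hrho : ∀ a, 0 ≤ rho a)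
    (hclass : ∀ m a, ∑ z ∈ univ.filter (fun z => sz z = a), Wc m z = pu a * u m)
    (win : ℕ → Prop) [DecidablePred win] (kap : ℝ) (hkap : 0 ≤ kap)
    (hwin : ∀ a, win a → rho a ≤ kap) :
    ∑ z, (∑ m, φ m * (rho (sz z) * Wc m z))
        * Real.log ((∑ m, φ m * (rho (sz z) * Wc m z)) / (∑ m, rho (sz z) * Wc m z))
      ≤ kap * ∑ z, (∑ m, φ m * Wc m z) * Real.log ((∑ m, φ m * Wc m z) / (∑ m, Wc m z))
        + (∑ a ∈ I.filter (fun a => ¬ win a), rho a * pu a)
          * ∑ m, u m * (φ m * Real.log (φ m)) := by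
  set tc : Y → ℝ := fun z => (∑ m, φ m * Wc m z) * Real.log ((∑ m, φ m * Wc m z) / (∑ m, Wc m z))
    with htc
  set D : ℝ := ∑ m, u m * (φ m * Real.log (φ m)) with hD
  have hterm : ∀ z, (∑ m, φ m * (rho (sz z) * Wc m z))
        * Real.log ((∑ m, φ m * (rho (sz z) * Wc m z)) / (∑ m, rho (sz z) * Wc m z))
      = rho (sz z) * tc z := by
    intro z
    have e1 : ∑ m, φ m * (rho (sz z) * Wc m z) = rho (sz z) * ∑ m, φ m * Wc m z := by
      rw [Finset.mul_sum]
      exact Finset.sum_congr rfl (fun m _ => by ring)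
    have e2 : ∑ m, rho (sz z) * Wc m z = rho (sz z) * ∑ m, Wc m z := by
      rw [Finset.mul_sum]
    rw [e1, e2]
    by_cases h0 : rho (sz z) = 0
    · rw [h0]
      simp
    · rw [mul_div_mul_left _ _ h0]
      simp only [htc]
      ring
  rw [Finset.sum_congr rfl (fun z _ => hterm z)]
  set T : ℕ → ℝ := fun a => ∑ z ∈ univ.filter (fun z => sz z = a), tc z with hT
  have hT0 : ∀ a, 0 ≤ T a := fun a =>
    class_nonneg Wc hWc φ hφ u hnorm _ (pu a) (fun m => hclass m a)
  have hT1 : ∀ a, T a ≤ pu a * D := by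
    intro a
    have h1 : T a ≤ ∑ z ∈ univ.filter (fun z => sz z = a), ∑ m, φ m * Wc m z * Real.log (φ m) :=
      Finset.sum_le_sum (fun z _ => out_le_in (fun m => Wc m z) (fun m => hWc m z) φ hφ)
    rw [class_input Wc φ u _ (pu a) (fun m => hclass m a)] at h1
    exact h1
  have hfib1 : ∑ z, rho (sz z) * tc z = ∑ a ∈ I, rho a * T a := by
    rw [← Finset.sum_fiberwise_of_maps_to (s := Finset.univ) (t := I) (g := sz)
      (fun z _ => hI z)]
    apply Finset.sum_congr rfl
    intro a _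
    simp only [hT]
    rw [Finset.mul_sum]
    apply Finset.sum_congr rfl
    intro z hz
    rw [(Finset.mem_filter.1 hz).2]
  have hfib2 : ∑ z, tc z = ∑ a ∈ I, T a := by
    rw [← Finset.sum_fiberwise_of_maps_to (s := Finset.univ) (t := I) (g := sz)
      (fun z _ => hI z)]
  rw [hfib1, hfib2, Finset.mul_sum, Finset.sum_mul, Finset.sum_filter, ← Finset.sum_add_distrib]
  apply Finset.sum_le_sum
  intro a _
  by_cases ha : win a
  · simp only [ha, not_true_eq_false, if_false, add_zero]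
    exact mul_le_mul_of_nonneg_right (hwin a ha) (hT0 a)
  · simp only [ha, not_false_eq_true, if_true]
    have h1 := mul_le_mul_of_nonneg_left (hT1 a) (hrho a)
    have h2 := mul_nonneg hkap (hT0 a)
    have e : rho a * pu a * D = rho a * (pu a * D) := by ring
    rw [e]
    linarith

/-- the probability of a set of size classes. -/
theorem class_out (Wc : X → Y → ℝ) (u : X → ℝ)
    (sz : Y → ℕ) (I : Finset ℕ) (hI : ∀ z, sz z ∈ I) (pu rho : ℕ → ℝ)
    (hclass : ∀ m a, ∑ z ∈ univ.filter (fun z => sz z = a), Wc m z = pu a * u m)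
    (win : ℕ → Prop) [DecidablePred win] (m : X) :
    ∑ z ∈ univ.filter (fun z => ¬ win (sz z)), rho (sz z) * Wc m z
      = (∑ a ∈ I.filter (fun a => ¬ win a), rho a * pu a) * u m := by
  rw [Finset.sum_filter, ← Finset.sum_fiberwise_of_maps_to (s := Finset.univ) (t := I) (g := sz)
      (fun z _ => hI z), Finset.sum_mul, Finset.sum_filter]
  apply Finset.sum_congr rfl
  intro a _
  have h1 : ∑ z ∈ univ.filter (fun z => sz z = a),
      (if ¬ win (sz z) then rho (sz z) * Wc m z else 0)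
      = ∑ z ∈ univ.filter (fun z => sz z = a), (if ¬ win a then rho a * Wc m z else 0) := by
    apply Finset.sum_congr rfl
    intro z hz
    rw [(Finset.mem_filter.1 hz).2]
  rw [h1]
  by_cases ha : win a
  · simp [ha]
  · simp only [ha, not_false_eq_true, if_true]
    rw [← Finset.mul_sum, hclass m a]
    ring

/-- ABSTRACT STEP T.  `Wc` = joint weights of the channel `Zc`; `V1 = rho (size) * Wc` = joint
weights of (input, the set `Z` on which the two transversals agree); `A z` = contribution of `Z = z`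
to the divergence of `(Z, T1)`; `DT` = divergence of one transversal. -/
theorem stepT_abs (Wc : X → Y → ℝ) (hWc : ∀ m z, 0 ≤ Wc m z)
    (φ : X → ℝ) (hφ : ∀ m, 0 ≤ φ m) (u : X → ℝ) (hnorm : ∑ m, φ m * u m = ∑ m, u m)
    (sz : Y → ℕ) (I : Finset ℕ) (hI : ∀ z, sz z ∈ I)
    (pu rho : ℕ → ℝ) (hrho : ∀ a, 0 ≤ rho a)
    (hclass : ∀ m a, ∑ z ∈ univ.filter (fun z => sz z = a), Wc m z = pu a * u m)
    (hu : ∀ m, u m = ∑ z, rho (sz z) * Wc m z)
    (win : ℕ → Prop) [DecidablePred win] (kap : ℝ) (hkap : 0 ≤ kap)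
    (hwin : ∀ a, win a → rho a ≤ kap)
    (s : Y → ℝ) (sg : ℝ) (hsg : 0 ≤ sg)
    (hin : ∀ z, win (sz z) → s z ≤ sg) (hoff : ∀ z, ¬ win (sz z) → s z ≤ 1)
    (A : Y → ℝ) (DT : ℝ) (hsuper : 2 * DT ≤ ∑ z, A z)
    (hcond : ∀ z, A z - (∑ m, φ m * (rho (sz z) * Wc m z))
          * Real.log ((∑ m, φ m * (rho (sz z) * Wc m z)) / (∑ m, rho (sz z) * Wc m z))
        ≤ s z * (∑ m, φ m * (rho (sz z) * Wc m z) * Real.log (φ m)
          - (∑ m, φ m * (rho (sz z) * Wc m z))
          * Real.log ((∑ m, φ m * (rho (sz z) * Wc m z)) / (∑ m, rho (sz z) * Wc m z)))) :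
    2 * DT ≤ kap * ∑ z, (∑ m, φ m * Wc m z) * Real.log ((∑ m, φ m * Wc m z) / (∑ m, Wc m z))
      + (sg + 2 * ∑ a ∈ I.filter (fun a => ¬ win a), rho a * pu a)
        * ∑ m, u m * (φ m * Real.log (φ m)) := by
  have hVnn : ∀ m z, 0 ≤ rho (sz z) * Wc m z := fun m z => mul_nonneg (hrho _) (hWc m z)
  have key := two_stage (fun m z => rho (sz z) * Wc m z) hVnn φ hφ u hu hnorm
    (fun z => win (sz z)) (∑ a ∈ I.filter (fun a => ¬ win a), rho a * pu a)
    (fun m => class_out Wc u sz I hI pu rho hclass win m) s sg hsg hin hoff A hcond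
  have hrw := reweight_abs Wc hWc φ hφ u hnorm sz I hI pu rho hrho hclass win kap hkap hwin
  have hnn := class_nonneg (fun m z => rho (sz z) * Wc m z) hVnn φ hφ u hnorm Finset.univ 1
    (fun m => by rw [one_mul, hu m])
  have h1 := mul_nonneg hsg hnn
  linarith

end Vale.Agent.P162.KL
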