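import Vale.Agent.P162.KL.Basic

/-!
# P162 : the abstract two-stage inequality behind STEP Z and STEP T

Joint weights `W : A → X → Y → ℝ` (input `a`, first output `x`, second output `y`), densities
`f : A → ℝ`.  Everything is a finite sum; no conditional laws, no normalisation.
-/

namespace Vale.Agent.P162.Abs

open Finset Real Vale.Agent.P162.KL

/-- homogeneous KL divergence of two weight functions -/
noncomputable def klw {A : Type*} [Fintype A] (p q : A → ℝ) : ℝ :=
  kl p q - (∑ a, p a) * Real.log ((∑ a, p a) / (∑ a, q a))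

theorem klw_nonneg {A : Type*} [Fintype A] (p q : A → ℝ) (hp : ∀ a, 0 ≤ p a) (hq : ∀ a, 0 ≤ q a)
    (hac : ∀ a, q a = 0 → p a = 0) : 0 ≤ klw p q := by
  have h := log_sum Finset.univ p q (fun i _ => hp i) (fun i _ => hq i) (fun i _ => hac i)
  unfold klw kl
  linarith

/-- strong data processing for a joint weight `W` (input `a`, output `y`), homogeneous form -/
def JS {A Y : Type*} [Fintype A] [Fintype Y] (W : A → Y → ℝ) (η : ℝ) : Prop :=
  ∀ f : A → ℝ, (∀ a, 0 ≤ f a) →
    klw (fun y => ∑ a, f a * W a y) (fun y => ∑ a, W a y) ≤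
      η * klw (fun a => f a * ∑ y, W a y) (fun a => ∑ y, W a y)

theorem mul_log_cancel (f w : ℝ) : f * w * Real.log (f * w / w) = w * (f * Real.log f) := by
  by_cases hw : w = 0
  · subst hw; simp
  · rw [mul_div_assoc, div_self hw, mul_one]; ring

variable {A X Y : Type*} [Fintype A] [Fintype X] [Fintype Y]

/-- the entropy of the density `f` on the weight `w` -/
theorem kl_density (f w : A → ℝ) :
    kl (fun a => f a * w a) w = ∑ a, w a * (f a * Real.log (f a)) := by
  unfold kl
  exact Finset.sum_congr rfl (fun a _ => mul_log_cancel (f a) (w a))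

/-- log-sum on a subset with equal masses -/
theorem sum_log_nonneg_of_mass {ι : Type*} (s : Finset ι) (p q : ι → ℝ) (hp : ∀ i ∈ s, 0 ≤ p i)
    (hq : ∀ i ∈ s, 0 ≤ q i) (hac : ∀ i ∈ s, q i = 0 → p i = 0)
    (hm : ∑ i ∈ s, p i = ∑ i ∈ s, q i) : 0 ≤ ∑ i ∈ s, p i * Real.log (p i / q i) := by
  have h := log_sum s p q hp hq hac
  rw [hm] at h
  by_cases h0 : ∑ i ∈ s, q i = 0
  · rw [h0] at h; simpa using h
  · rw [div_self h0, Real.log_one, mul_zero] at h; exact h

/-- **Abstract step.** -/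
theorem abs_step (W : A → X → Y → ℝ) (hW : ∀ a x y, 0 ≤ W a x y) (η : X → ℝ)
    (hJS : ∀ x, JS (fun a y => W a x y) (η x)) (B : Finset X) (g δ : ℝ) (hg : 0 ≤ g)
    (hηg : ∀ x, x ∉ B → η x ≤ g) (hη1 : ∀ x ∈ B, η x ≤ 1)
    (hB : ∀ a, ∑ x ∈ B, ∑ y, W a x y = δ * ∑ x, ∑ y, W a x y)
    (f : A → ℝ) (hf : ∀ a, 0 ≤ f a)
    (hmass : ∑ a, f a * ∑ x, ∑ y, W a x y = ∑ a, ∑ x, ∑ y, W a x y) :
    ∑ x, ∑ y, (∑ a, f a * W a x y) * Real.log ((∑ a, f a * W a x y) / (∑ a, W a x y)) ≤
      kl (fun x => ∑ a, f a * ∑ y, W a x y) (fun x => ∑ a, ∑ y, W a x y)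
      + g * (kl (fun a => f a * ∑ x, ∑ y, W a x y) (fun a => ∑ x, ∑ y, W a x y)
          - kl (fun x => ∑ a, f a * ∑ y, W a x y) (fun x => ∑ a, ∑ y, W a x y))
      + δ * kl (fun a => f a * ∑ x, ∑ y, W a x y) (fun a => ∑ x, ∑ y, W a x y) := by
  classical
  -- abbreviations
  set W1 : A → X → ℝ := fun a x => ∑ y, W a x y with hW1
  set q1 : X → ℝ := fun x => ∑ a, f a * W1 a x with hq1
  set nu : X → ℝ := fun x => ∑ a, W1 a x with hnu
  set e : A → ℝ := fun a => f a * Real.log (f a) with he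
  have hW1nn : ∀ a x, 0 ≤ W1 a x := fun a x => Finset.sum_nonneg (fun y _ => hW a x y)
  have hq1nn : ∀ x, 0 ≤ q1 x := fun x =>
    Finset.sum_nonneg (fun a _ => mul_nonneg (hf a) (hW1nn a x))
  have hnunn : ∀ x, 0 ≤ nu x := fun x => Finset.sum_nonneg (fun a _ => hW1nn a x)
  have hac1 : ∀ x, nu x = 0 → q1 x = 0 := by
    intro x hx
    have hz := (Finset.sum_eq_zero_iff_of_nonneg (fun a _ => hW1nn a x)).1 hx
    exact Finset.sum_eq_zero (fun a ha => by rw [hz a ha, mul_zero])
  -- the fibre quantities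
  set k : X → ℝ := fun x => (∑ a, W1 a x * e a) - q1 x * Real.log (q1 x / nu x) with hk
  have hk_eq : ∀ x, klw (fun a => f a * W1 a x) (fun a => W1 a x) = k x := by
    intro x
    unfold klw
    rw [kl_density]
  have hk_nn : ∀ x, 0 ≤ k x := by
    intro x
    rw [← hk_eq x]
    apply klw_nonneg
    · exact fun a => mul_nonneg (hf a) (hW1nn a x)
    · exact fun a => hW1nn a x
    · intro a ha; simp only [ha, mul_zero]
  have hfib : ∀ x, (∑ y, (∑ a, f a * W a x y) * Real.log ((∑ a, f a * W a x y) / (∑ a, W a x y)))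
      - q1 x * Real.log (q1 x / nu x) ≤ η x * k x := by
    intro x
    have h := hJS x f hf
    rw [hk_eq x] at h
    unfold klw kl at h
    have e1 : ∑ y, ∑ a, f a * W a x y = q1 x := by
      rw [Finset.sum_comm]
      exact Finset.sum_congr rfl (fun a _ => by rw [← Finset.mul_sum])
    have e2 : ∑ y, ∑ a, W a x y = nu x := Finset.sum_comm
    rw [e1, e2] at h
    exact h
  -- sums of k
  have hD : kl (fun a => f a * ∑ x, W1 a x) (fun a => ∑ x, W1 a x) = ∑ a, (∑ x, W1 a x) * e a :=
    kl_density _ _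
  have hsumk : ∑ x, k x = kl (fun a => f a * ∑ x, W1 a x) (fun a => ∑ x, W1 a x) - kl q1 nu := by
    rw [hD]
    simp only [hk, Finset.sum_sub_distrib]
    congr 1
    rw [Finset.sum_comm]
    exact Finset.sum_congr rfl (fun a _ => by rw [Finset.sum_mul])
  have hsumB : ∑ x ∈ B, k x ≤ δ * kl (fun a => f a * ∑ x, W1 a x) (fun a => ∑ x, W1 a x) := by
    rw [hD]
    simp only [hk, Finset.sum_sub_distrib]
    have e1 : ∑ x ∈ B, ∑ a, W1 a x * e a = δ * ∑ a, (∑ x, W1 a x) * e a := by
      rw [Finset.sum_comm, Finset.mul_sum]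
      refine Finset.sum_congr rfl (fun a _ => ?_)
      rw [← Finset.sum_mul, hB a]
      ring
    have e2 : 0 ≤ ∑ x ∈ B, q1 x * Real.log (q1 x / nu x) := by
      apply sum_log_nonneg_of_mass B q1 nu (fun x _ => hq1nn x) (fun x _ => hnunn x)
        (fun x _ => hac1 x)
      have a1 : ∑ x ∈ B, q1 x = δ * ∑ a, f a * ∑ x, W1 a x := by
        simp only [hq1]
        rw [Finset.sum_comm, Finset.mul_sum]
        refine Finset.sum_congr rfl (fun a _ => ?_)
        rw [← Finset.mul_sum, hB a]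
        ring
      have a2 : ∑ x ∈ B, nu x = δ * ∑ a, ∑ x, W1 a x := by
        simp only [hnu]
        rw [Finset.sum_comm, Finset.mul_sum]
        exact Finset.sum_congr rfl (fun a _ => hB a)
      rw [a1, a2, hmass]
    rw [e1]
    linarith
  -- main estimate
  have hmain : ∑ x, η x * k x ≤ g * ∑ x, k x + ∑ x ∈ B, k x := by
    have h1 : ∀ x, η x * k x ≤ g * k x + (if x ∈ B then k x else 0) := by
      intro x
      by_cases hx : x ∈ B
      · simp only [hx, if_true]
        have := mul_le_mul_of_nonneg_right (hη1 x hx) (hk_nn x)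
        have h2 := mul_nonneg hg (hk_nn x)
        linarith
      · simp only [hx, if_false, add_zero]
        exact mul_le_mul_of_nonneg_right (hηg x hx) (hk_nn x)
    calc ∑ x, η x * k x ≤ ∑ x, (g * k x + (if x ∈ B then k x else 0)) :=
          Finset.sum_le_sum (fun x _ => h1 x)
      _ = g * ∑ x, k x + ∑ x ∈ B, k x := by
          rw [Finset.sum_add_distrib, ← Finset.mul_sum, Finset.sum_ite_mem, Finset.univ_inter]
  have hsumfib := Finset.sum_le_sum (fun x (_ : x ∈ Finset.univ) => hfib x)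
  rw [Finset.sum_sub_distrib] at hsumfib
  have hkl1 : kl q1 nu = ∑ x, q1 x * Real.log (q1 x / nu x) := rfl
  rw [hsumk] at hmain
  linarith

/-- one term of a reweighted divergence -/
theorem rew_term (r q u : ℝ) : r * q * Real.log (r * q / (r * u)) = r * (q * Real.log (q / u)) := by
  by_cases hr : r = 0
  · subst hr; simp
  · rw [mul_div_mul_left _ _ hr]; ring

theorem kl_rew (r q u : X → ℝ) :
    kl (fun x => r x * q x) (fun x => r x * u x) = ∑ x, r x * (q x * Real.log (q x / u x)) := by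
  unfold kl
  exact Finset.sum_congr rfl (fun x _ => rew_term (r x) (q x) (u x))

/-- data processing, one output letter -/
theorem letter_le (W : A → X → ℝ) (hW : ∀ a x, 0 ≤ W a x) (f : A → ℝ) (hf : ∀ a, 0 ≤ f a) (x : X) :
    (∑ a, f a * W a x) * Real.log ((∑ a, f a * W a x) / (∑ a, W a x)) ≤
      ∑ a, W a x * (f a * Real.log (f a)) := by
  have h := log_sum Finset.univ (fun a => f a * W a x) (fun a => W a x)
    (fun a _ => mul_nonneg (hf a) (hW a x)) (fun a _ => hW a x)
    (fun a _ ha => by simp only [ha, mul_zero])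
  refine le_trans h (le_of_eq ?_)
  exact Finset.sum_congr rfl (fun a _ => mul_log_cancel (f a) (W a x))

/-- **Abstract reweighting.**  The outputs are split into classes `c x`, the class masses do not
depend on the input, and the weights are multiplied by `r (c x)`. -/
theorem abs_reweight (W : A → X → ℝ) (hW : ∀ a x, 0 ≤ W a x) (c : X → ℕ) (r p : ℕ → ℝ)
    (hr : ∀ n, 0 ≤ r n)
    (hp : ∀ a n, ∑ x ∈ Finset.univ.filter (fun x => c x = n), W a x = p n * ∑ x, W a x)
    (N : Finset ℕ) (hN : ∀ x, c x ∈ N) (bad : ℕ → Prop) [DecidablePred bad] (κ : ℝ) (hκ0 : 0 ≤ κ)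
    (hκ : ∀ n ∈ N, ¬ bad n → r n ≤ κ)
    (f : A → ℝ) (hf : ∀ a, 0 ≤ f a) (hmass : ∑ a, f a * ∑ x, W a x = ∑ a, ∑ x, W a x) :
    kl (fun x => r (c x) * ∑ a, f a * W a x) (fun x => r (c x) * ∑ a, W a x) ≤
      κ * kl (fun x => ∑ a, f a * W a x) (fun x => ∑ a, W a x)
      + (∑ n ∈ N.filter bad, r n * p n) * kl (fun a => f a * ∑ x, W a x) (fun a => ∑ x, W a x) := by
  classical
  set q : X → ℝ := fun x => ∑ a, f a * W a x with hq
  set u : X → ℝ := fun x => ∑ a, W a x with hu
  set e : A → ℝ := fun a => f a * Real.log (f a) with he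
  set t : X → ℝ := fun x => q x * Real.log (q x / u x) with ht
  set Dn : ℕ → ℝ := fun n => ∑ x ∈ Finset.univ.filter (fun x => c x = n), t x with hDn
  set D : ℝ := kl (fun a => f a * ∑ x, W a x) (fun a => ∑ x, W a x) with hD
  have hDe : D = ∑ a, (∑ x, W a x) * e a := kl_density _ _
  have hqnn : ∀ x, 0 ≤ q x := fun x => Finset.sum_nonneg (fun a _ => mul_nonneg (hf a) (hW a x))
  have hunn : ∀ x, 0 ≤ u x := fun x => Finset.sum_nonneg (fun a _ => hW a x)
  have hac : ∀ x, u x = 0 → q x = 0 := by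
    intro x hx
    have hz := (Finset.sum_eq_zero_iff_of_nonneg (fun a _ => hW a x)).1 hx
    exact Finset.sum_eq_zero (fun a ha => by rw [hz a ha, mul_zero])
  have hDn_nn : ∀ n, 0 ≤ Dn n := by
    intro n
    apply sum_log_nonneg_of_mass _ q u (fun x _ => hqnn x) (fun x _ => hunn x) (fun x _ => hac x)
    have a1 : ∑ x ∈ Finset.univ.filter (fun x => c x = n), q x = p n * ∑ a, f a * ∑ x, W a x := by
      simp only [hq]
      rw [Finset.sum_comm, Finset.mul_sum]
      refine Finset.sum_congr rfl (fun a _ => ?_)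
      rw [← Finset.mul_sum, hp a n]
      ring
    have a2 : ∑ x ∈ Finset.univ.filter (fun x => c x = n), u x = p n * ∑ a, ∑ x, W a x := by
      simp only [hu]
      rw [Finset.sum_comm, Finset.mul_sum]
      exact Finset.sum_congr rfl (fun a _ => hp a n)
    rw [a1, a2, hmass]
  have hDn_le : ∀ n, Dn n ≤ p n * D := by
    intro n
    calc Dn n ≤ ∑ x ∈ Finset.univ.filter (fun x => c x = n), ∑ a, W a x * e a :=
          Finset.sum_le_sum (fun x _ => letter_le W hW f hf x)
      _ = p n * D := by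
          rw [hDe, Finset.sum_comm, Finset.mul_sum]
          refine Finset.sum_congr rfl (fun a _ => ?_)
          rw [← Finset.sum_mul, hp a n]
          ring
  have hfw : ∀ F : X → ℝ, ∑ x, F x = ∑ n ∈ N, ∑ x ∈ Finset.univ.filter (fun x => c x = n), F x :=
    fun F => (Finset.sum_fiberwise_of_maps_to (fun x _ => hN x) F).symm
  have e1 : kl (fun x => r (c x) * q x) (fun x => r (c x) * u x) = ∑ n ∈ N, r n * Dn n := by
    rw [kl_rew (fun x => r (c x)) q u, hfw]
    refine Finset.sum_congr rfl (fun n _ => ?_)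
    rw [Finset.mul_sum]
    refine Finset.sum_congr rfl (fun x hx => ?_)
    rw [(Finset.mem_filter.1 hx).2]
  have e2 : kl q u = ∑ n ∈ N, Dn n := hfw t
  rw [e1, e2, Finset.mul_sum, Finset.sum_mul, Finset.sum_filter, ← Finset.sum_add_distrib]
  refine Finset.sum_le_sum (fun n hn => ?_)
  by_cases hb : bad n
  · simp only [hb, if_true]
    have h1 := mul_le_mul_of_nonneg_left (hDn_le n) (hr n)
    have h2 := mul_nonneg hκ0 (hDn_nn n)
    nlinarith
  · simp only [hb, if_false, add_zero]
    exact mul_le_mul_of_nonneg_right (hκ n hn hb) (hDn_nn n)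

/-- **Input independent outputs carry no divergence.**  If the weights are multiplied by `θ`
outside a set `Tr` of outputs whose weight does not depend on the input (and by anything on
`Tr`), the divergence is multiplied by `θ`. -/
theorem abs_mix (W : A → X → ℝ) (r : X → ℝ) (θ : ℝ) (Tr : Finset X)
    (hr : ∀ x, x ∉ Tr → r x = θ) (hTr : ∀ x ∈ Tr, ∃ w : ℝ, ∀ a, W a x = w * ∑ x', W a x')
    (f : A → ℝ) (hmass : ∑ a, f a * ∑ x, W a x = ∑ a, ∑ x, W a x) :
    kl (fun x => r x * ∑ a, f a * W a x) (fun x => r x * ∑ a, W a x) =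
      θ * kl (fun x => ∑ a, f a * W a x) (fun x => ∑ a, W a x) := by
  classical
  rw [kl_rew r (fun x => ∑ a, f a * W a x) (fun x => ∑ a, W a x)]
  unfold kl
  rw [Finset.mul_sum]
  refine Finset.sum_congr rfl (fun x _ => ?_)
  by_cases hx : x ∈ Tr
  · obtain ⟨w, hw⟩ := hTr x hx
    have e1 : ∑ a, f a * W a x = ∑ a, W a x := by
      have a1 : ∑ a, f a * W a x = w * ∑ a, f a * ∑ x', W a x' := by
        rw [Finset.mul_sum]
        exact Finset.sum_congr rfl (fun a _ => by rw [hw a]; ring)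
      have a2 : ∑ a, W a x = w * ∑ a, ∑ x', W a x' := by
        rw [Finset.mul_sum]
        exact Finset.sum_congr rfl (fun a _ => hw a)
      rw [a1, a2, hmass]
    have key : (∑ a, f a * W a x) * Real.log ((∑ a, f a * W a x) / ∑ a, W a x) = 0 := by
      rw [e1]
      by_cases h0 : ∑ a, W a x = 0
      · rw [h0, zero_mul]
      · rw [div_self h0, Real.log_one, mul_zero]
    simp only [key, mul_zero]
  · rw [hr x hx]

end Vale.Agent.P162.Abs
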