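import Vale.Agent.P162.KL.Basic
import Vale.Agent.P162.KL.Scalar

/-!
# P162 : Donsker-Varadhan and the two-variable Brascamp-Lieb type lemma (LEMMA BL)
-/

namespace Vale.Agent.P162.KL

open Finset Real

/-- Donsker-Varadhan inequality with a nonnegative test function `ps` that is positive where `p`
is positive. -/
theorem dv_ineq {A : Type*} [Fintype A] (p q ps : A → ℝ) (hp : ∀ a, 0 ≤ p a) (hq : ∀ a, 0 ≤ q a)
    (hac : ∀ a, q a = 0 → p a = 0) (hps : ∀ a, 0 ≤ ps a) (hps0 : ∀ a, ps a = 0 → p a = 0)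
    (hsum : ∑ a, p a = 1) :
    ∑ a, p a * Real.log (ps a) - Real.log (∑ a, q a * ps a) ≤ kl p q := by
  have h := log_sum Finset.univ p (fun a => q a * ps a) (fun a _ => hp a)
    (fun a _ => mul_nonneg (hq a) (hps a))
    (fun a _ h0 => by
      rcases mul_eq_zero.1 h0 with h1 | h1
      · exact hac a h1
      · exact hps0 a h1)
  rw [hsum, one_mul, one_div, Real.log_inv] at h
  have h2 : ∑ a, p a * Real.log (p a / (q a * ps a)) = kl p q - ∑ a, p a * Real.log (ps a) := by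
    unfold kl
    rw [← Finset.sum_sub_distrib]
    apply Finset.sum_congr rfl
    intro a _
    by_cases h0 : p a = 0
    · rw [h0]; ring
    · have hq0 : q a ≠ 0 := fun h => h0 (hac a h)
      have hs0 : ps a ≠ 0 := fun h => h0 (hps0 a h)
      rw [← div_div, Real.log_div (div_ne_zero h0 hq0) hs0]
      ring
  rw [h2] at h
  linarith

section BL

variable {X Y : Type*} [Fintype X] [Fintype Y]

/-- `kl p nu = sum nu * phi (p / nu)` for laws. -/
theorem kl_eq_sum_phi {A : Type*} [Fintype A] (p q : A → ℝ)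
    (hac : ∀ a, q a = 0 → p a = 0) (hsum : ∑ a, p a = ∑ a, q a) :
    kl p q = ∑ a, q a * phi (p a / q a) := by
  have h1 : ∀ a, q a * phi (p a / q a) = p a * Real.log (p a / q a) - p a + q a := by
    intro a
    unfold phi
    by_cases h0 : q a = 0
    · rw [hac a h0, h0]; ring
    · field_simp
  simp only [h1]
  rw [Finset.sum_add_distrib, Finset.sum_sub_distrib, hsum]
  unfold kl
  ring

/-- the bilinear form of a weight function on a product -/
noncomputable def ER (R : X → Y → ℝ) (h : X → ℝ) (k : Y → ℝ) : ℝ :=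
  ∑ x, ∑ y, R x y * (h x * k y)

theorem ER_add_left (R : X → Y → ℝ) (h h' : X → ℝ) (k : Y → ℝ) :
    ER R (fun x => h x + h' x) k = ER R h k + ER R h' k := by
  unfold ER
  rw [← Finset.sum_add_distrib]
  apply Finset.sum_congr rfl
  intro x _
  rw [← Finset.sum_add_distrib]
  apply Finset.sum_congr rfl
  intro y _
  ring

theorem ER_add_right (R : X → Y → ℝ) (h : X → ℝ) (k k' : Y → ℝ) :
    ER R h (fun y => k y + k' y) = ER R h k + ER R h k' := by
  unfold ER
  rw [← Finset.sum_add_distrib]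
  apply Finset.sum_congr rfl
  intro x _
  rw [← Finset.sum_add_distrib]
  apply Finset.sum_congr rfl
  intro y _
  ring

theorem ER_const_right (R : X → Y → ℝ) (n1 : X → ℝ) (hn1 : ∀ x, n1 x = ∑ y, R x y) (h : X → ℝ)
    (c : ℝ) : ER R h (fun _ => c) = c * ∑ x, n1 x * h x := by
  unfold ER
  rw [Finset.mul_sum]
  apply Finset.sum_congr rfl
  intro x _
  rw [hn1 x, Finset.sum_mul, Finset.mul_sum]
  apply Finset.sum_congr rfl
  intro y _
  ring

theorem ER_const_left (R : X → Y → ℝ) (n2 : Y → ℝ) (hn2 : ∀ y, n2 y = ∑ x, R x y) (k : Y → ℝ)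
    (c : ℝ) : ER R (fun _ => c) k = c * ∑ y, n2 y * k y := by
  unfold ER
  rw [Finset.sum_comm, Finset.mul_sum]
  apply Finset.sum_congr rfl
  intro y _
  rw [hn2 y, Finset.sum_mul, Finset.mul_sum]
  apply Finset.sum_congr rfl
  intro x _
  ring

theorem ER_mono_left (R : X → Y → ℝ) (hR0 : ∀ x y, 0 ≤ R x y) (h h' : X → ℝ) (k : Y → ℝ)
    (hh : ∀ x, h x ≤ h' x) (hk : ∀ y, 0 ≤ k y) : ER R h k ≤ ER R h' k := by
  unfold ER
  apply Finset.sum_le_sum
  intro x _
  apply Finset.sum_le_sum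
  intro y _
  exact mul_le_mul_of_nonneg_left (mul_le_mul_of_nonneg_right (hh x) (hk y)) (hR0 x y)

theorem ER_mono_right (R : X → Y → ℝ) (hR0 : ∀ x y, 0 ≤ R x y) (h : X → ℝ) (k k' : Y → ℝ)
    (hh : ∀ x, 0 ≤ h x) (hk : ∀ y, k y ≤ k' y) : ER R h k ≤ ER R h k' := by
  unfold ER
  apply Finset.sum_le_sum
  intro x _
  apply Finset.sum_le_sum
  intro y _
  exact mul_le_mul_of_nonneg_left (mul_le_mul_of_nonneg_left (hk y) (hh x)) (hR0 x y)

theorem ER_le_prod (R : X → Y → ℝ) (n1 : X → ℝ) (n2 : Y → ℝ) (w0 : ℝ)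
    (hw : ∀ x y, R x y ≤ w0 * (n1 x * n2 y)) (h : X → ℝ) (k : Y → ℝ)
    (hh : ∀ x, 0 ≤ h x) (hk : ∀ y, 0 ≤ k y) :
    ER R h k ≤ w0 * ((∑ x, n1 x * h x) * (∑ y, n2 y * k y)) := by
  unfold ER
  rw [Finset.sum_mul_sum, Finset.mul_sum]
  apply Finset.sum_le_sum
  intro x _
  rw [Finset.mul_sum]
  apply Finset.sum_le_sum
  intro y _
  calc R x y * (h x * k y) ≤ w0 * (n1 x * n2 y) * (h x * k y) :=
        mul_le_mul_of_nonneg_right (hw x y) (mul_nonneg (hh x) (hk y))
    _ = w0 * (n1 x * h x * (n2 y * k y)) := by ring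

theorem one_lt_log_of_six_le (L : ℝ) (hL : 6 ≤ L) : 0 < Real.log L - 1 := by
  have h1 : Real.exp 1 < L := by
    have := Real.exp_one_lt_d9
    linarith
  have h2 : Real.log (Real.exp 1) < Real.log L := Real.log_lt_log (Real.exp_pos 1) h1
  rw [Real.log_exp] at h2
  linarith

/-- One-variable facts on the truncation of a density `F` at level `L`. -/
theorem trunc_facts {A : Type*} [Fintype A] (n F : A → ℝ) (L : ℝ) (hL : 6 ≤ L)
    (hn : ∀ a, 0 ≤ n a) (hns : ∑ a, n a = 1) (hF0 : ∀ a, 0 ≤ F a) (hF1 : ∑ a, n a * F a = 1) :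
    0 ≤ ∑ a, n a * trT L (F a) ∧ ∑ a, n a * trT L (F a) ≤ 1 ∧
    (∑ a, n a * trT L (F a)) * (Real.log L - 1) ≤ ∑ a, n a * phi (F a) ∧
    ∑ a, n a * trA L (F a) = -∑ a, n a * trT L (F a) ∧
    ∑ a, n a * (trA L (F a) + ∑ a, n a * trT L (F a)) = 0 ∧
    ∑ a, n a * (trA L (F a) + ∑ a, n a * trT L (F a)) ^ 2 ≤ 2 * L * ∑ a, n a * phi (F a) := by
  set tx := ∑ a, n a * trT L (F a) with htx
  have hAx : ∑ x, n x * trA L (F x) = -tx := by
    have : ∀ x, n x * trA L (F x) = n x * F x - n x - n x * trT L (F x) := by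
      intro x
      have := trA_add_trT L (F x)
      have h2 : trA L (F x) = F x - 1 - trT L (F x) := by linarith
      rw [h2]; ring
    simp only [this]
    rw [Finset.sum_sub_distrib, Finset.sum_sub_distrib, hF1, hns]
    ring
  have hA2x : ∑ x, n x * (trA L (F x)) ^ 2 ≤ 2 * L * ∑ a, n a * phi (F a) := by
    rw [Finset.mul_sum]
    apply Finset.sum_le_sum
    intro x _
    calc n x * (trA L (F x)) ^ 2 ≤ n x * (2 * L * phi (F x)) :=
          mul_le_mul_of_nonneg_left (trA_sq_le L _ hL (hF0 x)) (hn x)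
      _ = 2 * L * (n x * phi (F x)) := by ring
  refine ⟨?_, ?_, ?_, hAx, ?_, ?_⟩
  · exact Finset.sum_nonneg (fun x _ => mul_nonneg (hn x) (trT_nonneg L _ (hF0 x)))
  · rw [← hF1]
    exact Finset.sum_le_sum (fun x _ => mul_le_mul_of_nonneg_left (trT_le L _ (hF0 x)) (hn x))
  · rw [htx, Finset.sum_mul]
    apply Finset.sum_le_sum
    intro x _
    rw [mul_assoc]
    exact mul_le_mul_of_nonneg_left (trT_mul_le L _ hL (hF0 x)) (hn x)
  · simp only [mul_add]
    rw [Finset.sum_add_distrib, hAx, ← Finset.sum_mul, hns]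
    ring
  · have : ∑ x, n x * (trA L (F x) + tx) ^ 2 = ∑ x, n x * (trA L (F x)) ^ 2 - tx ^ 2 := by
      have e : ∀ x, n x * (trA L (F x) + tx) ^ 2 = n x * (trA L (F x)) ^ 2
          + 2 * tx * (n x * trA L (F x)) + tx ^ 2 * n x := by intro x; ring
      simp only [e]
      rw [Finset.sum_add_distrib, Finset.sum_add_distrib, ← Finset.mul_sum, ← Finset.mul_sum,
        hAx, hns]
      ring
    rw [this]
    nlinarith [sq_nonneg tx]

/-- Expansion of the bilinear form along `F = 1 + a + f`, `G = 1 + b + g`. -/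
theorem ER_expand (R : X → Y → ℝ) (n1 : X → ℝ) (n2 : Y → ℝ)
    (hn1 : ∀ x, n1 x = ∑ y, R x y) (hn2 : ∀ y, n2 y = ∑ x, R x y)
    (F a f : X → ℝ) (G b g : Y → ℝ) (hF : ∀ x, F x = 1 + (a x + f x))
    (hG : ∀ y, G y = 1 + (b y + g y)) :
    ER R F G = ∑ y, n2 y * G y + (∑ x, n1 x * a x + (ER R a b + ER R a g) + ER R f G) := by
  have hFdec : F = fun x => 1 + (a x + f x) := funext hF
  have hGdec : G = fun y => 1 + (b y + g y) := funext hG
  have e1 : ER R F G = ER R (fun _ => (1:ℝ)) G + (ER R a G + ER R f G) := by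
    conv_lhs => rw [hFdec]
    rw [ER_add_left R (fun _ => (1:ℝ)) (fun x => a x + f x) G, ER_add_left R a f G]
  have e2 : ER R (fun _ => (1:ℝ)) G = ∑ y, n2 y * G y := by
    rw [ER_const_left R n2 hn2 G 1, one_mul]
  have e3 : ER R a G = ER R a (fun _ => (1:ℝ)) + (ER R a b + ER R a g) := by
    conv_lhs => rw [hGdec]
    rw [ER_add_right R _ (fun _ => (1:ℝ)) (fun y => b y + g y), ER_add_right R _ b g]
  have e4 : ER R a (fun _ => (1:ℝ)) = ∑ x, n1 x * a x := by
    rw [ER_const_right R n1 hn1 _ 1, one_mul]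
  rw [e1, e2, e3, e4]

/-- Shifting both arguments by constants. -/
theorem ER_shift (R : X → Y → ℝ) (n1 : X → ℝ) (n2 : Y → ℝ)
    (hn1 : ∀ x, n1 x = ∑ y, R x y) (hn2 : ∀ y, n2 y = ∑ x, R x y)
    (a : X → ℝ) (b : Y → ℝ) (s t : ℝ) (hb : ∑ y, n2 y * (b y + t) = 0) :
    ER R (fun x => a x + s) (fun y => b y + t) = ER R a b + t * ∑ x, n1 x * a x := by
  rw [ER_add_left R a (fun _ => s) (fun y => b y + t), ER_add_right R a b (fun _ => t),
    ER_const_left R n2 hn2 (fun y => b y + t) s, ER_const_right R n1 hn1 a t, hb]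
  ring

/-- The analytic core of LEMMA BL. -/
theorem ER_sub_one_le (R : X → Y → ℝ) (n1 : X → ℝ) (n2 : Y → ℝ) (w0 rho L : ℝ)
    (hR0 : ∀ x y, 0 ≤ R x y)
    (hn1 : ∀ x, n1 x = ∑ y, R x y) (hn2 : ∀ y, n2 y = ∑ x, R x y)
    (hRs : ∑ x, ∑ y, R x y = 1)
    (hw : ∀ x y, R x y ≤ w0 * (n1 x * n2 y)) (hw0 : 0 ≤ w0) (hrho0 : 0 ≤ rho)
    (hrho : ∀ (a : X → ℝ) (b : Y → ℝ), ∑ x, n1 x * a x = 0 → ∑ y, n2 y * b y = 0 →
      ∑ x, ∑ y, R x y * (a x * b y) ≤
        rho / 2 * (∑ x, n1 x * a x ^ 2 + ∑ y, n2 y * b y ^ 2))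
    (hL : 6 ≤ L) (F : X → ℝ) (G : Y → ℝ) (hF0 : ∀ x, 0 ≤ F x) (hG0 : ∀ y, 0 ≤ G y)
    (hF1 : ∑ x, n1 x * F x = 1) (hG1 : ∑ y, n2 y * G y = 1) :
    ER R F G - 1 ≤ (rho * L + (w0 + 1 / 2) / (Real.log L - 1)) *
      (∑ x, n1 x * phi (F x) + ∑ y, n2 y * phi (G y)) := by
  have hc := one_lt_log_of_six_le L hL
  have hn1nn : ∀ x, 0 ≤ n1 x := fun x => by rw [hn1 x]; exact Finset.sum_nonneg (fun y _ => hR0 x y)
  have hn2nn : ∀ y, 0 ≤ n2 y := fun y => by rw [hn2 y]; exact Finset.sum_nonneg (fun x _ => hR0 x y)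
  have hn1s : ∑ x, n1 x = 1 := by simp only [hn1]; exact hRs
  have hn2s : ∑ y, n2 y = 1 := by simp only [hn2]; rw [Finset.sum_comm]; exact hRs
  obtain ⟨htx0, htx1, htxD, hAx, hA0x, hA2x⟩ := trunc_facts n1 F L hL hn1nn hn1s hF0 hF1
  obtain ⟨hty0, hty1, htyD, hAy, hA0y, hA2y⟩ := trunc_facts n2 G L hL hn2nn hn2s hG0 hG1
  generalize hDx : ∑ x, n1 x * phi (F x) = Dx at *
  generalize hDy : ∑ y, n2 y * phi (G y) = Dy at *
  generalize htx : ∑ x, n1 x * trT L (F x) = tx at *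
  generalize hty : ∑ y, n2 y * trT L (G y) = ty at *
  have e0 := ER_expand R n1 n2 hn1 hn2 F (fun x => trA L (F x)) (fun x => trT L (F x))
    G (fun y => trA L (G y)) (fun y => trT L (G y))
    (fun x => by have := trA_add_trT L (F x); linarith)
    (fun y => by have := trA_add_trT L (G y); linarith)
  rw [hG1, hAx] at e0
  have b1 : ER R (fun x => trT L (F x)) G ≤ w0 * tx := by
    have := ER_le_prod R n1 n2 w0 hw (fun x => trT L (F x)) G
      (fun x => trT_nonneg L _ (hF0 x)) hG0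
    rw [hG1, mul_one, htx] at this
    exact this
  have b2 : ER R (fun x => trA L (F x)) (fun y => trT L (G y)) ≤ w0 * ty := by
    have hfb0 : ∀ x, 0 ≤ trA L (F x) + 1 := by
      intro x
      unfold trA
      split_ifs
      · have := hF0 x
        linarith
      · norm_num
    have h1 : ER R (fun x => trA L (F x)) (fun y => trT L (G y)) ≤
        ER R (fun x => trA L (F x) + 1) (fun y => trT L (G y)) :=
      ER_mono_left R hR0 _ _ _ (fun x => by linarith) (fun y => trT_nonneg L _ (hG0 y))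
    have h2 := ER_le_prod R n1 n2 w0 hw (fun x => trA L (F x) + 1) (fun y => trT L (G y))
      hfb0 (fun y => trT_nonneg L _ (hG0 y))
    have h3 : ∑ x, n1 x * (trA L (F x) + 1) = 1 - tx := by
      simp only [mul_add, mul_one]
      rw [Finset.sum_add_distrib, hAx, hn1s]
      ring
    rw [h3, hty] at h2
    have h4 : w0 * ((1 - tx) * ty) ≤ w0 * ty := by
      apply mul_le_mul_of_nonneg_left _ hw0
      nlinarith
    linarith
  have b3 : ER R (fun x => trA L (F x)) (fun y => trA L (G y)) ≤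
      rho * L * (Dx + Dy) + tx * ty := by
    have h0 := hrho (fun x => trA L (F x) + tx) (fun y => trA L (G y) + ty) hA0x hA0y
    have h1 := ER_shift R n1 n2 hn1 hn2 (fun x => trA L (F x)) (fun y => trA L (G y)) tx ty hA0y
    rw [hAx] at h1
    unfold ER at h1
    rw [h1] at h0
    have h4 : rho / 2 * (∑ x, n1 x * (trA L (F x) + tx) ^ 2 + ∑ y, n2 y * (trA L (G y) + ty) ^ 2)
        ≤ rho / 2 * (2 * L * Dx + 2 * L * Dy) :=
      mul_le_mul_of_nonneg_left (by linarith) (by linarith)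
    have hb3' : rho / 2 * (2 * L * Dx + 2 * L * Dy) = rho * L * (Dx + Dy) := by ring
    unfold ER
    linarith
  have htt : tx * ty ≤ (tx + ty) / 2 := by nlinarith
  have hx' : tx ≤ Dx / (Real.log L - 1) := by
    rw [le_div_iff₀ hc]; exact htxD
  have hy' : ty ≤ Dy / (Real.log L - 1) := by
    rw [le_div_iff₀ hc]; exact htyD
  have hfin : ER R F G - 1 ≤ rho * L * (Dx + Dy) + (w0 + 1 / 2) * (tx + ty) := by
    have hexp : (w0 + 1 / 2) * (tx + ty) = w0 * tx + w0 * ty + (tx + ty) / 2 := by ring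
    rw [hexp, e0]
    linarith
  have hlast : (w0 + 1 / 2) * (tx + ty) ≤ (w0 + 1 / 2) * ((Dx + Dy) / (Real.log L - 1)) := by
    apply mul_le_mul_of_nonneg_left _ (by linarith)
    rw [add_div]
    linarith
  calc ER R F G - 1 ≤ rho * L * (Dx + Dy) + (w0 + 1 / 2) * (tx + ty) := hfin
    _ ≤ rho * L * (Dx + Dy) + (w0 + 1 / 2) * ((Dx + Dy) / (Real.log L - 1)) := by linarith
    _ = (rho * L + (w0 + 1 / 2) / (Real.log L - 1)) * (Dx + Dy) := by ring


/-- LEMMA BL.  `R` a law on `X × Y` with marginals `n1`, `n2`, density at most `w0` with respect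
to the product of the marginals, and correlation at most `rho` on mean zero functions (in the
arithmetic-geometric form).  Then for every law `Q` absolutely continuous with respect to `R`,
with marginals `q1`, `q2`: `(1 - eps) (D(q1|n1) + D(q2|n2)) ≤ D(Q|R)`,
`eps = rho L + (w0 + 1/2)/(log L - 1)`. -/
theorem lemma_BL (R Q : X → Y → ℝ) (n1 q1 : X → ℝ) (n2 q2 : Y → ℝ) (w0 rho L : ℝ)
    (hR0 : ∀ x y, 0 ≤ R x y) (hQ0 : ∀ x y, 0 ≤ Q x y) (hac : ∀ x y, R x y = 0 → Q x y = 0)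
    (hn1 : ∀ x, n1 x = ∑ y, R x y) (hn2 : ∀ y, n2 y = ∑ x, R x y)
    (hq1 : ∀ x, q1 x = ∑ y, Q x y) (hq2 : ∀ y, q2 y = ∑ x, Q x y)
    (hRs : ∑ x, ∑ y, R x y = 1) (hQs : ∑ x, ∑ y, Q x y = 1)
    (hw : ∀ x y, R x y ≤ w0 * (n1 x * n2 y)) (hw0 : 0 ≤ w0) (hrho0 : 0 ≤ rho)
    (hrho : ∀ (a : X → ℝ) (b : Y → ℝ), ∑ x, n1 x * a x = 0 → ∑ y, n2 y * b y = 0 →
      ∑ x, ∑ y, R x y * (a x * b y) ≤
        rho / 2 * (∑ x, n1 x * a x ^ 2 + ∑ y, n2 y * b y ^ 2))
    (hL : 6 ≤ L) :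
    (1 - (rho * L + (w0 + 1 / 2) / (Real.log L - 1))) * (kl q1 n1 + kl q2 n2) ≤
      ∑ x, ∑ y, Q x y * Real.log (Q x y / R x y) := by
  have hn1nn : ∀ x, 0 ≤ n1 x := fun x => by rw [hn1 x]; exact Finset.sum_nonneg (fun y _ => hR0 x y)
  have hn2nn : ∀ y, 0 ≤ n2 y := fun y => by rw [hn2 y]; exact Finset.sum_nonneg (fun x _ => hR0 x y)
  have hq1nn : ∀ x, 0 ≤ q1 x := fun x => by rw [hq1 x]; exact Finset.sum_nonneg (fun y _ => hQ0 x y)
  have hq2nn : ∀ y, 0 ≤ q2 y := fun y => by rw [hq2 y]; exact Finset.sum_nonneg (fun x _ => hQ0 x y)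
  have hn1s : ∑ x, n1 x = 1 := by simp only [hn1]; exact hRs
  have hn2s : ∑ y, n2 y = 1 := by simp only [hn2]; rw [Finset.sum_comm]; exact hRs
  have hq1s : ∑ x, q1 x = 1 := by simp only [hq1]; exact hQs
  have hq2s : ∑ y, q2 y = 1 := by simp only [hq2]; rw [Finset.sum_comm]; exact hQs
  have hac1 : ∀ x, n1 x = 0 → q1 x = 0 := by
    intro x h
    rw [hn1 x] at h
    have hz := (Finset.sum_eq_zero_iff_of_nonneg (fun y _ => hR0 x y)).1 h
    rw [hq1 x]
    exact Finset.sum_eq_zero (fun y hy => hac x y (hz y hy))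
  have hac2 : ∀ y, n2 y = 0 → q2 y = 0 := by
    intro y h
    rw [hn2 y] at h
    have hz := (Finset.sum_eq_zero_iff_of_nonneg (fun x _ => hR0 x y)).1 h
    rw [hq2 y]
    exact Finset.sum_eq_zero (fun x hx => hac x y (hz x hx))
  have hQq1 : ∀ x y, q1 x = 0 → Q x y = 0 := by
    intro x y h
    rw [hq1 x] at h
    exact (Finset.sum_eq_zero_iff_of_nonneg (fun y _ => hQ0 x y)).1 h y (Finset.mem_univ y)
  have hQq2 : ∀ x y, q2 y = 0 → Q x y = 0 := by
    intro x y h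
    rw [hq2 y] at h
    exact (Finset.sum_eq_zero_iff_of_nonneg (fun x _ => hQ0 x y)).1 h x (Finset.mem_univ x)
  have hF0 : ∀ x, 0 ≤ q1 x / n1 x := fun x => div_nonneg (hq1nn x) (hn1nn x)
  have hG0 : ∀ y, 0 ≤ q2 y / n2 y := fun y => div_nonneg (hq2nn y) (hn2nn y)
  have hnF : ∀ x, n1 x * (q1 x / n1 x) = q1 x := by
    intro x
    by_cases h : n1 x = 0
    · rw [hac1 x h, h]; ring
    · field_simp
  have hnG : ∀ y, n2 y * (q2 y / n2 y) = q2 y := by
    intro y
    by_cases h : n2 y = 0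
    · rw [hac2 y h, h]; ring
    · field_simp
  have hF1 : ∑ x, n1 x * (q1 x / n1 x) = 1 := by simp only [hnF]; exact hq1s
  have hG1 : ∑ y, n2 y * (q2 y / n2 y) = 1 := by simp only [hnG]; exact hq2s
  have hFz : ∀ x y, q1 x / n1 x = 0 → Q x y = 0 := by
    intro x y h
    rcases div_eq_zero_iff.1 h with h1 | h1
    · exact hQq1 x y h1
    · exact hQq1 x y (hac1 x h1)
  have hGz : ∀ x y, q2 y / n2 y = 0 → Q x y = 0 := by
    intro x y h
    rcases div_eq_zero_iff.1 h with h1 | h1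
    · exact hQq2 x y h1
    · exact hQq2 x y (hac2 y h1)
  have core := ER_sub_one_le R n1 n2 w0 rho L hR0 hn1 hn2 hRs hw hw0 hrho0 hrho hL
    (fun x => q1 x / n1 x) (fun y => q2 y / n2 y) hF0 hG0 hF1 hG1
  rw [← kl_eq_sum_phi q1 n1 hac1 (by rw [hq1s, hn1s]),
    ← kl_eq_sum_phi q2 n2 hac2 (by rw [hq2s, hn2s])] at core
  -- Donsker-Varadhan on the product
  have dv := dv_ineq (fun z : X × Y => Q z.1 z.2) (fun z : X × Y => R z.1 z.2)
    (fun z : X × Y => (q1 z.1 / n1 z.1) * (q2 z.2 / n2 z.2))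
    (fun z => hQ0 z.1 z.2) (fun z => hR0 z.1 z.2) (fun z => hac z.1 z.2)
    (fun z => mul_nonneg (hF0 z.1) (hG0 z.2))
    (fun z h => by
      rcases mul_eq_zero.1 h with h1 | h1
      · exact hFz z.1 z.2 h1
      · exact hGz z.1 z.2 h1)
    (by rw [Fintype.sum_prod_type]; exact hQs)
  unfold kl at dv
  rw [Fintype.sum_prod_type, Fintype.sum_prod_type, Fintype.sum_prod_type] at dv
  simp only at dv
  have hlogsum : ∑ x, ∑ y, Q x y * Real.log (q1 x / n1 x * (q2 y / n2 y)) = kl q1 n1 + kl q2 n2 := by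
    have h1 : ∀ x y, Q x y * Real.log (q1 x / n1 x * (q2 y / n2 y)) =
        Q x y * Real.log (q1 x / n1 x) + Q x y * Real.log (q2 y / n2 y) := by
      intro x y
      by_cases h : Q x y = 0
      · rw [h]; ring
      · rw [Real.log_mul (fun h' => h (hFz x y h')) (fun h' => h (hGz x y h'))]
        ring
    simp only [h1, Finset.sum_add_distrib]
    congr 1
    · unfold kl
      apply Finset.sum_congr rfl
      intro x _
      rw [← Finset.sum_mul, ← hq1 x]
    · unfold kl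
      rw [Finset.sum_comm]
      apply Finset.sum_congr rfl
      intro y _
      rw [← Finset.sum_mul, ← hq2 y]
  rw [hlogsum] at dv
  have hEdef : ∑ x, ∑ y, R x y * (q1 x / n1 x * (q2 y / n2 y)) =
      ER R (fun x => q1 x / n1 x) (fun y => q2 y / n2 y) := rfl
  rw [hEdef] at dv
  have hEpos : 0 < ER R (fun x => q1 x / n1 x) (fun y => q2 y / n2 y) := by
    have hnn : ∀ x y, 0 ≤ R x y * (q1 x / n1 x * (q2 y / n2 y)) :=
      fun x y => mul_nonneg (hR0 x y) (mul_nonneg (hF0 x) (hG0 y))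
    have hge : 0 ≤ ER R (fun x => q1 x / n1 x) (fun y => q2 y / n2 y) :=
      Finset.sum_nonneg (fun x _ => Finset.sum_nonneg (fun y _ => hnn x y))
    rcases hge.eq_or_lt with h | h
    · exfalso
      have hz1 := (Finset.sum_eq_zero_iff_of_nonneg
        (fun x _ => Finset.sum_nonneg (fun y _ => hnn x y))).1 h.symm
      have hall : ∀ x y, Q x y = 0 := by
        intro x y
        have hz2 := (Finset.sum_eq_zero_iff_of_nonneg (fun y _ => hnn x y)).1
          (hz1 x (Finset.mem_univ x)) y (Finset.mem_univ y)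
        rcases mul_eq_zero.1 hz2 with h1 | h1
        · exact hac x y h1
        · rcases mul_eq_zero.1 h1 with h2 | h2
          · exact hFz x y h2
          · exact hGz x y h2
      simp only [hall, Finset.sum_const_zero] at hQs
      exact zero_ne_one hQs
    · exact h
  have hlog := Real.log_le_sub_one_of_pos hEpos
  have hexp : (1 - (rho * L + (w0 + 1 / 2) / (Real.log L - 1))) * (kl q1 n1 + kl q2 n2) =
      (kl q1 n1 + kl q2 n2) - (rho * L + (w0 + 1 / 2) / (Real.log L - 1)) * (kl q1 n1 + kl q2 n2) := by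
    ring
  rw [hexp]
  linarith

end BL

end Vale.Agent.P162.KL
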