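import Mathlib

/-!
# P162 : a general two-marginal Brascamp-Lieb type entropy inequality on finite types

`kl p q = ∑ a, p a * log (p a / q a)` for real weight functions on a finite type.

Main statement `bl_lemma` : let `R` be a probability weight on `X × Y` with marginals `n1, n2`,
density at most `w0` with respect to `n1 × n2` and correlation at most `ρ` on mean-zero
functions.  Then for every probability weight `Q` vanishing where `R` vanishes, and all `Λ ≥ 6`,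
`(1 - (ρ Λ + w0 / (log Λ - 1))) (kl Qx n1 + kl Qy n2) ≤ kl Q R`.
-/

namespace Vale.Agent.P162.KL

open Finset

/-- Relative entropy of real weight functions on a finite type. -/
noncomputable def kl {α : Type*} [Fintype α] (p q : α → ℝ) : ℝ :=
  ∑ a, p a * Real.log (p a / q a)

/-- `phi t = t log t - t + 1`. -/
noncomputable def phi (t : ℝ) : ℝ := t * Real.log t - t + 1

lemma phi_ge_sq (t : ℝ) (ht : 0 ≤ t) : (Real.sqrt t - 1) ^ 2 ≤ phi t := by
  unfold phi
  rcases eq_or_lt_of_le ht with h | h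
  · rw [← h]; simp
  · have hs0 : 0 < Real.sqrt t := Real.sqrt_pos.mpr h
    have hts : Real.sqrt t ^ 2 = t := Real.sq_sqrt ht
    have hlog : Real.log t = 2 * Real.log (Real.sqrt t) := by
      conv_lhs => rw [← hts]
      rw [Real.log_pow]; norm_num
    have h1 : 1 - (Real.sqrt t)⁻¹ ≤ Real.log (Real.sqrt t) :=
      Real.one_sub_inv_le_log_of_pos hs0
    have h2 : Real.sqrt t ^ 2 * (1 - (Real.sqrt t)⁻¹) = Real.sqrt t ^ 2 - Real.sqrt t := by
      field_simp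
    have h3 : Real.sqrt t ^ 2 * (1 - (Real.sqrt t)⁻¹)
        ≤ Real.sqrt t ^ 2 * Real.log (Real.sqrt t) :=
      mul_le_mul_of_nonneg_left h1 (by positivity)
    rw [hlog]
    nlinarith

lemma phi_nonneg (t : ℝ) (ht : 0 ≤ t) : 0 ≤ phi t :=
  le_trans (sq_nonneg _) (phi_ge_sq t ht)

lemma phi_ge_tail (t L : ℝ) (hL : 0 < L) (h : L < t) : t * (Real.log L - 1) + 1 ≤ phi t := by
  unfold phi
  have h1 : Real.log L ≤ Real.log t := Real.log_le_log hL h.le
  have ht : 0 < t := lt_trans hL h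
  nlinarith

/-- bulk estimate -/
lemma sq_le_phi (t L : ℝ) (ht : 0 ≤ t) (hL : 6 ≤ L) (h : t ≤ L) :
    (t - 1) ^ 2 ≤ 2 * L * phi t := by
  have h1 := phi_ge_sq t ht
  have hs0 : 0 ≤ Real.sqrt t := Real.sqrt_nonneg t
  have hts : Real.sqrt t ^ 2 = t := Real.sq_sqrt ht
  have h2 : (t - 1) ^ 2 = (Real.sqrt t - 1) ^ 2 * (Real.sqrt t + 1) ^ 2 := by
    rw [← mul_pow]
    have : (Real.sqrt t - 1) * (Real.sqrt t + 1) = t - 1 := by nlinarith
    rw [this]
  have h3 : (Real.sqrt t + 1) ^ 2 ≤ 2 * L := by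
    nlinarith [sq_nonneg (2 * Real.sqrt t - 5)]
  rw [h2]
  calc (Real.sqrt t - 1) ^ 2 * (Real.sqrt t + 1) ^ 2
      ≤ (Real.sqrt t - 1) ^ 2 * (2 * L) := mul_le_mul_of_nonneg_left h3 (sq_nonneg _)
    _ ≤ phi t * (2 * L) := mul_le_mul_of_nonneg_right h1 (by linarith)
    _ = 2 * L * phi t := by ring

lemma one_lt_log_six_le (L : ℝ) (hL : 6 ≤ L) : 1 < Real.log L := by
  have h1 : Real.exp 1 < 6 := by
    have := Real.exp_one_lt_d9
    linarith
  have h2 : Real.exp 1 < L := lt_of_lt_of_le h1 hL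
  have := Real.log_lt_log (Real.exp_pos 1) h2
  rwa [Real.log_exp] at this

/-! ### one-variable truncation estimates -/

section OneVar

variable {X : Type*} [Fintype X]

/-- bulk part of a density -/
noncomputable def bulk (L : ℝ) (F : X → ℝ) (x : X) : ℝ := if F x ≤ L then F x else 0

/-- tail part of a density -/
noncomputable def tail (L : ℝ) (F : X → ℝ) (x : X) : ℝ := if F x ≤ L then 0 else F x

lemma bulk_add_tail (L : ℝ) (F : X → ℝ) (x : X) : bulk L F x + tail L F x = F x := by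
  unfold bulk tail; split_ifs <;> simp

lemma bulk_nonneg (L : ℝ) (F : X → ℝ) (hF : ∀ x, 0 ≤ F x) (x : X) : 0 ≤ bulk L F x := by
  unfold bulk; split_ifs
  · exact hF x
  · exact le_refl _

lemma tail_nonneg (L : ℝ) (F : X → ℝ) (hF : ∀ x, 0 ≤ F x) (x : X) : 0 ≤ tail L F x := by
  unfold tail; split_ifs
  · exact le_refl _
  · exact hF x

lemma bulk_le (L : ℝ) (F : X → ℝ) (hF : ∀ x, 0 ≤ F x) (x : X) : bulk L F x ≤ F x := by
  have := bulk_add_tail L F x
  have := tail_nonneg L F hF x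
  linarith

lemma tail_bound (n F : X → ℝ) (L : ℝ) (hL : 6 ≤ L) (hn : ∀ x, 0 ≤ n x) (hF : ∀ x, 0 ≤ F x) :
    ∑ x, n x * tail L F x ≤ (∑ x, n x * phi (F x)) / (Real.log L - 1) := by
  have ht : 0 < Real.log L - 1 := by have := one_lt_log_six_le L hL; linarith
  rw [le_div_iff₀ ht, Finset.sum_mul]
  apply Finset.sum_le_sum
  intro x _
  have hp := phi_nonneg (F x) (hF x)
  unfold tail
  split_ifs with h
  · simpa using mul_nonneg (hn x) hp
  · have h' : L < F x := not_le.mp h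
    have := phi_ge_tail (F x) L (by linarith) h'
    rw [mul_assoc]
    exact mul_le_mul_of_nonneg_left (by linarith) (hn x)

lemma bulk_bound (n F : X → ℝ) (L : ℝ) (hL : 6 ≤ L) (hn : ∀ x, 0 ≤ n x) (hF : ∀ x, 0 ≤ F x) :
    ∑ x, n x * (bulk L F x - 1) ^ 2 ≤ 2 * L * ∑ x, n x * phi (F x) := by
  have ht : 0 < Real.log L - 1 := by have := one_lt_log_six_le L hL; linarith
  rw [Finset.mul_sum]
  apply Finset.sum_le_sum
  intro x _
  have key : (bulk L F x - 1) ^ 2 ≤ 2 * L * phi (F x) := by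
    unfold bulk
    split_ifs with h
    · exact sq_le_phi (F x) L (hF x) hL h
    · have h' : L < F x := not_le.mp h
      have h1 := phi_ge_tail (F x) L (by linarith) h'
      have h2 : 0 ≤ F x * (Real.log L - 1) := mul_nonneg (hF x) ht.le
      have h3 : 1 ≤ phi (F x) := by linarith
      nlinarith
  calc n x * (bulk L F x - 1) ^ 2 ≤ n x * (2 * L * phi (F x)) :=
        mul_le_mul_of_nonneg_left key (hn x)
    _ = 2 * L * (n x * phi (F x)) := by ring

/-- the variance is at most the second moment around `1` -/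
lemma var_le (n f : X → ℝ) (hn1 : ∑ x, n x = 1) :
    ∑ x, n x * (f x - ∑ x', n x' * f x') ^ 2 ≤ ∑ x, n x * (f x - 1) ^ 2 := by
  set α := ∑ x', n x' * f x' with hα
  have e : ∀ x, n x * (f x - 1) ^ 2
      = n x * (f x - α) ^ 2 + 2 * (α - 1) * (n x * f x) + (1 - α ^ 2) * n x := by
    intro x; ring
  simp_rw [e, Finset.sum_add_distrib, ← Finset.mul_sum]
  rw [← hα, hn1]
  nlinarith [sq_nonneg (α - 1)]

end OneVar

/-! ### the two-variable inequality -/

section TwoVar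

variable {X Y : Type*} [Fintype X] [Fintype Y]

lemma dsum_left (R : X → Y → ℝ) (n1 : X → ℝ) (hn1 : ∀ x, ∑ y, R x y = n1 x) (f : X → ℝ) :
    ∑ x, ∑ y, R x y * f x = ∑ x, n1 x * f x := by
  simp_rw [← Finset.sum_mul, hn1]

lemma dsum_right (R : X → Y → ℝ) (n2 : Y → ℝ) (hn2 : ∀ y, ∑ x, R x y = n2 y) (g : Y → ℝ) :
    ∑ x, ∑ y, R x y * g y = ∑ y, n2 y * g y := by
  rw [Finset.sum_comm]
  simp_rw [← Finset.sum_mul, hn2]

/-- a product bound from the density bound -/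
lemma dsum_le_prod (R : X → Y → ℝ) (n1 : X → ℝ) (n2 : Y → ℝ) (w0 : ℝ)
    (hw : ∀ x y, R x y ≤ w0 * (n1 x * n2 y)) (f : X → ℝ) (g : Y → ℝ)
    (hf : ∀ x, 0 ≤ f x) (hg : ∀ y, 0 ≤ g y) :
    ∑ x, ∑ y, R x y * (f x * g y) ≤ w0 * ((∑ x, n1 x * f x) * (∑ y, n2 y * g y)) := by
  rw [Finset.sum_mul_sum, Finset.mul_sum]
  apply Finset.sum_le_sum
  intro x _
  rw [Finset.mul_sum]
  apply Finset.sum_le_sum
  intro y _
  calc R x y * (f x * g y) ≤ w0 * (n1 x * n2 y) * (f x * g y) :=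
        mul_le_mul_of_nonneg_right (hw x y) (mul_nonneg (hf x) (hg y))
    _ = w0 * (n1 x * f x * (n2 y * g y)) := by ring

/-- Bilinear estimate: `E_R[F G] - 1 ≤ (ρ L + w0/(log L - 1)) (D1 + D2)`. -/
lemma bilinear_bound (R : X → Y → ℝ) (n1 : X → ℝ) (n2 : Y → ℝ) (w0 ρ L : ℝ)
    (hn1 : ∀ x, ∑ y, R x y = n1 x) (hn2 : ∀ y, ∑ x, R x y = n2 y)
    (hn1p : ∀ x, 0 ≤ n1 x) (hn2p : ∀ y, 0 ≤ n2 y)
    (hs1 : ∑ x, n1 x = 1) (hs2 : ∑ y, n2 y = 1)
    (hw : ∀ x y, R x y ≤ w0 * (n1 x * n2 y))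
    (hρ : ∀ (a : X → ℝ) (b : Y → ℝ), ∑ x, n1 x * a x = 0 → ∑ y, n2 y * b y = 0 →
      ∑ x, ∑ y, R x y * (a x * b y)
        ≤ ρ * (Real.sqrt (∑ x, n1 x * a x ^ 2) * Real.sqrt (∑ y, n2 y * b y ^ 2)))
    (hL : 6 ≤ L) (hρ0 : 0 ≤ ρ) (hw0 : 0 ≤ w0)
    (F : X → ℝ) (G : Y → ℝ) (hF : ∀ x, 0 ≤ F x) (hG : ∀ y, 0 ≤ G y)
    (hF1 : ∑ x, n1 x * F x = 1) (hG1 : ∑ y, n2 y * G y = 1) :
    ∑ x, ∑ y, R x y * (F x * G y) - 1
      ≤ (ρ * L + w0 / (Real.log L - 1))
        * (∑ x, n1 x * phi (F x) + ∑ y, n2 y * phi (G y)) := by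
  have ht : 0 < Real.log L - 1 := by have := one_lt_log_six_le L hL; linarith
  set D1 := ∑ x, n1 x * phi (F x) with hD1
  set D2 := ∑ y, n2 y * phi (G y) with hD2
  set F1 := bulk L F with hF1d
  set F2 := tail L F with hF2d
  set G1 := bulk L G with hG1d
  set G2 := tail L G with hG2d
  have hF1n : ∀ x, 0 ≤ F1 x := bulk_nonneg L F hF
  have hF2n : ∀ x, 0 ≤ F2 x := tail_nonneg L F hF
  have hG1n : ∀ y, 0 ≤ G1 y := bulk_nonneg L G hG
  have hG2n : ∀ y, 0 ≤ G2 y := tail_nonneg L G hG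
  set α := ∑ x, n1 x * F1 x with hα
  set β := ∑ y, n2 y * G1 y with hβ
  have hα0 : 0 ≤ α := Finset.sum_nonneg (fun x _ => mul_nonneg (hn1p x) (hF1n x))
  have hβ0 : 0 ≤ β := Finset.sum_nonneg (fun y _ => mul_nonneg (hn2p y) (hG1n y))
  have hα1 : α ≤ 1 := by
    rw [← hF1]
    exact Finset.sum_le_sum (fun x _ => mul_le_mul_of_nonneg_left (bulk_le L F hF x) (hn1p x))
  have hβ1 : β ≤ 1 := by
    rw [← hG1]
    exact Finset.sum_le_sum (fun y _ => mul_le_mul_of_nonneg_left (bulk_le L G hG y) (hn2p y))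
  -- tails
  have hT1 : ∑ x, n1 x * F2 x ≤ D1 / (Real.log L - 1) := tail_bound n1 F L hL hn1p hF
  have hT2 : ∑ y, n2 y * G2 y ≤ D2 / (Real.log L - 1) := tail_bound n2 G L hL hn2p hG
  have hT1n : 0 ≤ ∑ x, n1 x * F2 x :=
    Finset.sum_nonneg (fun x _ => mul_nonneg (hn1p x) (hF2n x))
  have hT2n : 0 ≤ ∑ y, n2 y * G2 y :=
    Finset.sum_nonneg (fun y _ => mul_nonneg (hn2p y) (hG2n y))
  -- bulks
  have hB1 : ∑ x, n1 x * (F1 x - α) ^ 2 ≤ 2 * L * D1 :=
    le_trans (var_le n1 F1 hs1) (bulk_bound n1 F L hL hn1p hF)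
  have hB2 : ∑ y, n2 y * (G1 y - β) ^ 2 ≤ 2 * L * D2 :=
    le_trans (var_le n2 G1 hs2) (bulk_bound n2 G L hL hn2p hG)
  -- decomposition
  have hdec : ∑ x, ∑ y, R x y * (F x * G y)
      = ∑ x, ∑ y, R x y * (F1 x * G1 y) + ∑ x, ∑ y, R x y * (F2 x * G y)
        + ∑ x, ∑ y, R x y * (F1 x * G2 y) := by
    simp_rw [← Finset.sum_add_distrib]
    apply Finset.sum_congr rfl; intro x _
    apply Finset.sum_congr rfl; intro y _
    have e1 : F x = F1 x + F2 x := (bulk_add_tail L F x).symm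
    have e2 : G y = G1 y + G2 y := (bulk_add_tail L G y).symm
    rw [e1, e2]; ring
  have hP2 : ∑ x, ∑ y, R x y * (F2 x * G y) ≤ w0 * (D1 / (Real.log L - 1)) := by
    have := dsum_le_prod R n1 n2 w0 hw F2 G hF2n hG
    rw [hG1, mul_one] at this
    exact le_trans this (mul_le_mul_of_nonneg_left hT1 hw0)
  have hP3 : ∑ x, ∑ y, R x y * (F1 x * G2 y) ≤ w0 * (D2 / (Real.log L - 1)) := by
    have h1 := dsum_le_prod R n1 n2 w0 hw F1 G2 hF1n hG2n
    have h2 : (∑ x, n1 x * F1 x) * (∑ y, n2 y * G2 y) ≤ D2 / (Real.log L - 1) := by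
      calc (∑ x, n1 x * F1 x) * (∑ y, n2 y * G2 y) ≤ 1 * (∑ y, n2 y * G2 y) :=
            mul_le_mul_of_nonneg_right hα1 hT2n
        _ ≤ D2 / (Real.log L - 1) := by rw [one_mul]; exact hT2
    exact le_trans h1 (mul_le_mul_of_nonneg_left h2 hw0)
  -- the bulk-bulk term
  have hma : ∑ x, n1 x * (F1 x - α) = 0 := by
    simp_rw [mul_sub, Finset.sum_sub_distrib, ← Finset.sum_mul, hs1]
    rw [← hα]; ring
  have hmb : ∑ y, n2 y * (G1 y - β) = 0 := by
    simp_rw [mul_sub, Finset.sum_sub_distrib, ← Finset.sum_mul, hs2]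
    rw [← hβ]; ring
  have hsR : ∑ x, ∑ y, R x y = 1 := by simp_rw [hn1, hs1]
  have hP1 : ∑ x, ∑ y, R x y * (F1 x * G1 y) ≤ 1 + ρ * (L * (D1 + D2)) := by
    have e : ∀ x y, R x y * (F1 x * G1 y)
        = R x y * ((F1 x - α) * (G1 y - β)) + α * (R x y * (G1 y - β))
          + β * (R x y * (F1 x - α)) + α * β * R x y := by
      intro x y; ring
    simp_rw [e, Finset.sum_add_distrib, ← Finset.mul_sum]
    rw [dsum_right R n2 hn2 (fun y => G1 y - β), dsum_left R n1 hn1 (fun x => F1 x - α),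
      hma, hmb, hsR]
    have h1 := hρ (fun x => F1 x - α) (fun y => G1 y - β) hma hmb
    set A := ∑ x, n1 x * (F1 x - α) ^ 2 with hA
    set B := ∑ y, n2 y * (G1 y - β) ^ 2 with hB
    have hA0 : 0 ≤ A := Finset.sum_nonneg (fun x _ => mul_nonneg (hn1p x) (sq_nonneg _))
    have hB0 : 0 ≤ B := Finset.sum_nonneg (fun y _ => mul_nonneg (hn2p y) (sq_nonneg _))
    have h2 : Real.sqrt A * Real.sqrt B ≤ (A + B) / 2 := by
      have := sq_nonneg (Real.sqrt A - Real.sqrt B)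
      have hA' := Real.sq_sqrt hA0
      have hB' := Real.sq_sqrt hB0
      nlinarith
    have h3 : Real.sqrt A * Real.sqrt B ≤ L * (D1 + D2) := by linarith
    have h4 : ρ * (Real.sqrt A * Real.sqrt B) ≤ ρ * (L * (D1 + D2)) :=
      mul_le_mul_of_nonneg_left h3 hρ0
    have h5 : α * β ≤ 1 := by nlinarith
    linarith
  rw [hdec]
  have e : (ρ * L + w0 / (Real.log L - 1)) * (D1 + D2)
      = ρ * (L * (D1 + D2)) + w0 * (D1 / (Real.log L - 1)) + w0 * (D2 / (Real.log L - 1)) := by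
    have hne : Real.log L - 1 ≠ 0 := ht.ne'
    field_simp
    ring
  rw [e]
  linarith

/-- `kl q n = ∑ n φ(q/n)` for probability weights with `q` vanishing where `n` vanishes. -/
lemma kl_eq_sum_phi (q n : X → ℝ) (hq1 : ∑ x, q x = 1) (hn1 : ∑ x, n x = 1)
    (hqn : ∀ x, n x = 0 → q x = 0) :
    kl q n = ∑ x, n x * phi (q x / n x) := by
  have e : ∀ x, n x * phi (q x / n x) = q x * Real.log (q x / n x) - q x + n x := by
    intro x
    unfold phi
    by_cases h : n x = 0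
    · rw [h, hqn x h]; simp
    · have : n x * (q x / n x) = q x := by field_simp
      calc n x * (q x / n x * Real.log (q x / n x) - q x / n x + 1)
          = (n x * (q x / n x)) * Real.log (q x / n x) - n x * (q x / n x) + n x := by ring
        _ = _ := by rw [this]
  simp_rw [e, Finset.sum_add_distrib, Finset.sum_sub_distrib, hq1, hn1]
  unfold kl
  ring

/-- Donsker-Varadhan type step: `Dx + Dy - D(Q‖R) ≤ E_R[F G] - 1`. -/
lemma dv_step (R Q : X → Y → ℝ) (n1 : X → ℝ) (n2 : Y → ℝ)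
    (hR0 : ∀ x y, 0 ≤ R x y)
    (hn1 : ∀ x, ∑ y, R x y = n1 x) (hn2 : ∀ y, ∑ x, R x y = n2 y)
    (hQ0 : ∀ x y, 0 ≤ Q x y) (hQ1 : ∑ x, ∑ y, Q x y = 1)
    (hQR : ∀ x y, R x y = 0 → Q x y = 0) :
    kl (fun x => ∑ y, Q x y) n1 + kl (fun y => ∑ x, Q x y) n2
        - ∑ x, ∑ y, Q x y * Real.log (Q x y / R x y)
      ≤ ∑ x, ∑ y, R x y * (((∑ y', Q x y') / n1 x) * ((∑ x', Q x' y) / n2 y)) - 1 := by
  set qx : X → ℝ := fun x => ∑ y, Q x y with hqx
  set qy : Y → ℝ := fun y => ∑ x, Q x y with hqy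
  have hqx0 : ∀ x, 0 ≤ qx x := fun x => Finset.sum_nonneg (fun y _ => hQ0 x y)
  have hqy0 : ∀ y, 0 ≤ qy y := fun y => Finset.sum_nonneg (fun x _ => hQ0 x y)
  have hn1p : ∀ x, 0 ≤ n1 x := fun x => by rw [← hn1]; exact Finset.sum_nonneg (fun y _ => hR0 x y)
  have hn2p : ∀ y, 0 ≤ n2 y := fun y => by rw [← hn2]; exact Finset.sum_nonneg (fun x _ => hR0 x y)
  have pw : ∀ x y, Q x y * Real.log (qx x / n1 x) + Q x y * Real.log (qy y / n2 y)
      - Q x y * Real.log (Q x y / R x y)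
      ≤ R x y * ((qx x / n1 x) * (qy y / n2 y)) - Q x y := by
    intro x y
    rcases eq_or_lt_of_le (hQ0 x y) with h | h
    · rw [← h]
      simp only [zero_mul, add_zero, sub_zero]
      exact mul_nonneg (hR0 x y)
        (mul_nonneg (div_nonneg (hqx0 x) (hn1p x)) (div_nonneg (hqy0 y) (hn2p y)))
    · have hRp : 0 < R x y := by
        rcases eq_or_lt_of_le (hR0 x y) with h' | h'
        · exact absurd (hQR x y h'.symm) h.ne'
        · exact h'
      have hqxp : 0 < qx x :=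
        lt_of_lt_of_le h (Finset.single_le_sum (f := fun y => Q x y) (fun y _ => hQ0 x y)
          (Finset.mem_univ y))
      have hqyp : 0 < qy y :=
        lt_of_lt_of_le h (Finset.single_le_sum (f := fun x => Q x y) (fun x _ => hQ0 x y)
          (Finset.mem_univ x))
      have hn1x : 0 < n1 x := by
        rw [← hn1]
        exact lt_of_lt_of_le hRp (Finset.single_le_sum (f := fun y => R x y)
          (fun y _ => hR0 x y) (Finset.mem_univ y))
      have hn2y : 0 < n2 y := by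
        rw [← hn2]
        exact lt_of_lt_of_le hRp (Finset.single_le_sum (f := fun x => R x y)
          (fun x _ => hR0 x y) (Finset.mem_univ x))
      have hFp : 0 < qx x / n1 x := div_pos hqxp hn1x
      have hGp : 0 < qy y / n2 y := div_pos hqyp hn2y
      set u := R x y * ((qx x / n1 x) * (qy y / n2 y)) / Q x y with hu
      have hup : 0 < u := div_pos (mul_pos hRp (mul_pos hFp hGp)) h
      have hlog : Real.log u = Real.log (qx x / n1 x) + Real.log (qy y / n2 y)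
          - Real.log (Q x y / R x y) := by
        rw [hu, Real.log_div (mul_pos hRp (mul_pos hFp hGp)).ne' h.ne',
          Real.log_mul hRp.ne' (mul_pos hFp hGp).ne', Real.log_mul hFp.ne' hGp.ne',
          Real.log_div h.ne' hRp.ne']
        ring
      have h1 : Real.log u ≤ u - 1 := Real.log_le_sub_one_of_pos hup
      have h2 : Q x y * u = R x y * ((qx x / n1 x) * (qy y / n2 y)) := by
        rw [hu]; field_simp
      calc Q x y * Real.log (qx x / n1 x) + Q x y * Real.log (qy y / n2 y)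
            - Q x y * Real.log (Q x y / R x y) = Q x y * Real.log u := by rw [hlog]; ring
        _ ≤ Q x y * (u - 1) := mul_le_mul_of_nonneg_left h1 h.le
        _ = _ := by rw [mul_sub, h2, mul_one]
  have hsum := Finset.sum_le_sum (fun x (_ : x ∈ Finset.univ) =>
    Finset.sum_le_sum (fun y (_ : y ∈ Finset.univ) => pw x y))
  simp_rw [Finset.sum_sub_distrib, Finset.sum_add_distrib] at hsum
  rw [hQ1] at hsum
  have e1 : ∑ x, ∑ y, Q x y * Real.log (qx x / n1 x) = kl qx n1 := by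
    unfold kl
    simp_rw [← Finset.sum_mul]
    rfl
  have e2 : ∑ x, ∑ y, Q x y * Real.log (qy y / n2 y) = kl qy n2 := by
    unfold kl
    rw [Finset.sum_comm]
    simp_rw [← Finset.sum_mul]
    rfl
  rw [e1, e2] at hsum
  exact hsum

/-- **Lemma BL.**  `R` a probability weight on `X × Y` with marginals `n1`, `n2`, density at most
`w0` with respect to the product of the marginals, correlation at most `ρ`.  Then for every
probability weight `Q` that vanishes where `R` does and every `L ≥ 6`: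
`(1 - (ρ L + w0/(log L - 1))) (D(Qx‖n1) + D(Qy‖n2)) ≤ D(Q‖R)`. -/
theorem bl_lemma (R Q : X → Y → ℝ) (n1 : X → ℝ) (n2 : Y → ℝ) (w0 ρ L : ℝ)
    (hR0 : ∀ x y, 0 ≤ R x y)
    (hn1 : ∀ x, ∑ y, R x y = n1 x) (hn2 : ∀ y, ∑ x, R x y = n2 y)
    (hR1 : ∑ x, ∑ y, R x y = 1)
    (hw : ∀ x y, R x y ≤ w0 * (n1 x * n2 y))
    (hρ : ∀ (a : X → ℝ) (b : Y → ℝ), ∑ x, n1 x * a x = 0 → ∑ y, n2 y * b y = 0 →
      ∑ x, ∑ y, R x y * (a x * b y)
        ≤ ρ * (Real.sqrt (∑ x, n1 x * a x ^ 2) * Real.sqrt (∑ y, n2 y * b y ^ 2)))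
    (hL : 6 ≤ L) (hρ0 : 0 ≤ ρ) (hw0 : 0 ≤ w0)
    (hQ0 : ∀ x y, 0 ≤ Q x y) (hQ1 : ∑ x, ∑ y, Q x y = 1)
    (hQR : ∀ x y, R x y = 0 → Q x y = 0) :
    (1 - (ρ * L + w0 / (Real.log L - 1)))
        * (kl (fun x => ∑ y, Q x y) n1 + kl (fun y => ∑ x, Q x y) n2)
      ≤ ∑ x, ∑ y, Q x y * Real.log (Q x y / R x y) := by
  have hn1p : ∀ x, 0 ≤ n1 x := fun x => by rw [← hn1]; exact Finset.sum_nonneg (fun y _ => hR0 x y)
  have hn2p : ∀ y, 0 ≤ n2 y := fun y => by rw [← hn2]; exact Finset.sum_nonneg (fun x _ => hR0 x y)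
  have hs1 : ∑ x, n1 x = 1 := by simp_rw [← hn1]; exact hR1
  have hs2 : ∑ y, n2 y = 1 := by simp_rw [← hn2]; rw [Finset.sum_comm]; exact hR1
  have hqx0 : ∀ x, 0 ≤ ∑ y, Q x y := fun x => Finset.sum_nonneg (fun y _ => hQ0 x y)
  have hqy0 : ∀ y, 0 ≤ ∑ x, Q x y := fun y => Finset.sum_nonneg (fun x _ => hQ0 x y)
  have hz1 : ∀ x, n1 x = 0 → ∑ y, Q x y = 0 := by
    intro x hx
    apply Finset.sum_eq_zero
    intro y _
    apply hQR
    rw [← hn1] at hx
    exact (Finset.sum_eq_zero_iff_of_nonneg (fun y _ => hR0 x y)).mp hx y (Finset.mem_univ y)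
  have hz2 : ∀ y, n2 y = 0 → ∑ x, Q x y = 0 := by
    intro y hy
    apply Finset.sum_eq_zero
    intro x _
    apply hQR
    rw [← hn2] at hy
    exact (Finset.sum_eq_zero_iff_of_nonneg (fun x _ => hR0 x y)).mp hy x (Finset.mem_univ x)
  have hQ1' : ∑ y, ∑ x, Q x y = 1 := by rw [Finset.sum_comm]; exact hQ1
  have k1 := kl_eq_sum_phi (fun x => ∑ y, Q x y) n1 hQ1 hs1 hz1
  have k2 := kl_eq_sum_phi (fun y => ∑ x, Q x y) n2 hQ1' hs2 hz2
  have hF1 : ∑ x, n1 x * ((∑ y, Q x y) / n1 x) = 1 := by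
    rw [← hQ1]
    apply Finset.sum_congr rfl
    intro x _
    by_cases h : n1 x = 0
    · rw [h, hz1 x h]; simp
    · field_simp
  have hG1 : ∑ y, n2 y * ((∑ x, Q x y) / n2 y) = 1 := by
    rw [← hQ1']
    apply Finset.sum_congr rfl
    intro y _
    by_cases h : n2 y = 0
    · rw [h, hz2 y h]; simp
    · field_simp
  have b := bilinear_bound R n1 n2 w0 ρ L hn1 hn2 hn1p hn2p hs1 hs2 hw hρ hL hρ0 hw0
    (fun x => (∑ y, Q x y) / n1 x) (fun y => (∑ x, Q x y) / n2 y)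
    (fun x => div_nonneg (hqx0 x) (hn1p x)) (fun y => div_nonneg (hqy0 y) (hn2p y)) hF1 hG1
  have d := dv_step R Q n1 n2 hR0 hn1 hn2 hQ0 hQ1 hQR
  rw [← k1, ← k2] at b
  linarith

end TwoVar

end Vale.Agent.P162.KL
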