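import Mathlib

namespace Vale.Agent.P162

open Finset

variable {S : Type*} [Fintype S] [DecidableEq S]

/-- The sign character `(-1)^|x ∩ y|` on subsets of `S`, written as a product. -/
noncomputable def sg (x y : Finset S) : ℝ := ∏ i ∈ y, (if i ∈ x then (-1 : ℝ) else 1)

lemma sg_eq (x y : Finset S) : sg x y = (-1 : ℝ) ^ (x ∩ y).card := by
  unfold sg
  rw [Finset.prod_ite]
  simp only [Finset.prod_const, one_pow, mul_one]
  congr 2
  ext i
  simp [and_comm]

lemma sg_empty (y : Finset S) : sg ∅ y = 1 := by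
  simp [sg]

lemma sg_univ (y : Finset S) : sg univ y = (-1 : ℝ) ^ y.card := by
  rw [sg_eq]; simp

lemma sg_comm (x y : Finset S) : sg x y = sg y x := by
  rw [sg_eq, sg_eq, Finset.inter_comm]

lemma sum_sg_mul (x x' : Finset S) :
    ∑ y : Finset S, sg x y * sg x' y = if x = x' then (2 : ℝ) ^ Fintype.card S else 0 := by
  have h1 : ∀ y : Finset S, sg x y * sg x' y =
      ∏ i ∈ y, ((if i ∈ x then (-1 : ℝ) else 1) * (if i ∈ x' then (-1 : ℝ) else 1)) := by
    intro y
    unfold sg
    rw [Finset.prod_mul_distrib]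
  simp_rw [h1]
  have h2 := Finset.prod_one_add (s := (univ : Finset S))
    (f := fun i => ((if i ∈ x then (-1 : ℝ) else 1) * (if i ∈ x' then (-1 : ℝ) else 1)))
  rw [Finset.powerset_univ] at h2
  rw [← h2]
  split_ifs with h
  · subst h
    have : ∀ i : S, (1 + (if i ∈ x then (-1 : ℝ) else 1) * (if i ∈ x then (-1 : ℝ) else 1)) = 2 := by
      intro i
      split_ifs <;> norm_num
    simp_rw [this]
    simp
  · have : ∃ i : S, ¬ (i ∈ x ↔ i ∈ x') := by
      by_contra hc
      push Not at hc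
      exact h (Finset.ext hc)
    obtain ⟨i, hi⟩ := this
    apply Finset.prod_eq_zero (Finset.mem_univ i)
    by_cases h1 : i ∈ x <;> by_cases h2 : i ∈ x' <;> simp_all


/-- The sign matrix on subsets of `S` has operator norm `2^(N/2)`. -/
theorem hadamard (a b : Finset S → ℝ) :
    |∑ x : Finset S, ∑ y : Finset S, a x * b y * sg x y| ≤
      Real.sqrt ((2 : ℝ) ^ Fintype.card S) * Real.sqrt (∑ x, a x ^ 2) *
        Real.sqrt (∑ y, b y ^ 2) := by
  set T : ℝ := (2 : ℝ) ^ Fintype.card S with hT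
  have hT0 : 0 ≤ T := by positivity
  set c : Finset S → ℝ := fun y => ∑ x : Finset S, a x * sg x y with hc
  have h1 : ∑ x : Finset S, ∑ y : Finset S, a x * b y * sg x y = ∑ y, b y * c y := by
    rw [Finset.sum_comm]
    apply Finset.sum_congr rfl
    intro y _
    rw [hc]
    simp only
    rw [Finset.mul_sum]
    apply Finset.sum_congr rfl
    intro x _
    ring
  have h2 : ∑ y, c y ^ 2 = T * ∑ x, a x ^ 2 := by
    have : ∀ y, c y ^ 2 = ∑ x : Finset S, ∑ x' : Finset S, a x * a x' * (sg x y * sg x' y) := by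
      intro y
      rw [hc]
      simp only
      rw [sq, Finset.sum_mul_sum]
      apply Finset.sum_congr rfl
      intro x _
      apply Finset.sum_congr rfl
      intro x' _
      ring
    simp_rw [this]
    rw [Finset.sum_comm]
    have h3 : ∀ x : Finset S, ∑ y : Finset S, ∑ x' : Finset S, a x * a x' * (sg x y * sg x' y)
        = T * a x ^ 2 := by
      intro x
      rw [Finset.sum_comm]
      have : ∀ x' : Finset S, ∑ y : Finset S, a x * a x' * (sg x y * sg x' y)
          = a x * a x' * (if x = x' then T else 0) := by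
        intro x'
        rw [← Finset.mul_sum, sum_sg_mul]
      simp_rw [this]
      simp only [mul_ite, mul_zero]
      rw [Finset.sum_ite_eq]
      simp
      ring
    simp_rw [h3]
    rw [Finset.mul_sum]
  rw [h1]
  have h4 := Finset.sum_mul_sq_le_sq_mul_sq (univ : Finset (Finset S)) b c
  rw [h2] at h4
  have h5 := Real.abs_le_sqrt h4
  have ha0 : 0 ≤ ∑ x, a x ^ 2 := Finset.sum_nonneg (fun x _ => sq_nonneg _)
  have hb0 : 0 ≤ ∑ y, b y ^ 2 := Finset.sum_nonneg (fun x _ => sq_nonneg _)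
  rw [Real.sqrt_mul hb0, Real.sqrt_mul hT0] at h5
  linarith [h5]

/-- Even subsets of `S`. -/
abbrev Ev (S : Type*) [Fintype S] [DecidableEq S] := {x : Finset S // Even x.card}

/-- `2 ^ N`, `N = |S|`. -/
noncomputable def TT (S : Type*) [Fintype S] : ℝ := (2 : ℝ) ^ Fintype.card S

/-- The number `2^(2N-3) + 2^(N-1)` of pairs of even subsets with even intersection. -/
noncomputable def cntE (S : Type*) [Fintype S] : ℝ := TT S * TT S / 8 + TT S / 2

/-- The uniform law on pairs of even subsets with even intersection. -/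
noncomputable def Rw (p : Ev S × Ev S) : ℝ :=
  if Even (p.1.1 ∩ p.2.1).card then 1 / cntE S else 0

/-- Its marginal. -/
noncomputable def nuw (x : Ev S) : ℝ :=
  (if x.1 = ∅ ∨ x.1 = univ then TT S / 2 else TT S / 4) / cntE S

lemma TT_pos : 0 < TT S := by unfold TT; positivity

lemma cntE_pos : 0 < cntE S := by
  have := TT_pos (S := S)
  unfold cntE; positivity

lemma evInd (x : Finset S) : (if Even x.card then (1 : ℝ) else 0) = (1 + sg univ x) / 2 := by
  rw [sg_univ]
  split_ifs with h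
  · rw [h.neg_one_pow]; norm_num
  · rw [(Nat.not_even_iff_odd.mp h).neg_one_pow]; norm_num

lemma evInd2 (x y : Finset S) :
    (if Even (x ∩ y).card then (1 : ℝ) else 0) = (1 + sg x y) / 2 := by
  rw [sg_eq]
  split_ifs with h
  · rw [h.neg_one_pow]; norm_num
  · rw [(Nat.not_even_iff_odd.mp h).neg_one_pow]; norm_num

lemma sum_Ev (f : Finset S → ℝ) :
    ∑ x : Ev S, f x.1 = ∑ x : Finset S, (1 + sg univ x) / 2 * f x := by
  have h1 : ∑ x : Ev S, f x.1 = ∑ x ∈ (univ : Finset (Finset S)).filter (fun x => Even x.card), f x := by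
    symm
    apply Finset.sum_subtype
    intro x
    simp
  rw [h1, Finset.sum_filter]
  apply Finset.sum_congr rfl
  intro x _
  rw [← evInd]
  split_ifs <;> simp

lemma sum_sg (x : Finset S) : ∑ y : Finset S, sg x y = if x = ∅ then TT S else 0 := by
  have := sum_sg_mul x ∅
  simpa [sg_empty, TT] using this

lemma sum_one_TT : ∑ _y : Finset S, (1 : ℝ) = TT S := by
  simp [TT]

lemma count_even [Nonempty S] (x : Finset S) :
    ∑ y : Finset S, (1 + sg univ y) / 2 * ((1 + sg x y) / 2) =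
      TT S / 4 * (1 + (if x = ∅ then 1 else 0) + (if x = univ then 1 else 0)) := by
  have h1 : ∀ y : Finset S, (1 + sg univ y) / 2 * ((1 + sg x y) / 2) =
      (1 + sg univ y + sg x y + sg univ y * sg x y) / 4 := by
    intro y; ring
  simp_rw [h1]
  rw [← Finset.sum_div, Finset.sum_add_distrib, Finset.sum_add_distrib, Finset.sum_add_distrib,
    sum_one_TT, sum_sg, sum_sg, sum_sg_mul]
  have hne : (univ : Finset S) ≠ ∅ := Finset.univ_nonempty.ne_empty
  rw [if_neg hne]
  have e1 : (if x = ∅ then TT S else 0) = TT S * (if x = ∅ then 1 else 0) := by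
    split_ifs <;> simp
  have e2 : (if univ = x then (2 : ℝ) ^ Fintype.card S else 0)
      = TT S * (if x = univ then 1 else 0) := by
    by_cases h : x = univ
    · subst h; simp [TT]
    · have h' : ¬ (univ = x) := fun hh => h hh.symm
      simp [h, h']
  rw [e1, e2]
  ring

lemma Rw_eq (x y : Ev S) : Rw (x, y) = (1 + sg x.1 y.1) / 2 / cntE S := by
  unfold Rw
  rw [← evInd2]
  split_ifs <;> simp

lemma nuw_eq [Nonempty S] (x : Ev S) :
    nuw x = TT S / 4 * (1 + (if x.1 = ∅ then 1 else 0) + (if x.1 = univ then 1 else 0)) /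
      cntE S := by
  unfold nuw
  have hne : (univ : Finset S) ≠ ∅ := Finset.univ_nonempty.ne_empty
  congr 1
  by_cases h1 : x.1 = ∅
  · have h2 : ¬ x.1 = univ := by rw [h1]; exact fun h => hne h.symm
    simp [h1, hne.symm]; ring
  · by_cases h2 : x.1 = univ
    · simp [h2, hne]; ring
    · simp [h1, h2]

theorem Rw_nonneg (p : Ev S × Ev S) : 0 ≤ Rw p := by
  unfold Rw
  have := cntE_pos (S := S)
  split_ifs <;> positivity

theorem nuw_pos (x : Ev S) : 0 < nuw x := by
  unfold nuw
  have := cntE_pos (S := S)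
  have := TT_pos (S := S)
  split_ifs <;> positivity

theorem nuw_ge (x : Ev S) : TT S / 4 / cntE S ≤ nuw x := by
  unfold nuw
  have hc := cntE_pos (S := S)
  have ht := TT_pos (S := S)
  apply div_le_div_of_nonneg_right _ hc.le
  split_ifs <;> linarith

theorem sum_Rw_right [Nonempty S] (x : Ev S) : ∑ y : Ev S, Rw (x, y) = nuw x := by
  simp_rw [Rw_eq]
  rw [sum_Ev (fun y => (1 + sg x.1 y) / 2 / cntE S), nuw_eq, ← count_even, Finset.sum_div]
  apply Finset.sum_congr rfl
  intro y _
  ring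

theorem Rw_symm (x y : Ev S) : Rw (x, y) = Rw (y, x) := by
  rw [Rw_eq, Rw_eq, sg_comm]

theorem sum_Rw_left [Nonempty S] (y : Ev S) : ∑ x : Ev S, Rw (x, y) = nuw y := by
  simp_rw [Rw_symm _ y]
  exact sum_Rw_right y

theorem sum_nuw [Nonempty S] (hN : Even (Fintype.card S)) : ∑ x : Ev S, nuw x = 1 := by
  simp_rw [nuw_eq]
  rw [sum_Ev (fun x => TT S / 4 * (1 + (if x = ∅ then 1 else 0) + (if x = univ then 1 else 0)) /
      cntE S)]
  have h1 : ∀ x : Finset S, (1 + sg univ x) / 2 *
      (TT S / 4 * (1 + (if x = ∅ then 1 else 0) + (if x = univ then 1 else 0)) / cntE S)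
      = TT S / 4 / cntE S * ((1 + sg univ x) / 2 + (if x = ∅ then (1 + sg univ x) / 2 else 0)
        + (if x = univ then (1 + sg univ x) / 2 else 0)) := by
    intro x
    split_ifs <;> ring
  simp_rw [h1]
  rw [← Finset.mul_sum, Finset.sum_add_distrib, Finset.sum_add_distrib, Finset.sum_ite_eq',
    Finset.sum_ite_eq', ← Finset.sum_div, Finset.sum_add_distrib, sum_one_TT, sum_sg]
  have hne : (univ : Finset S) ≠ ∅ := Finset.univ_nonempty.ne_empty
  simp only [Finset.mem_univ, if_true, if_neg hne]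
  rw [sg_univ, sg_univ]
  simp only [Finset.card_empty, pow_zero, Finset.card_univ, hN.neg_one_pow]
  have hc := cntE_pos (S := S)
  have ht := TT_pos (S := S)
  have e : TT S / 4 * ((TT S + 0) / 2 + (1 + 1) / 2 + (1 + 1) / 2) = cntE S := by
    unfold cntE; ring
  rw [div_mul_eq_mul_div, e, div_self hc.ne']

theorem Rw_le (x y : Ev S) : Rw (x, y) ≤ (2 + 8 / TT S) * nuw x * nuw y := by
  have hc := cntE_pos (S := S)
  have ht := TT_pos (S := S)
  have h1 : Rw (x, y) ≤ 1 / cntE S := by
    unfold Rw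
    split_ifs
    · exact le_refl _
    · positivity
  have h2 : (TT S / 4 / cntE S) * (TT S / 4 / cntE S) ≤ nuw x * nuw y := by
    apply mul_le_mul (nuw_ge x) (nuw_ge y) (by positivity) (nuw_pos x).le
  have h3 : 1 / cntE S = (2 + 8 / TT S) * ((TT S / 4 / cntE S) * (TT S / 4 / cntE S)) := by
    have : cntE S = TT S * TT S / 8 + TT S / 2 := rfl
    field_simp
    rw [this]
    ring
  calc Rw (x, y) ≤ 1 / cntE S := h1
    _ = (2 + 8 / TT S) * ((TT S / 4 / cntE S) * (TT S / 4 / cntE S)) := h3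
    _ ≤ (2 + 8 / TT S) * (nuw x * nuw y) := by
        apply mul_le_mul_of_nonneg_left h2 (by positivity)
    _ = (2 + 8 / TT S) * nuw x * nuw y := by ring

/-- Extension by zero of a function on even subsets. -/
noncomputable def ext0 (a : Ev S → ℝ) (x : Finset S) : ℝ :=
  if h : Even x.card then a ⟨x, h⟩ else 0

lemma ext0_coe (a : Ev S → ℝ) (x : Ev S) : ext0 a x.1 = a x := by
  unfold ext0
  rw [dif_pos x.2]

lemma sum_ext0 (a : Ev S → ℝ) (f : Finset S → ℝ) :
    ∑ x : Finset S, f x * ext0 a x = ∑ x : Ev S, f x.1 * a x := by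
  have h := sum_Ev (fun x => f x * ext0 a x)
  simp only [ext0_coe] at h
  rw [h]
  apply Finset.sum_congr rfl
  intro x _
  rw [← evInd]
  by_cases hx : Even x.card
  · simp [hx]
  · simp [hx, ext0]

lemma mul_le_of_sq_le {X Y K p q : ℝ} (hK : 0 ≤ K) (hX : X ^ 2 ≤ K * p) (hY : Y ^ 2 ≤ K * q) :
    X * Y ≤ K * Real.sqrt p * Real.sqrt q := by
  have h1 : |X| ≤ Real.sqrt K * Real.sqrt p := by
    rw [← Real.sqrt_mul hK]; exact Real.abs_le_sqrt hX
  have h2 : |Y| ≤ Real.sqrt K * Real.sqrt q := by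
    rw [← Real.sqrt_mul hK]; exact Real.abs_le_sqrt hY
  calc X * Y ≤ |X * Y| := le_abs_self _
    _ = |X| * |Y| := abs_mul _ _
    _ ≤ (Real.sqrt K * Real.sqrt p) * (Real.sqrt K * Real.sqrt q) :=
        mul_le_mul h1 h2 (abs_nonneg _) (by positivity)
    _ = (Real.sqrt K * Real.sqrt K) * Real.sqrt p * Real.sqrt q := by ring
    _ = K * Real.sqrt p * Real.sqrt q := by rw [Real.mul_self_sqrt hK]

lemma sum_sq_le (a : Ev S → ℝ) :
    ∑ x : Ev S, a x ^ 2 ≤ 4 * cntE S / TT S * ∑ x : Ev S, nuw x * a x ^ 2 := by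
  have hc := cntE_pos (S := S)
  have ht := TT_pos (S := S)
  rw [Finset.mul_sum]
  apply Finset.sum_le_sum
  intro x _
  have h1 := nuw_ge x
  have h2 : a x ^ 2 = 4 * cntE S / TT S * ((TT S / 4 / cntE S) * a x ^ 2) := by
    field_simp
  calc a x ^ 2 = 4 * cntE S / TT S * ((TT S / 4 / cntE S) * a x ^ 2) := h2
    _ ≤ 4 * cntE S / TT S * (nuw x * a x ^ 2) := by
        apply mul_le_mul_of_nonneg_left _ (by positivity)
        exact mul_le_mul_of_nonneg_right h1 (sq_nonneg _)

lemma sum_sq_le' [Nonempty S] (hN : Even (Fintype.card S)) (a : Ev S → ℝ)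
    (ha : ∑ x, nuw x * a x = 0) :
    (∑ x : Ev S, a x) ^ 2 ≤ 4 * cntE S / TT S * ∑ x : Ev S, nuw x * a x ^ 2 := by
  have hc := cntE_pos (S := S)
  have ht := TT_pos (S := S)
  have hne : (univ : Finset S) ≠ ∅ := Finset.univ_nonempty.ne_empty
  set e0 : Ev S := ⟨∅, by simp⟩ with he0
  set eu : Ev S := ⟨univ, by simpa using hN⟩ with heu
  have hneq : e0 ≠ eu := by
    intro h
    have := congrArg Subtype.val h
    exact hne this.symm
  have h1 : ∑ x : Ev S, a x + a e0 + a eu = 0 := by
    have h2 : ∀ x : Ev S, nuw x * a x = TT S / 4 / cntE S *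
        (a x + (if x = e0 then a x else 0) + (if x = eu then a x else 0)) := by
      intro x
      rw [nuw_eq]
      have c1 : (x.1 = ∅) = (x = e0) := by
        rw [he0]; apply propext; constructor
        · intro h; exact Subtype.ext h
        · intro h; exact congrArg Subtype.val h
      have c2 : (x.1 = univ) = (x = eu) := by
        rw [heu]; apply propext; constructor
        · intro h; exact Subtype.ext h
        · intro h; exact congrArg Subtype.val h
      simp only [c1, c2]
      split_ifs <;> ring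
    simp_rw [h2] at ha
    rw [← Finset.mul_sum, Finset.sum_add_distrib, Finset.sum_add_distrib, Finset.sum_ite_eq',
      Finset.sum_ite_eq'] at ha
    simp only [Finset.mem_univ, if_true] at ha
    have hpos : TT S / 4 / cntE S ≠ 0 := by positivity
    exact (mul_eq_zero.mp ha).resolve_left hpos
  have h3 : nuw e0 * a e0 ^ 2 + nuw eu * a eu ^ 2 ≤ ∑ x : Ev S, nuw x * a x ^ 2 := by
    rw [← Finset.sum_pair hneq (f := fun x => nuw x * a x ^ 2)]
    apply Finset.sum_le_sum_of_subset_of_nonneg (Finset.subset_univ _)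
    intro x _ _
    exact mul_nonneg (nuw_pos x).le (sq_nonneg _)
  have n0 : nuw e0 = TT S / 2 / cntE S := by
    unfold nuw; simp [he0]
  have nu' : nuw eu = TT S / 2 / cntE S := by
    unfold nuw; simp [heu]
  rw [n0, nu'] at h3
  have h4 : ∑ x : Ev S, a x = -(a e0 + a eu) := by linarith
  rw [h4]
  have h5 : (-(a e0 + a eu)) ^ 2 ≤ 2 * (a e0 ^ 2 + a eu ^ 2) := by
    nlinarith [sq_nonneg (a e0 - a eu)]
  have h6 : 2 * (a e0 ^ 2 + a eu ^ 2) = 4 * cntE S / TT S *
      (TT S / 2 / cntE S * a e0 ^ 2 + TT S / 2 / cntE S * a eu ^ 2) := by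
    field_simp
    ring
  calc (-(a e0 + a eu)) ^ 2 ≤ 2 * (a e0 ^ 2 + a eu ^ 2) := h5
    _ = _ := h6
    _ ≤ _ := mul_le_mul_of_nonneg_left h3 (by positivity)

/-- Correlation bound for the pair law: mean-zero functions of the two coordinates are almost
uncorrelated. -/
theorem Rw_corr [Nonempty S] (hN : Even (Fintype.card S)) (a b : Ev S → ℝ)
    (ha : ∑ x, nuw x * a x = 0) (hb : ∑ y, nuw y * b y = 0) :
    ∑ x : Ev S, ∑ y : Ev S, Rw (x, y) * a x * b y ≤
      (2 / Real.sqrt (TT S) + 2 / TT S) * Real.sqrt (∑ x, nuw x * a x ^ 2) *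
        Real.sqrt (∑ y, nuw y * b y ^ 2) := by
  have hc := cntE_pos (S := S)
  have ht := TT_pos (S := S)
  set p := ∑ x, nuw x * a x ^ 2 with hp
  set q := ∑ y, nuw y * b y ^ 2 with hq
  set K := 4 * cntE S / TT S with hK
  have hK0 : 0 ≤ K := by positivity
  have hp0 : 0 ≤ p := Finset.sum_nonneg (fun x _ => mul_nonneg (nuw_pos x).le (sq_nonneg _))
  have hq0 : 0 ≤ q := Finset.sum_nonneg (fun x _ => mul_nonneg (nuw_pos x).le (sq_nonneg _))
  -- the Hadamard part
  set Hs := ∑ x : Finset S, ∑ y : Finset S, ext0 a x * ext0 b y * sg x y with hHs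
  have hH1 : Hs = ∑ x : Ev S, ∑ y : Ev S, a x * b y * sg x.1 y.1 := by
    rw [hHs]
    have h1 : ∀ x : Finset S, ∑ y : Finset S, ext0 a x * ext0 b y * sg x y
        = (∑ y : Ev S, b y * sg x y.1) * ext0 a x := by
      intro x
      have := sum_ext0 b (fun y => sg x y)
      rw [Finset.sum_mul]
      have h2 : ∑ y : Ev S, b y * sg x y.1 * ext0 a x
          = (∑ y : Ev S, sg x y.1 * b y) * ext0 a x := by
        rw [Finset.sum_mul]
        apply Finset.sum_congr rfl
        intro y _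
        ring
      rw [h2, ← this, Finset.sum_mul]
      apply Finset.sum_congr rfl
      intro y _
      ring
    simp_rw [h1]
    rw [sum_ext0 a (fun x => ∑ y : Ev S, b y * sg x y.1)]
    apply Finset.sum_congr rfl
    intro x _
    rw [Finset.sum_mul]
    apply Finset.sum_congr rfl
    intro y _
    ring
  have hA2 : ∑ x : Finset S, ext0 a x ^ 2 = ∑ x : Ev S, a x ^ 2 := by
    have := sum_ext0 a (fun x => ext0 a x)
    simp only [ext0_coe] at this
    simp_rw [sq]
    exact this
  have hB2 : ∑ x : Finset S, ext0 b x ^ 2 = ∑ x : Ev S, b x ^ 2 := by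
    have := sum_ext0 b (fun x => ext0 b x)
    simp only [ext0_coe] at this
    simp_rw [sq]
    exact this
  have hH2 : Hs ≤ Real.sqrt (TT S) * (K * Real.sqrt p * Real.sqrt q) := by
    have h := hadamard (ext0 a) (ext0 b)
    rw [hA2, hB2] at h
    have h1 : Real.sqrt (∑ x : Ev S, a x ^ 2) ≤ Real.sqrt K * Real.sqrt p := by
      rw [← Real.sqrt_mul hK0]
      exact Real.sqrt_le_sqrt (sum_sq_le a)
    have h2 : Real.sqrt (∑ x : Ev S, b x ^ 2) ≤ Real.sqrt K * Real.sqrt q := by
      rw [← Real.sqrt_mul hK0]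
      exact Real.sqrt_le_sqrt (sum_sq_le b)
    calc Hs ≤ |Hs| := le_abs_self _
      _ ≤ Real.sqrt (TT S) * Real.sqrt (∑ x : Ev S, a x ^ 2) * Real.sqrt (∑ x : Ev S, b x ^ 2) := h
      _ = Real.sqrt (TT S) * (Real.sqrt (∑ x : Ev S, a x ^ 2) * Real.sqrt (∑ x : Ev S, b x ^ 2)) := by
          ring
      _ ≤ Real.sqrt (TT S) * ((Real.sqrt K * Real.sqrt p) * (Real.sqrt K * Real.sqrt q)) := by
          apply mul_le_mul_of_nonneg_left _ (Real.sqrt_nonneg _)
          exact mul_le_mul h1 h2 (Real.sqrt_nonneg _) (by positivity)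
      _ = Real.sqrt (TT S) * ((Real.sqrt K * Real.sqrt K) * Real.sqrt p * Real.sqrt q) := by ring
      _ = Real.sqrt (TT S) * (K * Real.sqrt p * Real.sqrt q) := by rw [Real.mul_self_sqrt hK0]
  have hXY : (∑ x : Ev S, a x) * (∑ y : Ev S, b y) ≤ K * Real.sqrt p * Real.sqrt q :=
    mul_le_of_sq_le hK0 (sum_sq_le' hN a ha) (sum_sq_le' hN b hb)
  have hmain : ∑ x : Ev S, ∑ y : Ev S, Rw (x, y) * a x * b y
      = ((∑ x : Ev S, a x) * (∑ y : Ev S, b y) + Hs) / (2 * cntE S) := by
    rw [hH1, Finset.sum_mul_sum, ← Finset.sum_add_distrib, Finset.sum_div]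
    apply Finset.sum_congr rfl
    intro x _
    rw [← Finset.sum_add_distrib, Finset.sum_div]
    apply Finset.sum_congr rfl
    intro y _
    rw [Rw_eq]
    field_simp
  rw [hmain]
  have hs : Real.sqrt (TT S) * Real.sqrt (TT S) = TT S := Real.mul_self_sqrt ht.le
  have hs0 : 0 < Real.sqrt (TT S) := Real.sqrt_pos.mpr ht
  have hfin : (K * Real.sqrt p * Real.sqrt q + Real.sqrt (TT S) * (K * Real.sqrt p * Real.sqrt q))
      / (2 * cntE S) = (2 / Real.sqrt (TT S) + 2 / TT S) * Real.sqrt p * Real.sqrt q := by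
    rw [hK]
    have : 2 / Real.sqrt (TT S) = 2 * Real.sqrt (TT S) / TT S := by
      rw [div_eq_div_iff hs0.ne' ht.ne']
      rw [mul_assoc, hs]
    rw [this]
    field_simp
    ring
  rw [← hfin]
  apply div_le_div_of_nonneg_right _ (by positivity)
  linarith

/-- The same bound with the sum over pairs. -/
theorem Rw_corr_prod [Nonempty S] (hN : Even (Fintype.card S)) (a b : Ev S → ℝ)
    (ha : ∑ x, nuw x * a x = 0) (hb : ∑ y, nuw y * b y = 0) :
    ∑ p : Ev S × Ev S, Rw p * a p.1 * b p.2 ≤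
      (2 / Real.sqrt (TT S) + 2 / TT S) * Real.sqrt (∑ x, nuw x * a x ^ 2) *
        Real.sqrt (∑ y, nuw y * b y ^ 2) := by
  rw [Fintype.sum_prod_type]
  exact Rw_corr hN a b ha hb

theorem sum_Rw [Nonempty S] (hN : Even (Fintype.card S)) : ∑ p : Ev S × Ev S, Rw p = 1 := by
  rw [Fintype.sum_prod_type]
  simp_rw [sum_Rw_right]
  exact sum_nuw hN

end Vale.Agent.P162
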