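import Vale.Agent.P162.KL.BL
import Vale.Agent.P162.KL.PairLaw

/-!
# P162 : LEMMA BL for the pair law (two even subsets with even intersection)
-/

namespace Vale.Agent.P162.KL

open Finset Real Vale.Agent.P162

/-- numerical estimate of the error term of LEMMA BL for the pair law -/
theorem eps_pair_le (N k : ℕ) (hk : 16 ≤ k) (hkN : 4 * k ≤ N) (T : ℝ) (hT : T = (2 : ℝ) ^ N) :
    (2 / Real.sqrt T + 2 / T) * (2 : ℝ) ^ k +
      ((2 + 8 / T) + 1 / 2) / (Real.log ((2 : ℝ) ^ k) - 1) ≤ 4 / (k : ℝ) := by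
  have hk0 : (16 : ℝ) ≤ (k : ℝ) := by exact_mod_cast hk
  have hkpos : (0 : ℝ) < (k : ℝ) := by linarith
  -- lower bound for 2^k
  have h2k : (4096 : ℝ) * k ≤ (2 : ℝ) ^ k := by
    obtain ⟨j, rfl⟩ := Nat.exists_eq_add_of_le hk
    have hj : ((j : ℝ) + 1) ≤ (2 : ℝ) ^ j := by
      have := Nat.lt_two_pow_self (n := j)
      have h' : j + 1 ≤ 2 ^ j := this
      exact_mod_cast h'
    rw [pow_add]
    push_cast
    have hj0 : (0 : ℝ) ≤ (j : ℝ) := Nat.cast_nonneg j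
    norm_num
    nlinarith
  have hP : (0 : ℝ) < (2 : ℝ) ^ k := by positivity
  -- T ≥ (2^k)^4
  have hT4 : ((2 : ℝ) ^ k) ^ 4 ≤ T := by
    rw [hT, ← pow_mul]
    apply pow_le_pow_right₀ (by norm_num)
    omega
  have hTpos : 0 < T := lt_of_lt_of_le (by positivity) hT4
  have hsq : ((2 : ℝ) ^ k) ^ 2 ≤ Real.sqrt T := by
    apply Real.le_sqrt_of_sq_le
    calc (((2 : ℝ) ^ k) ^ 2) ^ 2 = ((2 : ℝ) ^ k) ^ 4 := by ring
      _ ≤ T := hT4
  have hP1 : (1 : ℝ) ≤ (2 : ℝ) ^ k := by linarith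
  have hsqT : ((2 : ℝ) ^ k) ^ 2 ≤ T := by
    calc ((2 : ℝ) ^ k) ^ 2 ≤ ((2 : ℝ) ^ k) ^ 4 := pow_le_pow_right₀ hP1 (by norm_num)
      _ ≤ T := hT4
  have hP2 : (0 : ℝ) < ((2 : ℝ) ^ k) ^ 2 := by positivity
  have e1 : 2 / Real.sqrt T ≤ 2 / ((2 : ℝ) ^ k) ^ 2 :=
    div_le_div_of_nonneg_left (by norm_num) hP2 hsq
  have e2 : 2 / T ≤ 2 / ((2 : ℝ) ^ k) ^ 2 :=
    div_le_div_of_nonneg_left (by norm_num) hP2 hsqT
  have e3 : (2 / Real.sqrt T + 2 / T) * (2 : ℝ) ^ k ≤ 4 / (2 : ℝ) ^ k := by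
    calc (2 / Real.sqrt T + 2 / T) * (2 : ℝ) ^ k
        ≤ (2 / ((2 : ℝ) ^ k) ^ 2 + 2 / ((2 : ℝ) ^ k) ^ 2) * (2 : ℝ) ^ k :=
          mul_le_mul_of_nonneg_right (by linarith) hP.le
      _ = 4 / (2 : ℝ) ^ k := by field_simp; ring
  have e4 : 4 / (2 : ℝ) ^ k ≤ (1 / 1024) / (k : ℝ) := by
    rw [div_le_div_iff₀ hP hkpos]
    linarith
  have hT800 : (800 : ℝ) ≤ T := by
    have : (4096 : ℝ) * 16 ≤ (2 : ℝ) ^ k := by linarith
    nlinarith
  have e5 : 8 / T ≤ 1 / 100 := by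
    rw [div_le_div_iff₀ hTpos (by norm_num)]
    linarith
  have hlog : Real.log ((2 : ℝ) ^ k) = k * Real.log 2 := by
    rw [Real.log_pow]
  have hl2 := Real.log_two_gt_d9
  have e6 : (63 / 100 : ℝ) * k ≤ Real.log ((2 : ℝ) ^ k) - 1 := by
    rw [hlog]
    nlinarith
  have hden : (0 : ℝ) < (63 / 100 : ℝ) * k := by positivity
  have e7 : ((2 + 8 / T) + 1 / 2) / (Real.log ((2 : ℝ) ^ k) - 1) ≤ (251 / 100) / ((63 / 100 : ℝ) * k) := by
    apply div_le_div₀ (by norm_num) (by linarith) hden e6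
  have e8 : (251 / 100) / ((63 / 100 : ℝ) * k) = (251 / 63) / (k : ℝ) := by
    field_simp
  have e9 : (1 / 1024) / (k : ℝ) + (251 / 63) / (k : ℝ) ≤ 4 / (k : ℝ) := by
    rw [← add_div]
    apply div_le_div_of_nonneg_right _ hkpos.le
    norm_num
  rw [e8] at e7
  linarith

variable {S : Type*} [Fintype S] [DecidableEq S]

/-- LEMMA BL for the pair law `Rw` of two even subsets with even intersection. -/
theorem BL_pair (hN : Even (Fintype.card S)) (h64 : 64 ≤ Fintype.card S)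
    (Q : Ev S → Ev S → ℝ) (q1 q2 : Ev S → ℝ) (hQ0 : ∀ x y, 0 ≤ Q x y)
    (hac : ∀ x y, Rw (x, y) = 0 → Q x y = 0)
    (hq1 : ∀ x, q1 x = ∑ y, Q x y) (hq2 : ∀ y, q2 y = ∑ x, Q x y)
    (hQs : ∑ x, ∑ y, Q x y = 1) :
    (1 - 32 / (Fintype.card S : ℝ)) * (kl q1 nuw + kl q2 nuw) ≤
      ∑ x, ∑ y, Q x y * Real.log (Q x y / Rw (x, y)) := by
  have : Nonempty S := by
    apply Fintype.card_pos_iff.1
    omega
  set N := Fintype.card S with hNdef
  set k := N / 4 with hkdef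
  have hk : 16 ≤ k := by omega
  have hkN : 4 * k ≤ N := by omega
  have hNk : N ≤ 8 * k := by omega
  have hRs : ∑ x : Ev S, ∑ y : Ev S, Rw (x, y) = 1 := by
    rw [← Fintype.sum_prod_type]
    exact sum_Rw hN
  have hTT : TT S = (2 : ℝ) ^ N := rfl
  have hTpos : 0 < TT S := TT_pos
  have hrho0 : 0 ≤ 2 / Real.sqrt (TT S) + 2 / TT S := by positivity
  have hL : (6 : ℝ) ≤ (2 : ℝ) ^ k := by
    calc (6 : ℝ) ≤ (2 : ℝ) ^ 16 := by norm_num
      _ ≤ (2 : ℝ) ^ k := pow_le_pow_right₀ (by norm_num) hk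
  have main := lemma_BL (fun x y : Ev S => Rw (x, y)) Q nuw q1 nuw q2 (2 + 8 / TT S)
    (2 / Real.sqrt (TT S) + 2 / TT S) ((2 : ℝ) ^ k)
    (fun x y => Rw_nonneg (x, y)) hQ0 hac (fun x => (sum_Rw_right x).symm)
    (fun y => (sum_Rw_left y).symm) hq1 hq2 hRs hQs
    (fun x y => by
      have := Rw_le x y
      linarith [this, mul_assoc (2 + 8 / TT S) (nuw x) (nuw y)])
    (by positivity) hrho0
    (fun a b ha hb => by
      have h := Rw_corr hN a b ha hb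
      have hp : 0 ≤ ∑ x, nuw x * a x ^ 2 :=
        Finset.sum_nonneg (fun x _ => mul_nonneg (nuw_pos x).le (sq_nonneg _))
      have hq : 0 ≤ ∑ y, nuw y * b y ^ 2 :=
        Finset.sum_nonneg (fun y _ => mul_nonneg (nuw_pos y).le (sq_nonneg _))
      have h1 : Real.sqrt (∑ x, nuw x * a x ^ 2) * Real.sqrt (∑ y, nuw y * b y ^ 2) ≤
          (∑ x, nuw x * a x ^ 2 + ∑ y, nuw y * b y ^ 2) / 2 := by
        have s1 := Real.sq_sqrt hp
        have s2 := Real.sq_sqrt hq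
        nlinarith [sq_nonneg (Real.sqrt (∑ x, nuw x * a x ^ 2) - Real.sqrt (∑ y, nuw y * b y ^ 2))]
      have h2 : ∑ x : Ev S, ∑ y : Ev S, Rw (x, y) * (a x * b y) =
          ∑ x : Ev S, ∑ y : Ev S, Rw (x, y) * a x * b y := by
        apply Finset.sum_congr rfl
        intro x _
        apply Finset.sum_congr rfl
        intro y _
        ring
      rw [h2]
      calc ∑ x : Ev S, ∑ y : Ev S, Rw (x, y) * a x * b y
          ≤ (2 / Real.sqrt (TT S) + 2 / TT S) * Real.sqrt (∑ x, nuw x * a x ^ 2) *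
            Real.sqrt (∑ y, nuw y * b y ^ 2) := h
        _ = (2 / Real.sqrt (TT S) + 2 / TT S) * (Real.sqrt (∑ x, nuw x * a x ^ 2) *
            Real.sqrt (∑ y, nuw y * b y ^ 2)) := by ring
        _ ≤ (2 / Real.sqrt (TT S) + 2 / TT S) *
            ((∑ x, nuw x * a x ^ 2 + ∑ y, nuw y * b y ^ 2) / 2) :=
          mul_le_mul_of_nonneg_left h1 hrho0
        _ = (2 / Real.sqrt (TT S) + 2 / TT S) / 2 *
            (∑ x, nuw x * a x ^ 2 + ∑ y, nuw y * b y ^ 2) := by ring)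
    hL
  have heps := eps_pair_le N k hk hkN (TT S) hTT
  have hkpos : (0 : ℝ) < (k : ℝ) := by
    have : (16 : ℝ) ≤ (k : ℝ) := by exact_mod_cast hk
    linarith
  have hNpos : (0 : ℝ) < (N : ℝ) := by
    have : (64 : ℝ) ≤ (N : ℝ) := by exact_mod_cast h64
    linarith
  have h4k : 4 / (k : ℝ) ≤ 32 / (N : ℝ) := by
    rw [div_le_div_iff₀ hkpos hNpos]
    have : (N : ℝ) ≤ 8 * (k : ℝ) := by exact_mod_cast hNk
    linarith
  have hq1s : ∑ x, q1 x = 1 := by simp only [hq1]; exact hQs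
  have hq2s : ∑ y, q2 y = 1 := by simp only [hq2]; rw [Finset.sum_comm]; exact hQs
  have hD1 : 0 ≤ kl q1 nuw := kl_nonneg q1 nuw
    (fun x => by rw [hq1 x]; exact Finset.sum_nonneg (fun y _ => hQ0 x y))
    (fun x => (nuw_pos x).le) (fun x h => absurd h (nuw_pos x).ne')
    (by rw [hq1s, sum_nuw hN])
  have hD2 : 0 ≤ kl q2 nuw := kl_nonneg q2 nuw
    (fun y => by rw [hq2 y]; exact Finset.sum_nonneg (fun x _ => hQ0 x y))
    (fun x => (nuw_pos x).le) (fun x h => absurd h (nuw_pos x).ne')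
    (by rw [hq2s, sum_nuw hN])
  refine le_trans ?_ main
  apply mul_le_mul_of_nonneg_right _ (add_nonneg hD1 hD2)
  linarith

end Vale.Agent.P162.KL
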