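import Mathlib

/-!
# P162 : finite Kullback-Leibler calculus

Weight functions on finite types, push-forward masses of random variables on one finite sample
space, divergence of a random variable, log-sum inequality, data processing, chain rule.
-/

namespace Vale.Agent.P162.KL

open Finset Real

/-- KL divergence of two weight functions on a finite type. -/
noncomputable def kl {A : Type*} [Fintype A] (p q : A → ℝ) : ℝ :=
  ∑ a, p a * Real.log (p a / q a)

/-- Push-forward mass: the `P`-mass of the event `X = a`. -/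
noncomputable def pm {Om A : Type*} [Fintype Om] [DecidableEq A] (P : Om → ℝ) (X : Om → A)
    (a : A) : ℝ :=
  ∑ w ∈ Finset.univ.filter (fun w => X w = a), P w

/-- Divergence of the random variable `X` under the law `P` with respect to the reference `U`. -/
noncomputable def Dv {Om A : Type*} [Fintype Om] [Fintype A] [DecidableEq A] (P U : Om → ℝ)
    (X : Om → A) : ℝ :=
  kl (pm P X) (pm U X)

/-- A law `P` and a reference law `U` on a finite sample space, `P` absolutely continuous. -/
structure Pair {Om : Type*} [Fintype Om] (P U : Om → ℝ) : Prop where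
  nnP : ∀ w, 0 ≤ P w
  nnU : ∀ w, 0 ≤ U w
  ac : ∀ w, U w = 0 → P w = 0
  sumP : ∑ w, P w = 1
  sumU : ∑ w, U w = 1

/-- one term of the log-sum inequality -/
theorem log_sum_term (a b S T : ℝ) (ha : 0 ≤ a) (hb : 0 ≤ b) (hab : b = 0 → a = 0)
    (hS : 0 < S) (hT : 0 < T) :
    a * Real.log (S / T) + a - b * (S / T) ≤ a * Real.log (a / b) := by
  rcases ha.eq_or_lt with h0 | hpos
  · subst h0
    have : 0 ≤ b * (S / T) := mul_nonneg hb (div_pos hS hT).le
    simp only [zero_mul, zero_add]
    linarith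
  · have hb' : 0 < b := by
      rcases hb.eq_or_lt with h | h
      · exact absurd (hab h.symm) hpos.ne'
      · exact h
    have hx : 0 < a * T / (b * S) := by positivity
    have h1 := Real.one_sub_inv_le_log_of_pos hx
    have h2 : Real.log (a * T / (b * S)) = Real.log (a / b) - Real.log (S / T) := by
      rw [← Real.log_div (by positivity) (by positivity)]
      congr 1
      field_simp
    have h3 : (a * T / (b * S))⁻¹ = b * S / (a * T) := by
      rw [inv_div]
    rw [h2, h3] at h1
    have h4 : a * (1 - b * S / (a * T)) = a - b * (S / T) := by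
      field_simp
    have h5 := mul_le_mul_of_nonneg_left h1 hpos.le
    rw [h4] at h5
    linarith

/-- The log-sum inequality. -/
theorem log_sum {ι : Type*} (s : Finset ι) (a b : ι → ℝ) (ha : ∀ i ∈ s, 0 ≤ a i)
    (hb : ∀ i ∈ s, 0 ≤ b i) (hab : ∀ i ∈ s, b i = 0 → a i = 0) :
    (∑ i ∈ s, a i) * Real.log ((∑ i ∈ s, a i) / (∑ i ∈ s, b i)) ≤
      ∑ i ∈ s, a i * Real.log (a i / b i) := by
  have hS0 : 0 ≤ ∑ i ∈ s, a i := Finset.sum_nonneg ha
  rcases hS0.eq_or_lt with h0 | hS
  · rw [← h0, zero_mul]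
    have hz : ∀ i ∈ s, a i = 0 := (Finset.sum_eq_zero_iff_of_nonneg ha).1 h0.symm
    apply le_of_eq
    symm
    apply Finset.sum_eq_zero
    intro i hi
    rw [hz i hi, zero_mul]
  · have hT : 0 < ∑ i ∈ s, b i := by
      obtain ⟨i, hi, hpos⟩ : ∃ i ∈ s, 0 < a i := by
        by_contra hcon
        have : ∑ i ∈ s, a i ≤ 0 := Finset.sum_nonpos (fun i hi => by
          by_contra h
          exact hcon ⟨i, hi, not_le.1 h⟩)
        linarith
      have hbi : 0 < b i := by
        rcases (hb i hi).eq_or_lt with h | h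
        · exact absurd (hab i hi h.symm) hpos.ne'
        · exact h
      exact Finset.sum_pos' hb ⟨i, hi, hbi⟩
    have hterm : ∀ i ∈ s, a i * Real.log ((∑ i ∈ s, a i) / (∑ i ∈ s, b i)) + a i
        - b i * ((∑ i ∈ s, a i) / (∑ i ∈ s, b i)) ≤ a i * Real.log (a i / b i) :=
      fun i hi => log_sum_term _ _ _ _ (ha i hi) (hb i hi) (hab i hi) hS hT
    have hsum := Finset.sum_le_sum hterm
    rw [Finset.sum_sub_distrib, Finset.sum_add_distrib, ← Finset.sum_mul, ← Finset.sum_mul] at hsum
    have h6 : (∑ i ∈ s, b i) * ((∑ i ∈ s, a i) / (∑ i ∈ s, b i)) = ∑ i ∈ s, a i := by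
      field_simp
    rw [h6] at hsum
    linarith

/-- Gibbs inequality. -/
theorem kl_nonneg {A : Type*} [Fintype A] (p q : A → ℝ) (hp : ∀ a, 0 ≤ p a) (hq : ∀ a, 0 ≤ q a)
    (hac : ∀ a, q a = 0 → p a = 0) (hsum : ∑ a, p a = ∑ a, q a) : 0 ≤ kl p q := by
  have h := log_sum Finset.univ p q (fun i _ => hp i) (fun i _ => hq i) (fun i _ => hac i)
  rw [hsum] at h
  by_cases h0 : ∑ a, q a = 0
  · rw [h0] at h
    simpa [kl] using h
  · rw [div_self h0, Real.log_one, mul_zero] at h
    exact h

section pm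

variable {Om A B : Type*} [Fintype Om] [DecidableEq A] [DecidableEq B]

theorem pm_nonneg (P : Om → ℝ) (hP : ∀ w, 0 ≤ P w) (X : Om → A) (a : A) : 0 ≤ pm P X a :=
  Finset.sum_nonneg (fun w _ => hP w)

theorem pm_sum [Fintype A] (P : Om → ℝ) (X : Om → A) : ∑ a, pm P X a = ∑ w, P w := by
  unfold pm
  exact Finset.sum_fiberwise Finset.univ X P

theorem pm_ac (P U : Om → ℝ) (hP : ∀ w, 0 ≤ P w) (hU : ∀ w, 0 ≤ U w)
    (hac : ∀ w, U w = 0 → P w = 0) (X : Om → A) (a : A) (h : pm U X a = 0) : pm P X a = 0 := by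
  unfold pm at *
  have hz := (Finset.sum_eq_zero_iff_of_nonneg (fun w _ => hU w)).1 h
  exact Finset.sum_eq_zero (fun w hw => hac w (hz w hw))

/-- push-forward of a push-forward -/
theorem pm_comp [Fintype A] (P : Om → ℝ) (X : Om → A) (g : A → B) (b : B) :
    pm P (g ∘ X) b = ∑ a ∈ Finset.univ.filter (fun a => g a = b), pm P X a := by
  unfold pm
  rw [Finset.sum_sigma']
  refine Finset.sum_bij' (fun w _ => ⟨X w, w⟩) (fun x _ => x.2) ?_ ?_ ?_ ?_ ?_
  · intro w hw
    simp only [Finset.mem_filter, Finset.mem_univ, true_and, Function.comp] at hw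
    simp [hw]
  · intro x hx
    simp only [Finset.mem_sigma, Finset.mem_filter, Finset.mem_univ, true_and] at hx
    simp [Function.comp, hx.2, hx.1]
  · intro w _
    rfl
  · intro x hx
    simp only [Finset.mem_sigma, Finset.mem_filter, Finset.mem_univ, true_and] at hx
    obtain ⟨a, w⟩ := x
    simp only at hx
    simp [hx.2]
  · intro w _
    rfl

end pm

section Dv

variable {Om A B : Type*} [Fintype Om] [Fintype A] [DecidableEq A] [Fintype B] [DecidableEq B]

theorem Dv_nonneg {P U : Om → ℝ} (h : Pair P U) (X : Om → A) : 0 ≤ Dv P U X := by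
  unfold Dv
  apply kl_nonneg
  · exact pm_nonneg P h.nnP X
  · exact pm_nonneg U h.nnU X
  · exact pm_ac P U h.nnP h.nnU h.ac X
  · rw [pm_sum, pm_sum, h.sumP, h.sumU]

/-- Data processing: a function of `X` has smaller divergence. -/
theorem Dv_comp_le {P U : Om → ℝ} (h : Pair P U) (X : Om → A) (g : A → B) :
    Dv P U (g ∘ X) ≤ Dv P U X := by
  unfold Dv kl
  have h1 : ∀ b : B, pm P (g ∘ X) b * Real.log (pm P (g ∘ X) b / pm U (g ∘ X) b) ≤
      ∑ a ∈ Finset.univ.filter (fun a => g a = b), pm P X a * Real.log (pm P X a / pm U X a) := by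
    intro b
    rw [pm_comp, pm_comp]
    exact log_sum _ _ _ (fun a _ => pm_nonneg P h.nnP X a) (fun a _ => pm_nonneg U h.nnU X a)
      (fun a _ => pm_ac P U h.nnP h.nnU h.ac X a)
  calc ∑ b, pm P (g ∘ X) b * Real.log (pm P (g ∘ X) b / pm U (g ∘ X) b)
      ≤ ∑ b, ∑ a ∈ Finset.univ.filter (fun a => g a = b),
          pm P X a * Real.log (pm P X a / pm U X a) := Finset.sum_le_sum (fun b _ => h1 b)
    _ = ∑ a, pm P X a * Real.log (pm P X a / pm U X a) :=
        Finset.sum_fiberwise Finset.univ g _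

/-- `D(X) ≤ D(X,Y)`. -/
theorem Dv_le_pair {P U : Om → ℝ} (h : Pair P U) (X : Om → A) (Y : Om → B) :
    Dv P U X ≤ Dv P U (fun w => (X w, Y w)) :=
  Dv_comp_le h (fun w => (X w, Y w)) Prod.fst

theorem Dv_le_pair' {P U : Om → ℝ} (h : Pair P U) (X : Om → A) (Y : Om → B) :
    Dv P U Y ≤ Dv P U (fun w => (X w, Y w)) :=
  Dv_comp_le h (fun w => (X w, Y w)) Prod.snd

end Dv

end Vale.Agent.P162.KL
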