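import Mathlib

/-!
# P162 : counting permutations that carry one colouring to another
-/

namespace Vale.Agent.P162.KL

open Finset Nat

variable {X C : Type*} [Fintype X] [DecidableEq X] [Fintype C] [DecidableEq C]

/-- a permutation carrying the colouring `f` to `g` exists as soon as the fibres have equal size -/
theorem exists_perm_colour (f g : X → C)
    (h : ∀ c, Fintype.card {x // f x = c} = Fintype.card {x // g x = c}) :
    ∃ h0 : Equiv.Perm X, g ∘ h0 = f := by
  let e : ∀ c, {x // f x = c} ≃ {x // g x = c} := fun c => Fintype.equivOfCardEq (h c)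
  refine ⟨(Equiv.sigmaFiberEquiv f).symm.trans
    ((Equiv.sigmaCongrRight e).trans (Equiv.sigmaFiberEquiv g)), ?_⟩
  funext x
  simp only [Function.comp, Equiv.trans_apply]
  exact (e (f x) ⟨x, rfl⟩).2

theorem card_fibre_eq_of_perm (f g : X → C) (h0 : Equiv.Perm X) (h : g ∘ h0 = f) (c : C) :
    Fintype.card {x // f x = c} = Fintype.card {x // g x = c} := by
  apply Fintype.card_congr
  refine h0.subtypeEquiv ?_
  intro x
  rw [← h]
  rfl

/-- **Counting lemma.** -/
theorem card_perm_colour (f g : X → C) :
    (Finset.univ.filter (fun h : Equiv.Perm X => g ∘ h = f)).card =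
      if ∀ c, Fintype.card {x // f x = c} = Fintype.card {x // g x = c}
      then ∏ c, (Fintype.card {x // f x = c})! else 0 := by
  split_ifs with hc
  · obtain ⟨h0, hh0⟩ := exists_perm_colour f g hc
    rw [← DomMulAct.stabilizer_card f, Fintype.card_subtype]
    symm
    apply Finset.card_bij (fun k _ => h0 * k)
    · intro k hk
      simp only [Finset.mem_filter, Finset.mem_univ, true_and] at hk ⊢
      rw [Equiv.Perm.coe_mul, ← Function.comp_assoc, hh0, hk]
    · intro k1 _ k2 _ h12
      exact mul_left_cancel h12
    · intro h hh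
      simp only [Finset.mem_filter, Finset.mem_univ, true_and] at hh
      refine ⟨h0⁻¹ * h, ?_, by simp⟩
      simp only [Finset.mem_filter, Finset.mem_univ, true_and]
      rw [← hh0, Equiv.Perm.coe_mul, Function.comp_assoc, ← Function.comp_assoc (⇑h0),
        ← Equiv.Perm.coe_mul, mul_inv_cancel, Equiv.Perm.coe_one, Function.id_comp, hh, hh0]
  · rw [Finset.card_eq_zero, Finset.filter_eq_empty_iff]
    intro h _ hh
    exact hc (card_fibre_eq_of_perm f g h hh)

end Vale.Agent.P162.KL
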