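import Vale.Agent.P162.KL.Chan

/-!
# P162 : conditional strong data processing

Chain rule along a map `f : Om → A` and a strong data processing inequality on every fibre of `f`.
-/

namespace Vale.Agent.P162.KL

open Finset Real

/-- scaling both arguments of a divergence sum -/
theorem sum_scale {X : Type*} [Fintype X] (p q : X → ℝ) (c d : ℝ) (hc : 0 < c) (hd : 0 < d)
    (hac : ∀ x, q x = 0 → p x = 0) :
    ∑ x, (c * p x) * Real.log ((c * p x) / (d * q x))
      = c * (∑ x, p x) * Real.log (c / d) + c * ∑ x, p x * Real.log (p x / q x) := by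
  simp only [Finset.mul_sum, Finset.sum_mul, ← Finset.sum_add_distrib]
  refine Finset.sum_congr rfl fun x _ => ?_
  by_cases hp : p x = 0
  · simp [hp]
  · have hq : q x ≠ 0 := fun h => hp (hac x h)
    have e : (c * p x) / (d * q x) = (c / d) * (p x / q x) := by field_simp
    rw [e, Real.log_mul (by positivity) (div_ne_zero hp hq)]
    ring

section

variable {Om A B : Type*} [Fintype Om] [Fintype A] [DecidableEq A] [Fintype B]

theorem sum_fibre (f : Om → A) (g : Om → ℝ) (a : A) :
    ∑ w : {w : Om // f w = a}, g w.1 = ∑ w ∈ Finset.univ.filter (fun w => f w = a), g w :=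
  (Finset.sum_subtype _ (by simp) g).symm

theorem joint_eq_sum_fibre (f : Om → A) (K : Om → B → ℝ) (μ : Om → ℝ) (a : A) (b : B) :
    joint f K μ (a, b) = ∑ w : {w : Om // f w = a}, μ w.1 * K w.1 b := by
  rw [sum_fibre f (fun w => μ w * K w b) a, Finset.sum_filter]
  rfl

theorem push_isLaw {X Y : Type*} [Fintype X] [Fintype Y] (K : X → Y → ℝ) (hK : IsChan K)
    (p : X → ℝ) (hp : IsLaw p) : IsLaw (push K p) := by
  refine ⟨fun b => Finset.sum_nonneg fun a _ => mul_nonneg (hp.1 a) ((hK a).1 b), ?_⟩
  unfold push
  rw [Finset.sum_comm]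
  have : ∀ a, ∑ b, p a * K a b = p a := fun a => by
    rw [← Finset.mul_sum, (hK a).2, mul_one]
  rw [Finset.sum_congr rfl fun a _ => this a]
  exact hp.2

/-- the contribution of one fibre -/
theorem cond_fibre (f : Om → A) (K : Om → B → ℝ) (hK : IsChan K) (η : ℝ) (a : A)
    (hfib : SDPI (fun (w : {w : Om // f w = a}) (b : B) => K w.1 b) η)
    (μ : Om → ℝ) (hμ : IsLaw μ) :
    ∑ b, joint f K μ (a, b) * Real.log (joint f K μ (a, b) / joint f K (unif Om) (a, b))
      ≤ (1 - η) * (pm μ f a * Real.log (pm μ f a / pm (unif Om) f a))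
        + η * ∑ w ∈ Finset.univ.filter (fun w => f w = a), μ w * Real.log (μ w / unif Om w) := by
  set m : ℝ := pm μ f a with hm
  have hm0 : 0 ≤ m := pm_nonneg μ hμ.1 f a
  have hmsum : ∑ w : {w : Om // f w = a}, μ w.1 = m := sum_fibre f μ a
  rcases hm0.eq_or_lt with h0 | hpos
  · -- the fibre carries no mass
    have hz : ∀ w : {w : Om // f w = a}, μ w.1 = 0 := by
      have := (Finset.sum_eq_zero_iff_of_nonneg
        (fun (w : {w : Om // f w = a}) _ => hμ.1 w.1)).1 (hmsum.trans h0.symm)
      exact fun w => this w (Finset.mem_univ _)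
    have hj : ∀ b, joint f K μ (a, b) = 0 := by
      intro b
      rw [joint_eq_sum_fibre]
      exact Finset.sum_eq_zero fun w _ => by rw [hz w, zero_mul]
    have h2 : ∑ w ∈ Finset.univ.filter (fun w => f w = a), μ w * Real.log (μ w / unif Om w)
        = 0 := by
      rw [← sum_fibre f (fun w => μ w * Real.log (μ w / unif Om w)) a]
      exact Finset.sum_eq_zero fun w _ => by rw [hz w, zero_mul]
    rw [h2, ← h0]
    simp [hj]
  · -- the fibre carries mass
    have hne : Nonempty {w : Om // f w = a} := by
      by_contra hcon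
      rw [not_nonempty_iff] at hcon
      rw [Finset.sum_of_isEmpty] at hmsum
      exact hpos.ne hmsum
    have hneO : Nonempty Om := ⟨(Classical.choice hne).1⟩
    set c : ℝ := (Fintype.card {w : Om // f w = a} : ℝ) with hc
    set N : ℝ := (Fintype.card Om : ℝ) with hN
    have hcpos : 0 < c := by
      rw [hc]; exact_mod_cast Fintype.card_pos
    have hNpos : 0 < N := by
      rw [hN]; exact_mod_cast Fintype.card_pos
    set n : ℝ := pm (unif Om) f a with hn
    have hnval : n = c / N := by
      rw [hn]
      unfold pm
      rw [← sum_fibre f (unif Om) a]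
      simp only [unif, Finset.sum_const, Finset.card_univ, nsmul_eq_mul]
      rw [← hc, ← hN]
      ring
    have hnpos : 0 < n := by rw [hnval]; positivity
    let Ka : {w : Om // f w = a} → B → ℝ := fun w b => K w.1 b
    have hKa : IsChan Ka := fun w => hK w.1
    let p : {w : Om // f w = a} → ℝ := fun w => μ w.1 / m
    have hp : IsLaw p := by
      refine ⟨fun w => div_nonneg (hμ.1 w.1) hm0, ?_⟩
      show ∑ w : {w : Om // f w = a}, μ w.1 / m = 1
      rw [← Finset.sum_div, hmsum, div_self hpos.ne']
    have hu : IsLaw (unif {w : Om // f w = a}) := by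
      refine ⟨fun _ => by unfold unif; positivity, ?_⟩
      simp only [unif, Finset.sum_const, Finset.card_univ, nsmul_eq_mul]
      rw [← hc]
      field_simp
    have hS := hfib p hp
    have hP : IsLaw (push Ka p) := push_isLaw Ka hKa p hp
    have e1 : ∀ b, joint f K μ (a, b) = m * push Ka p b := by
      intro b
      rw [joint_eq_sum_fibre]
      unfold push
      rw [Finset.mul_sum]
      refine Finset.sum_congr rfl fun w _ => ?_
      show μ w.1 * K w.1 b = m * (μ w.1 / m * K w.1 b)
      field_simp
    have e2 : ∀ b, joint f K (unif Om) (a, b) = n * push Ka (unif {w : Om // f w = a}) b := by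
      intro b
      rw [joint_eq_sum_fibre]
      unfold push
      rw [Finset.mul_sum]
      refine Finset.sum_congr rfl fun w _ => ?_
      show unif Om w.1 * K w.1 b = n * (unif {w : Om // f w = a} w * K w.1 b)
      simp only [unif]
      rw [hnval, ← hc, ← hN]
      field_simp
    have hac1 : ∀ b, push Ka (unif {w : Om // f w = a}) b = 0 → push Ka p b = 0 := by
      intro b hb
      unfold push at hb ⊢
      have hz := (Finset.sum_eq_zero_iff_of_nonneg
        (fun (w : {w : Om // f w = a}) _ => mul_nonneg (hu.1 w) ((hKa w).1 b))).1 hb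
      refine Finset.sum_eq_zero fun w hw => ?_
      have h1 := hz w hw
      have h2 : unif {w : Om // f w = a} w ≠ 0 := by
        simp only [unif]
        rw [← hc]
        positivity
      rw [(mul_eq_zero.1 h1).resolve_left h2, mul_zero]
    have L1 : ∑ b, joint f K μ (a, b)
          * Real.log (joint f K μ (a, b) / joint f K (unif Om) (a, b))
        = m * Real.log (m / n) + m * kl (push Ka p) (push Ka (unif {w : Om // f w = a})) := by
      have := sum_scale (push Ka p) (push Ka (unif {w : Om // f w = a})) m n hpos hnpos hac1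
      rw [hP.2, mul_one] at this
      rw [← kl.eq_1 (push Ka p)] at this
      rw [← this]
      refine Finset.sum_congr rfl fun b _ => ?_
      rw [e1 b, e2 b]
    have hac2 : ∀ w, unif {w : Om // f w = a} w = 0 → p w = 0 := by
      intro w hw
      exfalso
      simp only [unif] at hw
      rw [← hc] at hw
      have : (1 : ℝ) / c ≠ 0 := by positivity
      exact this hw
    have L2 : ∑ w ∈ Finset.univ.filter (fun w => f w = a), μ w * Real.log (μ w / unif Om w)
        = m * Real.log (m / n) + m * kl p (unif {w : Om // f w = a}) := by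
      have := sum_scale p (unif {w : Om // f w = a}) m n hpos hnpos hac2
      rw [hp.2, mul_one] at this
      rw [← kl.eq_1 p] at this
      rw [← this, ← sum_fibre f (fun w => μ w * Real.log (μ w / unif Om w)) a]
      refine Finset.sum_congr rfl fun w _ => ?_
      have h1 : m * p w = μ w.1 := by
        show m * (μ w.1 / m) = μ w.1
        field_simp
      have h2 : n * unif {w : Om // f w = a} w = unif Om w.1 := by
        simp only [unif]
        rw [hnval, ← hc, ← hN]
        field_simp
      rw [h1, h2]
    rw [L1, L2]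
    have h3 : m * kl (push Ka p) (push Ka (unif {w : Om // f w = a}))
        ≤ m * (η * kl p (unif {w : Om // f w = a})) := mul_le_mul_of_nonneg_left hS hm0
    nlinarith [h3]

/-- Chain rule and strong data processing on every fibre of `f`. -/
theorem cond_sdpi (f : Om → A) (K : Om → B → ℝ) (hK : IsChan K) (η : ℝ)
    (hfib : ∀ a : A, SDPI (fun (w : {w : Om // f w = a}) (b : B) => K w.1 b) η)
    (μ : Om → ℝ) (hμ : IsLaw μ) :
    kl (joint f K μ) (joint f K (unif Om))
      ≤ (1 - η) * Dv μ (unif Om) f + η * kl μ (unif Om) := by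
  have h1 : kl (joint f K μ) (joint f K (unif Om))
      = ∑ a, ∑ b, joint f K μ (a, b)
          * Real.log (joint f K μ (a, b) / joint f K (unif Om) (a, b)) := by
    unfold kl
    rw [Fintype.sum_prod_type]
  have h2 : kl μ (unif Om)
      = ∑ a, ∑ w ∈ Finset.univ.filter (fun w => f w = a), μ w * Real.log (μ w / unif Om w) := by
    unfold kl
    exact (Finset.sum_fiberwise Finset.univ f _).symm
  rw [h1, h2]
  unfold Dv kl
  rw [Finset.mul_sum, Finset.mul_sum, ← Finset.sum_add_distrib]
  exact Finset.sum_le_sum fun a _ => cond_fibre f K hK η a (hfib a) μ hμ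

end

end Vale.Agent.P162.KL
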