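import Vale.Agent.P162.KL.Tensor

namespace Vale.Agent.P162.KL

open Finset Real

/-- SDPI is invariant under renaming of inputs and outputs -/
theorem SDPI_equiv {A A' B B' : Type*} [Fintype A] [Fintype A'] [Fintype B] [Fintype B']
    (e : A ≃ A') (f : B ≃ B') (K : A → B → ℝ) (K' : A' → B' → ℝ)
    (hKK : ∀ a b, K' (e a) (f b) = K a b) (η : ℝ) (h : SDPI K η) : SDPI K' η := by
  have h1 := Tz.SDPI_equiv e f h
  have e2 : (fun (a : A') (b : B') => K (e.symm a) (f.symm b)) = K' := by
    funext a b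
    rw [← hKK]
    simp
  rwa [e2] at h1

end Vale.Agent.P162.KL
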