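import Vale.Agent.P162.KL.Tensor

/-!
# P162 : from a strong data processing inequality on a fibre to the conditional inequality
`hcond` used by the abstract STEP Z / STEP T.
-/

namespace Vale.Agent.P162.KL

open Finset Real Tz

/-- a sum of a function vanishing off the range of an injection -/
theorem sum_eq_sum_inj {X A1 : Type*} [Fintype X] [Fintype A1] (i : A1 → X)
    (hi : Function.Injective i) (F : X → ℝ) (h0 : ∀ m, m ∉ Set.range i → F m = 0) :
    ∑ m, F m = ∑ a, F (i a) := by
  classical
  rw [← Finset.sum_image (s := Finset.univ) (g := i) (f := F) (fun a _ b _ h => hi h)]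
  symm
  apply Finset.sum_subset (Finset.subset_univ _)
  intro m _ hm
  apply h0
  simpa using hm

variable {X Z A1 B1 : Type*} [Fintype X] [Fintype Z] [Fintype A1] [Fintype B1]

/-- the scalar core: homogeneous SDPI rewritten with the reference mass `n = card A1` -/
theorem sdpi_core (K1 : A1 → B1 → ℝ) (hK : IsChan K1) (η : ℝ) (hS : SDPI K1 η)
    (f : A1 → ℝ) (hf : ∀ a, 0 ≤ f a) :
    ∑ b, push K1 f b * Real.log (push K1 f b / (∑ a, K1 a b))
        - (∑ a, f a) * Real.log ((∑ a, f a) / (Fintype.card A1 : ℝ))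
      ≤ η * (∑ a, f a * Real.log (f a)
        - (∑ a, f a) * Real.log ((∑ a, f a) / (Fintype.card A1 : ℝ))) := by
  set mf := ∑ a, f a with hmf
  have hm0 : 0 ≤ mf := Finset.sum_nonneg (fun a _ => hf a)
  rcases hm0.eq_or_lt with h0 | hpos
  · have hz : ∀ a, f a = 0 := fun a =>
      (Finset.sum_eq_zero_iff_of_nonneg (fun a _ => hf a)).1 h0.symm a (Finset.mem_univ a)
    have hpz : ∀ b, push K1 f b = 0 := fun b => by
      unfold push
      apply Finset.sum_eq_zero
      intro a _
      rw [hz a, zero_mul]
    simp [hz, hpz, ← h0]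
  · have hne : Nonempty A1 := by
      by_contra h
      rw [not_nonempty_iff] at h
      simp [hmf] at hpos
    set n : ℝ := (Fintype.card A1 : ℝ) with hn
    have hnpos : 0 < n := by
      rw [hn]; exact_mod_cast Fintype.card_pos
    have hk : ∀ a b, 0 ≤ K1 a b := fun a b => (hK a).1 b
    have hU : ∀ b, ∑ a, K1 a b = n * push K1 (unif A1) b := by
      intro b
      unfold push unif
      rw [Finset.mul_sum]
      apply Finset.sum_congr rfl
      intro a _
      rw [← hn]
      field_simp
    have hsc := SDPI_scaled hS f hf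
    rw [← hmf] at hsc
    have e1 : ∑ b, push K1 f b * Real.log (push K1 f b / (∑ a, K1 a b)) =
        ∑ b, push K1 f b * Real.log (push K1 f b / (mf * push K1 (unif A1) b))
          + mf * Real.log (mf / n) := by
      have hs : ∑ b, push K1 f b = mf := push_sum hK f
      rw [← hs, Finset.sum_mul, ← Finset.sum_add_distrib]
      apply Finset.sum_congr rfl
      intro b _
      rw [hs, hU b]
      by_cases hP : push K1 f b = 0
      · simp [hP]
      · have hUb : push K1 (unif A1) b ≠ 0 := by
          intro h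
          apply hP
          unfold push
          apply Finset.sum_eq_zero
          intro a _
          rw [col_zero_of_push_unif hk h a, mul_zero]
        rw [← mul_add, ← Real.log_mul (by
          exact div_ne_zero hP (mul_ne_zero hpos.ne' hUb)) (div_ne_zero hpos.ne' hnpos.ne')]
        congr 2
        field_simp
    have e2 : ∑ a, f a * Real.log (f a) =
        ∑ a, f a * Real.log (f a / (mf * unif A1 a)) + mf * Real.log (mf / n) := by
      rw [hmf, Finset.sum_mul, ← Finset.sum_add_distrib, ← hmf]
      apply Finset.sum_congr rfl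
      intro a _
      by_cases hP : f a = 0
      · simp [hP]
      · have hu : unif A1 a = 1 / n := rfl
        rw [← mul_add, hu, ← Real.log_mul (by
          exact div_ne_zero hP (mul_ne_zero hpos.ne' (by positivity)))
          (div_ne_zero hpos.ne' hnpos.ne')]
        congr 2
        field_simp
    rw [e1, e2]
    linarith

/-- **Fibre lemma.** `V m z` = joint weight of (input `m`, second output `z`) for a fixed first
output. If, along injections `iA`, `iB`, it is a constant multiple of a channel `K1` satisfying a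
strong data processing inequality with constant `η` (uniform reference), and vanishes elsewhere,
then the conditional inequality holds for every density `φ ≥ 0`. -/
theorem hcond_of_sdpi (V : X → Z → ℝ) (φ : X → ℝ) (hφ : ∀ m, 0 ≤ φ m)
    (K1 : A1 → B1 → ℝ) (hK : IsChan K1) (η : ℝ) (hS : SDPI K1 η)
    (iA : A1 → X) (hiA : Function.Injective iA) (iB : B1 → Z) (hiB : Function.Injective iB)
    (c : ℝ) (hc : 0 ≤ c)
    (hV : ∀ a b, V (iA a) (iB b) = c * K1 a b)
    (hVA : ∀ m z, m ∉ Set.range iA → V m z = 0)
    (hVB : ∀ m z, z ∉ Set.range iB → V m z = 0) :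
    ∑ z, (∑ m, φ m * V m z) * Real.log ((∑ m, φ m * V m z) / (∑ m, V m z))
        - (∑ z, ∑ m, φ m * V m z) * Real.log ((∑ z, ∑ m, φ m * V m z) / (∑ z, ∑ m, V m z))
      ≤ η * (∑ m, φ m * (∑ z, V m z) * Real.log (φ m)
        - (∑ z, ∑ m, φ m * V m z) *
            Real.log ((∑ z, ∑ m, φ m * V m z) / (∑ z, ∑ m, V m z))) := by
  set f : A1 → ℝ := fun a => φ (iA a) with hf
  have hf0 : ∀ a, 0 ≤ f a := fun a => hφ _
  have hQ : ∀ b, ∑ m, φ m * V m (iB b) = c * push K1 f b := by
    intro b
    rw [sum_eq_sum_inj iA hiA (fun m => φ m * V m (iB b))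
      (fun m hm => by rw [hVA m _ hm, mul_zero])]
    unfold push
    rw [Finset.mul_sum]
    apply Finset.sum_congr rfl
    intro a _
    rw [hV]; ring
  have hR : ∀ b, ∑ m, V m (iB b) = c * ∑ a, K1 a b := by
    intro b
    rw [sum_eq_sum_inj iA hiA (fun m => V m (iB b)) (fun m hm => hVA m _ hm), Finset.mul_sum]
    exact Finset.sum_congr rfl (fun a _ => hV a b)
  have hQ0 : ∀ z, z ∉ Set.range iB → ∑ m, φ m * V m z = 0 := by
    intro z hz
    apply Finset.sum_eq_zero
    intro m _
    rw [hVB m z hz, mul_zero]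
  have hR0 : ∀ z, z ∉ Set.range iB → ∑ m, V m z = 0 := by
    intro z hz
    exact Finset.sum_eq_zero (fun m _ => hVB m z hz)
  have hq : ∑ z, ∑ m, φ m * V m z = c * ∑ a, f a := by
    rw [sum_eq_sum_inj iB hiB _ hQ0]
    simp only [hQ]
    rw [← Finset.mul_sum, push_sum hK]
  have hν : ∑ z, ∑ m, V m z = c * (Fintype.card A1 : ℝ) := by
    rw [sum_eq_sum_inj iB hiB _ hR0]
    simp only [hR]
    rw [← Finset.mul_sum, Finset.sum_comm]
    congr 1
    rw [Finset.sum_congr rfl (fun a _ => (hK a).2)]
    simp
  have hV1 : ∀ a, ∑ z, V (iA a) z = c := by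
    intro a
    rw [sum_eq_sum_inj iB hiB _ (fun z hz => hVB _ z hz)]
    simp only [hV]
    rw [← Finset.mul_sum, (hK a).2, mul_one]
  have hE : ∑ m, φ m * (∑ z, V m z) * Real.log (φ m) = c * ∑ a, f a * Real.log (f a) := by
    rw [sum_eq_sum_inj iA hiA (fun m => φ m * (∑ z, V m z) * Real.log (φ m)) (fun m hm => by
      rw [Finset.sum_eq_zero (fun z _ => hVA m z hm)]; simp), Finset.mul_sum]
    apply Finset.sum_congr rfl
    intro a _
    rw [hV1]; simp only [hf]; ring
  have hL : ∑ z, (∑ m, φ m * V m z) * Real.log ((∑ m, φ m * V m z) / (∑ m, V m z)) =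
      ∑ b, (c * push K1 f b) * Real.log ((c * push K1 f b) / (c * ∑ a, K1 a b)) := by
    rw [sum_eq_sum_inj iB hiB _ (fun z hz => by rw [hQ0 z hz, zero_mul])]
    apply Finset.sum_congr rfl
    intro b _
    rw [hQ, hR]
  rw [hL, hq, hν, hE]
  rcases hc.eq_or_lt with h0 | hcpos
  · simp [← h0]
  · have hcore := sdpi_core K1 hK η hS f hf0
    have e1 : ∑ b, (c * push K1 f b) * Real.log ((c * push K1 f b) / (c * ∑ a, K1 a b)) =
        c * ∑ b, push K1 f b * Real.log (push K1 f b / (∑ a, K1 a b)) := by
      rw [Finset.mul_sum]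
      apply Finset.sum_congr rfl
      intro b _
      rw [mul_div_mul_left _ _ hcpos.ne']; ring
    rw [e1, mul_div_mul_left _ _ hcpos.ne']
    have := mul_le_mul_of_nonneg_left hcore hc
    nlinarith [this]

end Vale.Agent.P162.KL
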