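import Vale.Agent.P162.KL.HalfA2

/-!
# P162 : exact independence of the two transversals, and `SDPI (bitChan M) (1/2)`
-/

namespace Vale.Agent.P162.KL

open Finset Nat

section counts

variable {X : Type*} [Fintype X] [DecidableEq X]

theorem cnt_first (τ1 τ2 : X → Bool) :
    Fintype.card {x // τ1 x = true} =
      Fintype.card {x // (τ1 x, τ2 x) = (true, true)} +
        Fintype.card {x // (τ1 x, τ2 x) = (true, false)} := by
  simp only [Fintype.card_subtype, Finset.card_filter]
  rw [← Finset.sum_add_distrib]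
  apply Finset.sum_congr rfl
  intro x _
  cases τ1 x <;> cases τ2 x <;> simp

theorem cnt_second (τ1 τ2 : X → Bool) :
    Fintype.card {x // τ2 x = true} =
      Fintype.card {x // (τ1 x, τ2 x) = (true, true)} +
        Fintype.card {x // (τ1 x, τ2 x) = (false, true)} := by
  simp only [Fintype.card_subtype, Finset.card_filter]
  rw [← Finset.sum_add_distrib]
  apply Finset.sum_congr rfl
  intro x _
  cases τ1 x <;> cases τ2 x <;> simp

theorem cnt_total (τ1 τ2 : X → Bool) :
    Fintype.card X =
      Fintype.card {x // (τ1 x, τ2 x) = (true, true)} +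
        Fintype.card {x // (τ1 x, τ2 x) = (true, false)} +
        Fintype.card {x // (τ1 x, τ2 x) = (false, true)} +
        Fintype.card {x // (τ1 x, τ2 x) = (false, false)} := by
  simp only [Fintype.card_subtype, Finset.card_filter]
  rw [← Finset.sum_add_distrib, ← Finset.sum_add_distrib, ← Finset.sum_add_distrib,
    ← Finset.card_univ, Finset.card_eq_sum_ones]
  apply Finset.sum_congr rfl
  intro x _
  cases τ1 x <;> cases τ2 x <;> simp

end counts

/-- `τ` is balanced -/
def Bal (M : ℕ) (τ : Fin (2 * M) → Bool) : Prop := Fintype.card {x // τ x = true} = M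

instance (M : ℕ) (τ : Fin (2 * M) → Bool) : Decidable (Bal M τ) := by
  unfold Bal; infer_instance

/-- the colour classes of the cards match those of the positions iff both columns are balanced and
`A` has the right size -/
theorem match_iff (M : ℕ) (b : Fin M → Bool) (A : Finset (Fin M)) (τ1 τ2 : Fin (2 * M) → Bool) :
    (∀ c, Fintype.card {x // (fun x => (τ1 x, τ2 x)) x = c} =
        Fintype.card {y // col M b A y = c}) ↔
      (Bal M τ1 ∧ Bal M τ2 ∧ A.card = Fintype.card {x // (τ1 x, τ2 x) = (true, true)}) := by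
  have hA : A.card ≤ M := by
    have := Finset.card_le_univ A
    simpa using this
  have e1 := cnt_first τ1 τ2
  have e2 := cnt_second τ1 τ2
  have e3 := cnt_total τ1 τ2
  rw [Fintype.card_fin] at e3
  unfold Bal
  constructor
  · intro h
    have h1 := h (true, true)
    have h2 := h (true, false)
    have h3 := h (false, true)
    rw [card_col] at h1 h2 h3
    simp only [if_true, Bool.true_eq_false, Bool.false_eq_true, if_false] at h1 h2 h3
    omega
  · rintro ⟨h1, h2, h3⟩ c
    rw [card_col]
    obtain ⟨u, v⟩ := c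
    cases u <;> cases v <;>
      simp only [if_true, Bool.true_eq_false, Bool.false_eq_true, if_false] <;> omega

theorem cond_iff (M : ℕ) (h : Equiv.Perm (Fin (2 * M))) (b : Fin M → Bool) (A : Finset (Fin M))
    (τ1 τ2 : Fin (2 * M) → Bool) :
    (newBit M h b = τ1 ∧ newBit M h (flp A b) = τ2) ↔
      col M b A ∘ h = fun x => (τ1 x, τ2 x) := by
  constructor
  · rintro ⟨h1, h2⟩
    funext x
    rw [← h1, ← h2]
    rfl
  · intro hh
    constructor
    · funext x
      exact (Prod.mk.inj (congrFun hh x)).1
    · funext x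
      exact (Prod.mk.inj (congrFun hh x)).2

/-- number of permutations producing the two columns `τ1`, `τ2` from the coins `b`, `flp A b` -/
theorem card_cond (M : ℕ) (b : Fin M → Bool) (A : Finset (Fin M)) (τ1 τ2 : Fin (2 * M) → Bool) :
    (Finset.univ.filter (fun h : Equiv.Perm (Fin (2 * M)) =>
        newBit M h b = τ1 ∧ newBit M h (flp A b) = τ2)).card =
      if (Bal M τ1 ∧ Bal M τ2 ∧ A.card = Fintype.card {x // (τ1 x, τ2 x) = (true, true)})
      then (A.card)! ^ 2 * ((M - A.card)!) ^ 2 else 0 := by
  have e : (Finset.univ.filter (fun h : Equiv.Perm (Fin (2 * M)) =>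
        newBit M h b = τ1 ∧ newBit M h (flp A b) = τ2)) =
      Finset.univ.filter (fun h : Equiv.Perm (Fin (2 * M)) =>
        col M b A ∘ h = fun x => (τ1 x, τ2 x)) := by
    apply Finset.filter_congr
    intro h _
    exact cond_iff M h b A τ1 τ2
  rw [e, card_perm_colour]
  by_cases hm : (Bal M τ1 ∧ Bal M τ2 ∧
      A.card = Fintype.card {x // (τ1 x, τ2 x) = (true, true)})
  · have hm' := (match_iff M b A τ1 τ2).2 hm
    rw [if_pos hm', if_pos hm]
    have : ∀ c, (Fintype.card {x // (fun x => (τ1 x, τ2 x)) x = c})! =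
        (if c.1 = c.2 then A.card else M - A.card)! := by
      intro c
      rw [hm' c, card_col]
    rw [Finset.prod_congr rfl (fun c _ => this c), Fintype.prod_prod_type]
    simp only [Fintype.prod_bool, if_true, Bool.true_eq_false, Bool.false_eq_true, if_false]
    ring
  · have hm' := fun h => hm ((match_iff M b A τ1 τ2).1 h)
    rw [if_neg hm', if_neg hm]

/-- the constant `(M!)^2 / (C(2M,M) (2M)!)` -/
noncomputable def kap (M : ℕ) : ℝ := ((M ! : ℝ)) ^ 2 / (((2 * M).choose M : ℝ) * ((2 * M)! : ℝ))

theorem wt_mul (M : ℕ) (A : Finset (Fin M)) :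
    wtA M A * (1 / ((2 * M)! : ℝ)) * (((A.card)! ^ 2 * ((M - A.card)!) ^ 2 : ℕ) : ℝ) =
      (1 / 2 ^ M) * (kap M / (M.choose A.card : ℝ)) := by
  have hA : A.card ≤ M := by
    have := Finset.card_le_univ A
    simpa using this
  have hf := Nat.choose_mul_factorial_mul_factorial hA
  have hf' : ((M.choose A.card : ℝ)) * ((A.card)! : ℝ) * ((M - A.card)! : ℝ) = (M ! : ℝ) := by
    exact_mod_cast hf
  have hc : (M.choose A.card : ℝ) ≠ 0 := by exact_mod_cast (Nat.choose_pos hA).ne'
  have hD : ((2 * M).choose M : ℝ) ≠ 0 := by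
    exact_mod_cast (Nat.choose_pos (by omega : M ≤ 2 * M)).ne'
  have hF : ((2 * M)! : ℝ) ≠ 0 := by exact_mod_cast (Nat.factorial_pos _).ne'
  unfold wtA kap Vale.Agent.P162.pH
  rw [← hf']
  push_cast
  field_simp

theorem sum_size (M a0 : ℕ) (h0 : a0 ≤ M) :
    ∑ A : Finset (Fin M), (if A.card = a0 then (1 : ℝ) / (M.choose A.card : ℝ) else 0) = 1 := by
  have hc : (M.choose a0 : ℝ) ≠ 0 := by exact_mod_cast (Nat.choose_pos h0).ne'
  have h1 : ∀ A : Finset (Fin M), (if A.card = a0 then (1 : ℝ) / (M.choose A.card : ℝ) else 0) =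
      (1 / (M.choose a0 : ℝ)) * (if A.card = a0 then (1 : ℝ) else 0) := by
    intro A
    split_ifs with h
    · rw [h, mul_one]
    · rw [mul_zero]
  simp only [h1]
  rw [← Finset.mul_sum, Finset.sum_boole]
  have h2 : (Finset.univ.filter (fun A : Finset (Fin M) => A.card = a0)).card = M.choose a0 := by
    rw [← Fintype.card_subtype, Fintype.card_finset_len, Fintype.card_fin]
  rw [h2]
  field_simp

/-- **Exact independence** of the two columns under the uniform input. -/
theorem push_twoChan_unif (M : ℕ) (z : (Fin (2 * M) → Bool) × (Fin (2 * M) → Bool)) :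
    push (twoChan M) (unif (Equiv.Perm (Fin (2 * M)))) z =
      kap M * (if Bal M z.1 then 1 else 0) * (if Bal M z.2 then 1 else 0) := by
  obtain ⟨τ1, τ2⟩ := z
  simp only []
  unfold push twoChan unif
  simp only [Finset.mul_sum]
  rw [Finset.sum_comm]
  have hcard : (Fintype.card (Equiv.Perm (Fin (2 * M))) : ℝ) = ((2 * M)! : ℝ) := by
    rw [Fintype.card_perm, Fintype.card_fin]
  have hb : ∀ b : Fin M → Bool, ∑ h : Equiv.Perm (Fin (2 * M)), ∑ A : Finset (Fin M),
      1 / (Fintype.card (Equiv.Perm (Fin (2 * M))) : ℝ) * (wtA M A *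
        (if newBit M h b = τ1 ∧ newBit M h (flp A b) = τ2 then (1 : ℝ) else 0)) =
      (1 / 2 ^ M) * (kap M * (if Bal M τ1 then 1 else 0) * (if Bal M τ2 then 1 else 0)) := by
    intro b
    rw [Finset.sum_comm]
    have hA : ∀ A : Finset (Fin M), ∑ h : Equiv.Perm (Fin (2 * M)),
        1 / (Fintype.card (Equiv.Perm (Fin (2 * M))) : ℝ) * (wtA M A *
          (if newBit M h b = τ1 ∧ newBit M h (flp A b) = τ2 then (1 : ℝ) else 0)) =
        (1 / 2 ^ M) * kap M * (if (Bal M τ1 ∧ Bal M τ2 ∧
          A.card = Fintype.card {x // (τ1 x, τ2 x) = (true, true)})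
          then (1 : ℝ) / (M.choose A.card : ℝ) else 0) := by
      intro A
      simp only [← Finset.mul_sum]
      rw [Finset.sum_boole, card_cond, hcard]
      split_ifs with hm
      · have := wt_mul M A
        calc 1 / ((2 * M)! : ℝ) * (wtA M A * (((A.card)! ^ 2 * ((M - A.card)!) ^ 2 : ℕ) : ℝ))
            = wtA M A * (1 / ((2 * M)! : ℝ)) * (((A.card)! ^ 2 * ((M - A.card)!) ^ 2 : ℕ) : ℝ) := by
              ring
          _ = _ := by rw [this]; ring
      · simp
    simp only [hA]
    rw [← Finset.mul_sum]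
    by_cases h1 : Bal M τ1
    · by_cases h2 : Bal M τ2
      · simp only [h1, h2, true_and, if_true, mul_one]
        rw [sum_size]
        · ring
        · have e1 := cnt_first τ1 τ2
          unfold Bal at h1
          omega
      · simp [h2]
    · simp [h1]
  simp only [hb]
  rw [Finset.sum_const, Finset.card_univ, Fintype.card_fun, Fintype.card_bool, Fintype.card_fin,
    nsmul_eq_mul]
  push_cast
  field_simp

/-- **Deliverable (A).** The new-bit channel of the Thorp shuffle contracts the divergence from the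
uniform law by the factor `1/2`. -/
theorem sdpi_bitChan_half (M : ℕ) : SDPI (bitChan M) (1 / 2) := by
  apply two_copy (bitChan M) (twoChan M) (twoChan_isChan M) (twoChan_marg1 M) (twoChan_marg2 M)
  exact prod_of_shape (bitChan M) (twoChan M) (twoChan_isChan M) (twoChan_marg1 M)
    (twoChan_marg2 M) (kap M) (fun τ => if Bal M τ then 1 else 0) (push_twoChan_unif M)

end Vale.Agent.P162.KL
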