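import Mathlib

/-!
# P162 : the two size laws used in the proof of the matching -> transversal contraction

`pu M a = C(2M,2a) / 2^(2M-1)` is the law of half the size of a uniform even subset of a set with
`2M` points; `pH M a = C(M,a)^2 / C(2M,M)` is the hypergeometric law of the overlap of two
independent uniform `M`-subsets of a set with `2M` points.
-/

namespace Vale.Agent.P162

open Finset

/-- Law of `|Z|/2` for `Z` a uniform even subset of a `2M`-set. -/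
noncomputable def pu (M a : ℕ) : ℝ := ((2 * M).choose (2 * a) : ℝ) / 2 ^ (2 * M - 1)

/-- Hypergeometric law `C(M,a)^2 / C(2M,M)`. -/
noncomputable def pH (M a : ℕ) : ℝ := ((M.choose a : ℝ)) ^ 2 / ((2 * M).choose M : ℝ)

theorem pu_nonneg (M a : ℕ) : 0 ≤ pu M a := by unfold pu; positivity

theorem pH_nonneg (M a : ℕ) : 0 ≤ pH M a := by unfold pH; positivity

theorem pu_pos {M a : ℕ} (h : a ≤ M) : 0 < pu M a := by
  unfold pu
  have : 0 < (2 * M).choose (2 * a) := Nat.choose_pos (by omega)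
  positivity

theorem pH_pos {M a : ℕ} (h : a ≤ M) : 0 < pH M a := by
  unfold pH
  have h1 : 0 < M.choose a := Nat.choose_pos h
  have h2 : 0 < (2 * M).choose M := Nat.choose_pos (by omega)
  positivity

/-- Sum over even indices. -/
theorem sum_even_range (f : ℕ → ℝ) (M : ℕ) :
    ∑ k ∈ range (2 * M + 1), (1 + (-1 : ℝ) ^ k) / 2 * f k = ∑ a ∈ range (M + 1), f (2 * a) := by
  induction M with
  | zero => simp
  | succ M ih =>
    have e : 2 * (M + 1) + 1 = (2 * M + 1) + 1 + 1 := by ring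
    rw [e, sum_range_succ, sum_range_succ, ih, sum_range_succ _ (M + 1)]
    have h1 : (-1 : ℝ) ^ (2 * M + 1) = -1 := by
      rw [pow_succ, pow_mul]; norm_num
    have h2 : (-1 : ℝ) ^ (2 * M + 1 + 1) = 1 := by
      rw [pow_succ, h1]; norm_num
    rw [h1, h2]
    have e2 : 2 * M + 1 + 1 = 2 * (M + 1) := by ring
    rw [e2]
    ring

/-- Binomial theorem in the shape used below. -/
theorem sum_choose_pow (n : ℕ) (y : ℝ) :
    ∑ k ∈ range (n + 1), (n.choose k : ℝ) * y ^ k = (1 + y) ^ n := by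
  rw [add_comm (1 : ℝ) y, add_pow]
  refine sum_congr rfl fun k _ => ?_
  simp [mul_comm]

theorem sum_choose_pow_one (n : ℕ) (y : ℝ) :
    ∑ k ∈ range (n + 2), (k : ℝ) * ((n + 1).choose k : ℝ) * y ^ k
      = (n + 1) * y * (1 + y) ^ n := by
  rw [sum_range_succ', ← sum_choose_pow, mul_sum]
  simp only [Nat.cast_zero, zero_mul, add_zero]
  refine sum_congr rfl fun k _ => ?_
  have h := Nat.add_one_mul_choose_eq n k
  have h' : ((n : ℝ) + 1) * (n.choose k : ℝ) = ((n + 1).choose (k + 1) : ℝ) * ((k : ℝ) + 1) := by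
    exact_mod_cast h
  push_cast
  rw [pow_succ]
  linear_combination (-(y ^ k * y)) * h'

theorem sum_choose_pow_two (n : ℕ) (y : ℝ) :
    ∑ k ∈ range (n + 3), (k : ℝ) * ((k : ℝ) - 1) * ((n + 2).choose k : ℝ) * y ^ k
      = (n + 2) * (n + 1) * y ^ 2 * (1 + y) ^ n := by
  rw [sum_range_succ', sum_range_succ', ← sum_choose_pow, mul_sum]
  simp only [Nat.cast_zero, zero_mul, add_zero, zero_add, Nat.cast_one, sub_self, mul_zero]
  refine sum_congr rfl fun k _ => ?_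
  have h1 := Nat.add_one_mul_choose_eq n k
  have h2 := Nat.add_one_mul_choose_eq (n + 1) (k + 1)
  have h1' : ((n : ℝ) + 1) * (n.choose k : ℝ) = ((n + 1).choose (k + 1) : ℝ) * ((k : ℝ) + 1) := by
    exact_mod_cast h1
  have h2' : ((n : ℝ) + 1 + 1) * ((n + 1).choose (k + 1) : ℝ)
      = ((n + 1 + 1).choose (k + 1 + 1) : ℝ) * ((k : ℝ) + 1 + 1) := by
    exact_mod_cast h2
  push_cast
  rw [pow_succ, pow_succ]
  linear_combination (-(y ^ k * y * y) * ((n : ℝ) + 2)) * h1' - (y ^ k * y * y * ((k : ℝ) + 1)) * h2'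

theorem moment_gen (n : ℕ) (y : ℝ) :
    ∑ k ∈ range (n + 3), ((n + 2).choose k : ℝ) * y ^ k * ((k : ℝ) - ((n : ℝ) + 2) / 2) ^ 2
      = (n + 2) * (n + 1) * y ^ 2 * (1 + y) ^ n - (n + 1) * (n + 2) * y * (1 + y) ^ (n + 1)
        + ((n : ℝ) + 2) ^ 2 / 4 * (1 + y) ^ (n + 2) := by
  have h2 := sum_choose_pow_two n y
  have h1 := sum_choose_pow_one (n + 1) y
  have h0 := sum_choose_pow (n + 2) y
  rw [← h2, ← h0]
  have h1' : ((n : ℝ) + 1) * (n + 2) * y * (1 + y) ^ (n + 1)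
      = ((n : ℝ) + 1) * ∑ k ∈ range (n + 3), (k : ℝ) * ((n + 2).choose k : ℝ) * y ^ k := by
    have : ∑ k ∈ range (n + 3), (k : ℝ) * ((n + 2).choose k : ℝ) * y ^ k
        = (((n + 1 : ℕ) : ℝ) + 1) * y * (1 + y) ^ (n + 1) := h1
    rw [this]; push_cast; ring
  rw [h1', mul_sum, mul_sum, ← sum_sub_distrib, ← sum_add_distrib]
  refine sum_congr rfl fun k _ => ?_
  ring

theorem sum_choose_even {M : ℕ} (hM : 1 ≤ M) :
    ∑ a ∈ range (M + 1), ((2 * M).choose (2 * a) : ℝ) = 2 ^ (2 * M - 1) := by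
  rw [← sum_even_range (fun k => ((2 * M).choose k : ℝ)) M]
  have h1 := sum_choose_pow (2 * M) 1
  have h2 := sum_choose_pow (2 * M) (-1)
  have e : ∑ k ∈ range (2 * M + 1), (1 + (-1 : ℝ) ^ k) / 2 * ((2 * M).choose k : ℝ)
      = (∑ k ∈ range (2 * M + 1), ((2 * M).choose k : ℝ) * 1 ^ k
        + ∑ k ∈ range (2 * M + 1), ((2 * M).choose k : ℝ) * (-1) ^ k) / 2 := by
    rw [← sum_add_distrib, sum_div]
    refine sum_congr rfl fun k _ => ?_
    ring
  rw [e, h1, h2]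
  obtain ⟨L, rfl⟩ : ∃ L, M = L + 1 := ⟨M - 1, by omega⟩
  have e1 : 2 * (L + 1) = (2 * L + 1) + 1 := by ring
  have e2 : 2 * (L + 1) - 1 = 2 * L + 1 := by omega
  rw [e2, e1, pow_succ]
  norm_num

theorem sum_pu {M : ℕ} (hM : 1 ≤ M) : ∑ a ∈ range (M + 1), pu M a = 1 := by
  unfold pu
  rw [← sum_div, sum_choose_even hM]
  exact div_self (by positivity)

theorem sum_pH (M : ℕ) : ∑ a ∈ range (M + 1), pH M a = 1 := by
  unfold pH
  rw [← sum_div]
  have h := Nat.sum_range_choose_sq M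
  have h' : ∑ a ∈ range (M + 1), ((M.choose a : ℝ)) ^ 2 = ((2 * M).choose M : ℝ) := by
    exact_mod_cast h
  rw [h']
  have h2 : 0 < (2 * M).choose M := Nat.choose_pos (by omega)
  exact div_self (by positivity)

/-- Second moment of `pu`. -/
theorem moment_pu {M : ℕ} (hM : 2 ≤ M) :
    ∑ a ∈ range (M + 1), pu M a * ((a : ℝ) - (M : ℝ) / 2) ^ 2 = (M : ℝ) / 8 := by
  obtain ⟨L, rfl⟩ : ∃ L, M = L + 2 := ⟨M - 2, by omega⟩
  set n := 2 * L + 2 with hn
  have e0 : 2 * (L + 2) = n + 2 := by rw [hn]; ring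
  have hcast : ((L + 2 : ℕ) : ℝ) = ((n : ℝ) + 2) / 2 := by
    rw [hn]; push_cast; ring
  have key : ∑ a ∈ range (L + 2 + 1),
      ((n + 2).choose (2 * a) : ℝ) * (((2 * a : ℕ) : ℝ) - ((n : ℝ) + 2) / 2) ^ 2
      = 2 ^ n * (((n : ℝ) + 2) / 2) := by
    rw [← sum_even_range
      (fun k => ((n + 2).choose k : ℝ) * ((k : ℝ) - ((n : ℝ) + 2) / 2) ^ 2) (L + 2)]
    have h1 := moment_gen n 1
    have h2 := moment_gen n (-1)
    have e3 : 2 * (L + 2) + 1 = n + 3 := by rw [hn]; ring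
    rw [e3]
    have e : ∑ k ∈ range (n + 3), (1 + (-1 : ℝ) ^ k) / 2
          * (((n + 2).choose k : ℝ) * ((k : ℝ) - ((n : ℝ) + 2) / 2) ^ 2)
        = (∑ k ∈ range (n + 3), ((n + 2).choose k : ℝ) * 1 ^ k * ((k : ℝ) - ((n : ℝ) + 2) / 2) ^ 2
          + ∑ k ∈ range (n + 3), ((n + 2).choose k : ℝ) * (-1) ^ k
              * ((k : ℝ) - ((n : ℝ) + 2) / 2) ^ 2) / 2 := by
      rw [← sum_add_distrib, sum_div]
      refine sum_congr rfl fun k _ => ?_
      ring
    rw [e, h1, h2]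
    have z : (1 + (-1 : ℝ)) = 0 := by norm_num
    have hn0 : n ≠ 0 := by rw [hn]; omega
    rw [z, zero_pow hn0, zero_pow (by omega), zero_pow (by omega)]
    have t : (1 + (1 : ℝ)) = 2 := by norm_num
    rw [t, pow_succ, pow_succ]
    ring
  unfold pu
  rw [e0, hcast]
  have e4 : n + 2 - 1 = n + 1 := by omega
  rw [e4]
  have : ∀ a ∈ range (L + 2 + 1),
      ((n + 2).choose (2 * a) : ℝ) / 2 ^ (n + 1) * ((a : ℝ) - ((n : ℝ) + 2) / 2 / 2) ^ 2
      = (((n + 2).choose (2 * a) : ℝ) * (((2 * a : ℕ) : ℝ) - ((n : ℝ) + 2) / 2) ^ 2)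
          / (4 * 2 ^ (n + 1)) := by
    intro a _
    push_cast
    field_simp
    ring
  rw [sum_congr rfl this, ← sum_div, key, pow_succ]
  field_simp
  ring

theorem sum_choose_shift (L : ℕ) :
    ∑ b ∈ range (L + 2), (L + 1).choose b * (L + 1).choose (b + 1) = (2 * L + 2).choose L := by
  rw [sum_range_succ, Nat.choose_succ_self, mul_zero, add_zero]
  have h := Nat.add_choose_eq (L + 1) (L + 1) L
  rw [Finset.Nat.sum_antidiagonal_eq_sum_range_succ_mk] at h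
  have e : L + 1 + (L + 1) = 2 * L + 2 := by ring
  rw [e] at h
  rw [h]
  refine sum_congr rfl fun i hi => ?_
  have hi' : i ≤ L := Nat.lt_succ_iff.mp (mem_range.mp hi)
  congr 1
  exact Nat.choose_symm_of_eq_add (by omega)

/-- Second moment of `pH`. -/
theorem moment_pH {M : ℕ} (hM : 2 ≤ M) :
    ∑ a ∈ range (M + 1), pH M a * ((a : ℝ) - (M : ℝ) / 2) ^ 2
      = (M : ℝ) ^ 2 / (4 * (2 * (M : ℝ) - 1)) := by
  obtain ⟨L, rfl⟩ : ∃ L, M = L + 2 := ⟨M - 2, by omega⟩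
  have hs := sum_pH (L + 2)
  -- the mixed moment
  have hmix : ∑ a ∈ range (L + 2 + 1),
      (((L + 2).choose a : ℝ)) ^ 2 * ((a : ℝ) * (((L + 2 : ℕ) : ℝ) - a))
      = (((L + 2 : ℕ) : ℝ)) ^ 2 * ((2 * L + 2).choose L : ℝ) := by
    rw [sum_range_succ']
    simp only [Nat.cast_zero, zero_mul, mul_zero, add_zero]
    have hsh := sum_choose_shift L
    have hsh' : ∑ b ∈ range (L + 2), ((L + 1).choose b : ℝ) * ((L + 1).choose (b + 1) : ℝ)
        = ((2 * L + 2).choose L : ℝ) := by exact_mod_cast hsh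
    rw [← hsh', mul_sum]
    refine sum_congr rfl fun b hb => ?_
    have hb' : b ≤ L + 1 := Nat.lt_succ_iff.mp (mem_range.mp hb)
    have h1 := Nat.add_one_mul_choose_eq (L + 1) b
    have h2 := Nat.choose_mul_succ_eq (L + 1) (b + 1)
    have h1' : ((L : ℝ) + 1 + 1) * ((L + 1).choose b : ℝ)
        = ((L + 1 + 1).choose (b + 1) : ℝ) * ((b : ℝ) + 1) := by exact_mod_cast h1
    have h2' : ((L + 1).choose (b + 1) : ℝ) * ((L : ℝ) + 1 + 1)
        = ((L + 1 + 1).choose (b + 1) : ℝ) * ((L : ℝ) + 1 + 1 - ((b : ℝ) + 1)) := by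
      have : ((L + 1 + 1 - (b + 1) : ℕ) : ℝ) = (L : ℝ) + 1 + 1 - ((b : ℝ) + 1) := by
        rw [Nat.cast_sub (by omega)]; push_cast; ring
      rw [← this]; exact_mod_cast h2
    push_cast
    have e : ((L + 2).choose (b + 1) : ℝ) = ((L + 1 + 1).choose (b + 1) : ℝ) := rfl
    rw [e]
    calc ((L + 1 + 1).choose (b + 1) : ℝ) ^ 2 * (((b : ℝ) + 1) * ((L : ℝ) + 2 - ((b : ℝ) + 1)))
        = (((L + 1 + 1).choose (b + 1) : ℝ) * ((b : ℝ) + 1))
          * (((L + 1 + 1).choose (b + 1) : ℝ) * ((L : ℝ) + 1 + 1 - ((b : ℝ) + 1))) := by ring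
      _ = (((L : ℝ) + 1 + 1) * ((L + 1).choose b : ℝ))
          * (((L + 1).choose (b + 1) : ℝ) * ((L : ℝ) + 1 + 1)) := by rw [← h1', ← h2']
      _ = ((L : ℝ) + 2) ^ 2 * (((L + 1).choose b : ℝ) * ((L + 1).choose (b + 1) : ℝ)) := by ring
  -- relation between the two central coefficients
  have g1 := Nat.add_one_mul_choose_eq (2 * L + 3) (L + 1)
  have g2 := Nat.add_one_mul_choose_eq (2 * L + 2) L
  have g1' : (2 * (L : ℝ) + 3 + 1) * ((2 * L + 3).choose (L + 1) : ℝ)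
      = ((2 * L + 3 + 1).choose (L + 1 + 1) : ℝ) * ((L : ℝ) + 1 + 1) := by exact_mod_cast g1
  have g2' : (2 * (L : ℝ) + 2 + 1) * ((2 * L + 2).choose L : ℝ)
      = ((2 * L + 2 + 1).choose (L + 1) : ℝ) * ((L : ℝ) + 1) := by exact_mod_cast g2
  have e5 : 2 * (L + 2) = 2 * L + 3 + 1 := by ring
  have hC : 0 < ((2 * L + 3 + 1).choose (L + 1 + 1) : ℝ) := by
    have : 0 < (2 * L + 3 + 1).choose (L + 1 + 1) := Nat.choose_pos (by omega)
    exact_mod_cast this
  have hrel : ((2 * L + 2).choose L : ℝ)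
      = ((2 * L + 3 + 1).choose (L + 1 + 1) : ℝ) * (((L : ℝ) + 2) * ((L : ℝ) + 1))
          / ((2 * (L : ℝ) + 4) * (2 * (L : ℝ) + 3)) := by
    have hL : (0 : ℝ) ≤ L := Nat.cast_nonneg L
    rw [eq_div_iff (by positivity)]
    have e6 : ((2 * L + 2 + 1).choose (L + 1) : ℝ) = ((2 * L + 3).choose (L + 1) : ℝ) := rfl
    rw [e6] at g2'
    linear_combination (2 * (L : ℝ) + 4) * g2' + ((L : ℝ) + 1) * g1'
  have hsplit : ∀ a ∈ range (L + 2 + 1),
      pH (L + 2) a * ((a : ℝ) - ((L + 2 : ℕ) : ℝ) / 2) ^ 2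
      = (((L + 2 : ℕ) : ℝ)) ^ 2 / 4 * pH (L + 2) a
        - ((((L + 2).choose a : ℝ)) ^ 2 * ((a : ℝ) * (((L + 2 : ℕ) : ℝ) - a)))
            / ((2 * (L + 2)).choose (L + 2) : ℝ) := by
    intro a _
    unfold pH
    ring
  rw [sum_congr rfl hsplit, sum_sub_distrib, ← mul_sum, hs, ← sum_div, hmix, hrel, e5]
  have hL : (0 : ℝ) ≤ L := Nat.cast_nonneg L
  have e7 : ((2 * L + 3 + 1).choose (L + 2) : ℝ) = ((2 * L + 3 + 1).choose (L + 1 + 1) : ℝ) := rfl
  rw [e7]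
  push_cast
  have h3 : (2 * ((L : ℝ) + 2) - 1) ≠ 0 := by nlinarith
  field_simp
  ring

/-- Chebyshev's inequality for finite weighted sums. -/
theorem cheb_sum (s : Finset ℕ) (p g : ℕ → ℝ) (hp : ∀ a ∈ s, 0 ≤ p a) {t : ℝ} (ht : 0 < t) :
    ∑ a ∈ s.filter (fun a => t < |g a|), p a ≤ (∑ a ∈ s, p a * g a ^ 2) / t ^ 2 := by
  rw [le_div_iff₀ (by positivity), sum_mul]
  calc ∑ a ∈ s.filter (fun a => t < |g a|), p a * t ^ 2
      ≤ ∑ a ∈ s.filter (fun a => t < |g a|), p a * g a ^ 2 := by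
        refine sum_le_sum fun a ha => ?_
        rw [mem_filter] at ha
        have h1 : t ^ 2 ≤ g a ^ 2 := by
          rw [← sq_abs (g a)]
          exact pow_le_pow_left₀ ht.le ha.2.le 2
        exact mul_le_mul_of_nonneg_left h1 (hp a ha.1)
    _ ≤ ∑ a ∈ s, p a * g a ^ 2 := by
        refine sum_le_sum_of_subset_of_nonneg (filter_subset _ _) fun a ha _ => ?_
        exact mul_nonneg (hp a ha) (sq_nonneg _)

theorem pu_tail {M : ℕ} (hM : 2 ≤ M) {dl : ℝ} (hd : 0 < dl) :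
    ∑ a ∈ (range (M + 1)).filter (fun a : ℕ => dl * (M : ℝ) < |(a : ℝ) - (M : ℝ) / 2|), pu M a
      ≤ 1 / (8 * dl ^ 2 * (M : ℝ)) := by
  have hM0 : (0 : ℝ) < M := by exact_mod_cast (by omega : 0 < M)
  have h := cheb_sum (range (M + 1)) (pu M) (fun a : ℕ => (a : ℝ) - (M : ℝ) / 2)
    (fun a _ => pu_nonneg M a) (t := dl * (M : ℝ)) (by positivity)
  rw [moment_pu hM] at h
  refine h.trans (le_of_eq ?_)
  field_simp

theorem pH_tail {M : ℕ} (hM : 2 ≤ M) {dl : ℝ} (hd : 0 < dl) :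
    ∑ a ∈ (range (M + 1)).filter (fun a : ℕ => dl * (M : ℝ) < |(a : ℝ) - (M : ℝ) / 2|), pH M a
      ≤ 1 / (4 * dl ^ 2 * (M : ℝ)) := by
  have hM0 : (0 : ℝ) < M := by exact_mod_cast (by omega : 0 < M)
  have hM1 : (1 : ℝ) ≤ M := by exact_mod_cast (by omega : 1 ≤ M)
  have h := cheb_sum (range (M + 1)) (pH M) (fun a : ℕ => (a : ℝ) - (M : ℝ) / 2)
    (fun a _ => pH_nonneg M a) (t := dl * (M : ℝ)) (by positivity)
  rw [moment_pH hM] at h
  refine h.trans ?_
  have e : (M : ℝ) ^ 2 / (4 * (2 * (M : ℝ) - 1)) / (dl * (M : ℝ)) ^ 2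
      = 1 / (4 * dl ^ 2 * (2 * (M : ℝ) - 1)) := by
    have : (2 * (M : ℝ) - 1) ≠ 0 := by nlinarith
    field_simp
  rw [e]
  apply one_div_le_one_div_of_le (by positivity)
  have : (0 : ℝ) < 4 * dl ^ 2 := by positivity
  nlinarith

/-! ### The ratio `pH / pu` -/

/-- The ratio of the two size laws. -/
noncomputable def rHu (M a : ℕ) : ℝ := pH M a / pu M a

theorem pH_eq_rHu_mul {M a : ℕ} (h : a ≤ M) : pH M a = rHu M a * pu M a := by
  unfold rHu
  rw [div_mul_cancel₀ _ (pu_pos h).ne']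

theorem rHu_pos {M a : ℕ} (h : a ≤ M) : 0 < rHu M a := div_pos (pH_pos h) (pu_pos h)

theorem pH_symm {M a : ℕ} (h : a ≤ M) : pH M (M - a) = pH M a := by
  unfold pH
  rw [Nat.choose_symm h]

theorem pu_symm {M a : ℕ} (h : a ≤ M) : pu M (M - a) = pu M a := by
  unfold pu
  have e : 2 * (M - a) = 2 * M - 2 * a := by omega
  rw [e, Nat.choose_symm (by omega)]

theorem rHu_symm {M a : ℕ} (h : a ≤ M) : rHu M (M - a) = rHu M a := by
  unfold rHu
  rw [pH_symm h, pu_symm h]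

/-- The recurrence of the ratio. -/
theorem rHu_succ {M a : ℕ} (h : a < M) :
    rHu M (a + 1) * (((a : ℝ) + 1) * (2 * (M : ℝ) - 2 * a - 1))
      = rHu M a * (((M : ℝ) - a) * (2 * (a : ℝ) + 1)) := by
  have c1 := Nat.choose_succ_right_eq M a
  have c2 := Nat.choose_succ_right_eq (2 * M) (2 * a)
  have c3 := Nat.choose_succ_right_eq (2 * M) (2 * a + 1)
  have c1' : (M.choose (a + 1) : ℝ) * ((a : ℝ) + 1) = (M.choose a : ℝ) * ((M : ℝ) - a) := by
    have : ((M - a : ℕ) : ℝ) = (M : ℝ) - a := by rw [Nat.cast_sub h.le]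
    rw [← this]; exact_mod_cast c1
  have c2' : ((2 * M).choose (2 * a + 1) : ℝ) * (2 * (a : ℝ) + 1)
      = ((2 * M).choose (2 * a) : ℝ) * (2 * (M : ℝ) - 2 * a) := by
    have : ((2 * M - 2 * a : ℕ) : ℝ) = 2 * (M : ℝ) - 2 * a := by
      rw [Nat.cast_sub (by omega)]; push_cast; ring
    rw [← this]; exact_mod_cast c2
  have c3' : ((2 * M).choose (2 * a + 1 + 1) : ℝ) * (2 * (a : ℝ) + 1 + 1)
      = ((2 * M).choose (2 * a + 1) : ℝ) * (2 * (M : ℝ) - 2 * a - 1) := by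
    have : ((2 * M - (2 * a + 1) : ℕ) : ℝ) = 2 * (M : ℝ) - 2 * a - 1 := by
      rw [Nat.cast_sub (by omega)]; push_cast; ring
    rw [← this]; exact_mod_cast c3
  have ha : (0 : ℝ) ≤ a := Nat.cast_nonneg a
  have hx : (0 : ℝ) < (M.choose a : ℝ) := by exact_mod_cast Nat.choose_pos h.le
  have hy : (0 : ℝ) < ((2 * M).choose (2 * a) : ℝ) := by
    exact_mod_cast Nat.choose_pos (by omega : 2 * a ≤ 2 * M)
  have hy2 : (0 : ℝ) < ((2 * M).choose (2 * a + 1 + 1) : ℝ) := by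
    exact_mod_cast Nat.choose_pos (by omega : 2 * a + 1 + 1 ≤ 2 * M)
  have hC : (0 : ℝ) < ((2 * M).choose M : ℝ) := by
    exact_mod_cast Nat.choose_pos (by omega : M ≤ 2 * M)
  have hMa : (0 : ℝ) < (M : ℝ) - a := by
    have : (a : ℝ) < M := by exact_mod_cast h
    linarith
  have x' : (M.choose (a + 1) : ℝ) = (M.choose a : ℝ) * ((M : ℝ) - a) / ((a : ℝ) + 1) := by
    rw [eq_div_iff (by positivity)]; exact c1'
  have y1 : ((2 * M).choose (2 * a + 1) : ℝ)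
      = ((2 * M).choose (2 * a) : ℝ) * (2 * (M : ℝ) - 2 * a) / (2 * (a : ℝ) + 1) := by
    rw [eq_div_iff (by positivity)]; exact c2'
  have y2 : ((2 * M).choose (2 * a + 1 + 1) : ℝ)
      = ((2 * M).choose (2 * a) : ℝ) * (2 * ((M : ℝ) - a)) / (2 * (a : ℝ) + 1)
          * (2 * (M : ℝ) - 2 * a - 1) / (2 * ((a : ℝ) + 1)) := by
    rw [eq_div_iff (by positivity)]
    have : ((2 * M).choose (2 * a + 1 + 1) : ℝ) * (2 * ((a : ℝ) + 1))
        = ((2 * M).choose (2 * a + 1 + 1) : ℝ) * (2 * (a : ℝ) + 1 + 1) := by ring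
    rw [this, c3', y1]
    ring
  have hq : (0 : ℝ) < 2 * (M : ℝ) - 2 * a - 1 := by
    have : (a : ℝ) + 1 ≤ M := by exact_mod_cast h
    linarith
  have key : ∀ x y C P A B u v : ℝ, 0 < x → 0 < y → 0 < C → 0 < P → 0 < A → 0 < B → 0 < u → 0 < v →
      ((x * v / A) ^ 2 / C) / ((y * (2 * v) / B * u / (2 * A)) / P) * (A * u)
        = (x ^ 2 / C) / (y / P) * (v * B) := by
    intro x y C P A B u v hx hy hC hP hA hB hu hv
    field_simp
  unfold rHu pH pu
  have e : 2 * (a + 1) = 2 * a + 1 + 1 := by ring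
  rw [e, y2, x']
  exact key _ _ _ _ _ _ _ _ hx hy hC (by positivity) (by positivity) (by positivity) hq hMa

theorem rHu_succ_le {M a : ℕ} (h : 2 * a + 1 ≤ M) : rHu M (a + 1) ≤ rHu M a := by
  have ha : a < M := by omega
  have hrec := rHu_succ ha
  have hr := (rHu_pos ha.le).le
  have hMr : (2 * (a : ℝ) + 1) ≤ M := by exact_mod_cast h
  have ha0 : (0 : ℝ) ≤ a := Nat.cast_nonneg a
  have hP1 : 0 < ((a : ℝ) + 1) * (2 * (M : ℝ) - 2 * a - 1) := by
    apply mul_pos (by positivity); linarith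
  have hle : ((M : ℝ) - a) * (2 * (a : ℝ) + 1) ≤ ((a : ℝ) + 1) * (2 * (M : ℝ) - 2 * a - 1) := by
    nlinarith
  refine le_of_mul_le_mul_right ?_ hP1
  rw [hrec]
  exact mul_le_mul_of_nonneg_left hle hr

theorem rHu_le_succ {M a : ℕ} (h : a < M) {dl : ℝ}
    (hd : ((a : ℝ) + 1) * (2 * (M : ℝ) - 2 * a - 1)
      ≤ (1 + dl) * (((M : ℝ) - a) * (2 * (a : ℝ) + 1))) :
    rHu M a ≤ (1 + dl) * rHu M (a + 1) := by
  have hrec := rHu_succ h
  have hr := (rHu_pos (by omega : a + 1 ≤ M)).le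
  have ha0 : (0 : ℝ) ≤ a := Nat.cast_nonneg a
  have hMa : (0 : ℝ) < (M : ℝ) - a := by
    have : (a : ℝ) < M := by exact_mod_cast h
    linarith
  have hP2 : 0 < ((M : ℝ) - a) * (2 * (a : ℝ) + 1) := by positivity
  refine le_of_mul_le_mul_right ?_ hP2
  rw [← hrec]
  calc rHu M (a + 1) * (((a : ℝ) + 1) * (2 * (M : ℝ) - 2 * a - 1))
      ≤ rHu M (a + 1) * ((1 + dl) * (((M : ℝ) - a) * (2 * (a : ℝ) + 1))) :=
        mul_le_mul_of_nonneg_left hd hr
    _ = (1 + dl) * rHu M (a + 1) * (((M : ℝ) - a) * (2 * (a : ℝ) + 1)) := by ring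

theorem rHu_center_le_of_le {M : ℕ} : ∀ (k a : ℕ), a + k = M / 2 → rHu M (M / 2) ≤ rHu M a := by
  intro k
  induction k with
  | zero => intro a h; rw [add_zero] at h; rw [h]
  | succ k ih =>
    intro a h
    have h1 := ih (a + 1) (by omega)
    exact h1.trans (rHu_succ_le (by omega))

theorem rHu_center_le {M a : ℕ} (ha : a ≤ M) : rHu M (M / 2) ≤ rHu M a := by
  by_cases h : a ≤ M / 2
  · exact rHu_center_le_of_le (M / 2 - a) a (by omega)
  · have hs := rHu_symm (M := M) (a := M - a) (by omega)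
    have e : M - (M - a) = a := by omega
    rw [e] at hs
    rw [hs]
    exact rHu_center_le_of_le (M / 2 - (M - a)) (M - a) (by omega)

theorem rHu_center_le_one {M : ℕ} (hM : 1 ≤ M) : rHu M (M / 2) ≤ 1 := by
  by_contra hcon0
  have hcon : 1 < rHu M (M / 2) := not_le.mp hcon0
  have hlt : ∑ a ∈ range (M + 1), pu M a < ∑ a ∈ range (M + 1), pH M a := by
    refine sum_lt_sum_of_nonempty ⟨0, by simp⟩ fun a ha => ?_
    have ha' : a ≤ M := Nat.lt_succ_iff.mp (mem_range.mp ha)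
    rw [pH_eq_rHu_mul ha']
    have h1 : 1 < rHu M a := lt_of_lt_of_le hcon (rHu_center_le ha')
    have := pu_pos ha'
    nlinarith
  rw [sum_pu hM, sum_pH] at hlt
  exact lt_irrefl _ hlt

theorem rHu_le_pow {M : ℕ} (hM : 1 ≤ M) {dl : ℝ} (hd0 : 0 ≤ dl) :
    ∀ (k a : ℕ), a + k = M / 2 →
      (∀ i : ℕ, a ≤ i → i < M / 2 → ((i : ℝ) + 1) * (2 * (M : ℝ) - 2 * i - 1)
        ≤ (1 + dl) * (((M : ℝ) - i) * (2 * (i : ℝ) + 1))) →
      rHu M a ≤ (1 + dl) ^ k := by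
  intro k
  induction k with
  | zero =>
    intro a h _
    rw [add_zero] at h
    rw [h, pow_zero]
    exact rHu_center_le_one hM
  | succ k ih =>
    intro a h hstep
    have h1 := ih (a + 1) (by omega) (fun i hi hi2 => hstep i (by omega) hi2)
    have h2 := rHu_le_succ (M := M) (a := a) (by omega) (hstep a le_rfl (by omega))
    calc rHu M a ≤ (1 + dl) * rHu M (a + 1) := h2
      _ ≤ (1 + dl) * (1 + dl) ^ k := mul_le_mul_of_nonneg_left h1 (by linarith)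
      _ = (1 + dl) ^ (k + 1) := by ring

theorem one_add_pow_le_exp {x : ℝ} (hx : 0 ≤ x) (n : ℕ) : (1 + x) ^ n ≤ Real.exp (n * x) := by
  rw [Real.exp_nat_mul]
  refine pow_le_pow_left₀ (by linarith) ?_ n
  have := Real.add_one_le_exp x
  linarith

theorem exp_le_inv_one_sub {x : ℝ} (hx : x < 1) : Real.exp x ≤ 1 / (1 - x) := by
  have h := Real.one_sub_le_exp_neg x
  have h1 : 0 < 1 - x := by linarith
  rw [le_div_iff₀ h1]
  calc Real.exp x * (1 - x) ≤ Real.exp x * Real.exp (-x) :=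
        mul_le_mul_of_nonneg_left h (Real.exp_pos x).le
    _ = 1 := by rw [← Real.exp_add]; simp

/-- On the window `M/3 ≤ a ≤ 2M/3` the hypergeometric law is at most `6/5` times `pu`. -/
theorem pH_le_pu_third {M a : ℕ} (hM : 1 ≤ M) (h1 : M ≤ 3 * a) (h2 : 3 * a ≤ 2 * M) :
    pH M a ≤ 6 / 5 * pu M a := by
  have hM0 : (0 : ℝ) < M := by exact_mod_cast (by omega : 0 < M)
  have main : ∀ b : ℕ, b ≤ M / 2 → M ≤ 3 * b → rHu M b ≤ 6 / 5 := by
    intro b hb hb3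
    have hp := rHu_le_pow hM (dl := 1 / (M : ℝ)) (by positivity) (M / 2 - b) b (by omega) (by
      intro i hi hi2
      have e1 : (M : ℝ) ≤ 3 * i := by exact_mod_cast (by omega : M ≤ 3 * i)
      have e2 : 2 * (i : ℝ) + 2 ≤ M := by exact_mod_cast (by omega : 2 * i + 2 ≤ M)
      have hkey : (M : ℝ) * ((M : ℝ) - 2 * i - 1) ≤ ((M : ℝ) - i) * (2 * (i : ℝ) + 1) := by
        nlinarith [mul_nonneg (sub_nonneg.mpr e1) (sub_nonneg.mpr e2),
          mul_nonneg hM0.le (sub_nonneg.mpr e1), Nat.cast_nonneg (α := ℝ) i]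
      have hdiv : (M : ℝ) - 2 * i - 1 ≤ 1 / (M : ℝ) * (((M : ℝ) - i) * (2 * (i : ℝ) + 1)) := by
        rw [one_div, inv_mul_eq_div, le_div_iff₀ hM0]
        linarith
      nlinarith)
    refine hp.trans ((one_add_pow_le_exp (by positivity) _).trans ?_)
    have hn : ((M / 2 - b : ℕ) : ℝ) * (1 / (M : ℝ)) ≤ 1 / 6 := by
      have : 6 * (M / 2 - b) ≤ M := by omega
      have h6 : 6 * ((M / 2 - b : ℕ) : ℝ) ≤ M := by exact_mod_cast this
      rw [mul_one_div, div_le_iff₀ hM0]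
      linarith
    refine (Real.exp_le_exp.mpr hn).trans ((exp_le_inv_one_sub (by norm_num)).trans ?_)
    norm_num
  have haM : a ≤ M := by omega
  rw [pH_eq_rHu_mul haM]
  refine mul_le_mul_of_nonneg_right ?_ (pu_nonneg M a)
  by_cases h : a ≤ M / 2
  · exact main a h h1
  · have hs := rHu_symm (M := M) (a := M - a) (by omega)
    have e : M - (M - a) = a := by omega
    rw [e] at hs
    rw [hs]
    exact main (M - a) (by omega) (by omega)

/-- On the window `2M/5 ≤ a ≤ 3M/5` the hypergeometric law is at most `20/19` times `pu`. -/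
theorem pH_le_pu_two_fifths {M a : ℕ} (hM : 1 ≤ M) (h1 : 2 * M ≤ 5 * a) (h2 : 5 * a ≤ 3 * M) :
    pH M a ≤ 20 / 19 * pu M a := by
  have hM0 : (0 : ℝ) < M := by exact_mod_cast (by omega : 0 < M)
  have main : ∀ b : ℕ, b ≤ M / 2 → 2 * M ≤ 5 * b → rHu M b ≤ 20 / 19 := by
    intro b hb hb3
    have hp := rHu_le_pow hM (dl := 1 / (2 * (M : ℝ))) (by positivity) (M / 2 - b) b (by omega) (by
      intro i hi hi2
      have e1 : 2 * (M : ℝ) ≤ 5 * i := by exact_mod_cast (by omega : 2 * M ≤ 5 * i)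
      have e2 : 2 * (i : ℝ) + 2 ≤ M := by exact_mod_cast (by omega : 2 * i + 2 ≤ M)
      have hkey : (2 * (M : ℝ)) * ((M : ℝ) - 2 * i - 1) ≤ ((M : ℝ) - i) * (2 * (i : ℝ) + 1) := by
        nlinarith [mul_nonneg (sub_nonneg.mpr e1) (sub_nonneg.mpr e2),
          mul_nonneg hM0.le (sub_nonneg.mpr e1), Nat.cast_nonneg (α := ℝ) i]
      have hdiv : (M : ℝ) - 2 * i - 1
          ≤ 1 / (2 * (M : ℝ)) * (((M : ℝ) - i) * (2 * (i : ℝ) + 1)) := by
        rw [one_div, inv_mul_eq_div, le_div_iff₀ (by positivity)]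
        linarith
      nlinarith)
    refine hp.trans ((one_add_pow_le_exp (by positivity) _).trans ?_)
    have hn : ((M / 2 - b : ℕ) : ℝ) * (1 / (2 * (M : ℝ))) ≤ 1 / 20 := by
      have : 10 * (M / 2 - b) ≤ M := by omega
      have h6 : 10 * ((M / 2 - b : ℕ) : ℝ) ≤ M := by exact_mod_cast this
      rw [mul_one_div, div_le_iff₀ (by positivity)]
      linarith
    refine (Real.exp_le_exp.mpr hn).trans ((exp_le_inv_one_sub (by norm_num)).trans ?_)
    norm_num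
  have haM : a ≤ M := by omega
  rw [pH_eq_rHu_mul haM]
  refine mul_le_mul_of_nonneg_right ?_ (pu_nonneg M a)
  by_cases h : a ≤ M / 2
  · exact main a h h1
  · have hs := rHu_symm (M := M) (a := M - a) (by omega)
    have e : M - (M - a) = a := by omega
    rw [e] at hs
    rw [hs]
    exact main (M - a) (by omega) (by omega)

end Vale.Agent.P162
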