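import Vale.Agent.P162.KL.TwoCopy
import Vale.Agent.P162.KL.Colour
import Vale.Agent.P162.KL.SizeLaws

/-!
# P162 : the new-bit channel, positions, coins and their colourings
-/

namespace Vale.Agent.P162.KL

open Finset Nat

/-- parity of the new position of the card that sits at position `y` -/
def pbit (M : ℕ) (b : Fin M → Bool) (y : Fin (2 * M)) : Bool :=
  decide ((thorpMap M b y).val % 2 = 1)

theorem newBit_eq_pbit (M : ℕ) (h : Equiv.Perm (Fin (2 * M))) (b : Fin M → Bool) :
    newBit M h b = pbit M b ∘ h := rfl

/-- the pair of positions (edge) to which `y` belongs -/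
def edge (M : ℕ) (y : Fin (2 * M)) : Fin M :=
  ⟨y.val % M, Nat.mod_lt _ (by have := y.isLt; omega)⟩

/-- the position in the edge `e`, in the bottom half iff `s` -/
def pos (M : ℕ) (e : Fin M) (s : Bool) : Fin (2 * M) :=
  ⟨e.val + (if s then M else 0), by have := e.isLt; split_ifs <;> omega⟩

theorem edge_pos (M : ℕ) (e : Fin M) (s : Bool) : edge M (pos M e s) = e := by
  apply Fin.ext
  have := e.isLt
  cases s
  · simp [edge, pos, Nat.mod_eq_of_lt this]
  · simp [edge, pos, Nat.mod_eq_of_lt this]

theorem pos_edge (M : ℕ) (y : Fin (2 * M)) : pos M (edge M y) (decide (M ≤ y.val)) = y := by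
  apply Fin.ext
  have hy := y.isLt
  by_cases h : M ≤ y.val
  · have h1 : y.val % M = y.val - M := by
      have h2 : y.val = (y.val - M) + M := by omega
      conv_lhs => rw [h2]
      rw [Nat.add_mod_right, Nat.mod_eq_of_lt (by omega)]
    simp only [pos, edge, h, decide_true, if_true, h1]
    omega
  · have h1 : y.val % M = y.val := Nat.mod_eq_of_lt (by omega)
    simp [pos, edge, h, h1]

theorem half_pos (M : ℕ) (e : Fin M) (s : Bool) : decide (M ≤ (pos M e s).val) = s := by
  have := e.isLt
  cases s
  · simp [pos]
  · simp [pos]

theorem pbit_pos (M : ℕ) (b : Fin M → Bool) (e : Fin M) (s : Bool) :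
    pbit M b (pos M e s) = xor (b e) s := by
  have he := e.isLt
  cases s
  · have h : (pos M e false).val < M := by simp [pos, he]
    unfold pbit thorpMap
    rw [dif_pos h]
    have e1 : (⟨(pos M e false).val, h⟩ : Fin M) = e := by
      apply Fin.ext; simp [pos]
    simp only [e1]
    cases hb : b e
    · simp
    · simp [Nat.add_mod]
  · have h : ¬ (pos M e true).val < M := by simp [pos]
    unfold pbit thorpMap
    rw [dif_neg h]
    have e1 : ∀ hh, (⟨(pos M e true).val - M, hh⟩ : Fin M) = e := by
      intro hh
      apply Fin.ext; simp [pos]
    simp only [e1]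
    cases hb : b e
    · simp [Nat.add_mod]
    · simp

/-- flip the coins outside `A` -/
def flp {M : ℕ} (A : Finset (Fin M)) (b : Fin M → Bool) : Fin M → Bool :=
  fun e => if e ∈ A then b e else !b e

theorem flp_flp {M : ℕ} (A : Finset (Fin M)) (b : Fin M → Bool) : flp A (flp A b) = b := by
  funext e
  unfold flp
  split_ifs <;> simp

/-- the colouring of the positions by the two new bits -/
def col (M : ℕ) (b : Fin M → Bool) (A : Finset (Fin M)) (y : Fin (2 * M)) : Bool × Bool :=
  (pbit M b y, pbit M (flp A b) y)

/-- sizes of the four colour classes of the positions -/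
theorem card_col (M : ℕ) (b : Fin M → Bool) (A : Finset (Fin M)) (c : Bool × Bool) :
    Fintype.card {y // col M b A y = c} = if c.1 = c.2 then A.card else M - A.card := by
  obtain ⟨u, v⟩ := c
  rw [Fintype.card_subtype]
  have key : (Finset.univ.filter (fun y => col M b A y = (u, v))).card =
      (Finset.univ.filter (fun e : Fin M => (e ∈ A ↔ u = v))).card := by
    symm
    apply Finset.card_bij (fun e _ => pos M e (xor (b e) u))
    · intro e he
      simp only [Finset.mem_filter, Finset.mem_univ, true_and] at he ⊢
      unfold col
      rw [pbit_pos, pbit_pos]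
      unfold flp
      by_cases hA : e ∈ A
      · have huv : u = v := he.1 hA
        subst huv
        simp [hA]
      · have huv : u ≠ v := fun h => hA (he.2 h)
        simp only [hA, if_false]
        cases u <;> cases v <;> cases b e <;> simp_all
    · intro e1 _ e2 _ h12
      have := congrArg (edge M) h12
      rwa [edge_pos, edge_pos] at this
    · intro y hy
      simp only [Finset.mem_filter, Finset.mem_univ, true_and] at hy
      unfold col at hy
      rw [← pos_edge M y, pbit_pos, pbit_pos] at hy
      have h1 := (Prod.mk.inj hy).1
      have h2 := (Prod.mk.inj hy).2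
      refine ⟨edge M y, ?_, ?_⟩
      · simp only [Finset.mem_filter, Finset.mem_univ, true_and]
        unfold flp at h2
        by_cases hA : edge M y ∈ A
        · simp only [hA, if_true] at h2
          simp only [hA, true_iff]
          rw [← h1, ← h2]
        · simp only [hA, if_false] at h2
          simp only [hA, false_iff]
          intro huv
          rw [← huv, ← h1] at h2
          revert h2
          cases b (edge M y) <;> cases decide (M ≤ y.val) <;> simp
      · conv_rhs => rw [← pos_edge M y]
        congr 1
        rw [← h1]
        cases b (edge M y) <;> cases decide (M ≤ y.val) <;> simp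
  rw [key]
  by_cases huv : u = v
  · simp [huv]
  · simp only [huv, iff_false, if_false]
    rw [Finset.filter_not, Finset.filter_mem_eq_inter, Finset.univ_inter,
      Finset.card_sdiff_of_subset (Finset.subset_univ A), Finset.card_univ, Fintype.card_fin]

end Vale.Agent.P162.KL
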