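import Vale.Agent.P162.KL.HalfA1

/-!
# P162 : the two-copy channel of the new-bit channel and its marginals
-/

namespace Vale.Agent.P162.KL

open Finset Nat

/-- weight of the set `A` of edges on which the two transversals agree -/
noncomputable def wtA (M : ℕ) (A : Finset (Fin M)) : ℝ :=
  (1 / 2 ^ M) * (Vale.Agent.P162.pH M A.card / (M.choose A.card : ℝ))

theorem wtA_nonneg (M : ℕ) (A : Finset (Fin M)) : 0 ≤ wtA M A := by
  unfold wtA
  have := Vale.Agent.P162.pH_nonneg M A.card
  positivity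

theorem sum_wtA (M : ℕ) : ∑ A : Finset (Fin M), wtA M A = 1 / 2 ^ M := by
  unfold wtA
  rw [← Finset.mul_sum]
  have h1 : ∑ A : Finset (Fin M), Vale.Agent.P162.pH M A.card / (M.choose A.card : ℝ) = 1 := by
    have h := Finset.sum_powerset_apply_card
      (fun a => Vale.Agent.P162.pH M a / (M.choose a : ℝ)) (x := (Finset.univ : Finset (Fin M)))
    rw [Finset.powerset_univ] at h
    rw [h, Finset.card_univ, Fintype.card_fin, ← Vale.Agent.P162.sum_pH M]
    apply Finset.sum_congr rfl
    intro a ha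
    have ha' : a ≤ M := by
      have := Finset.mem_range.1 ha
      omega
    have hc : (M.choose a : ℝ) ≠ 0 := by
      exact_mod_cast (Nat.choose_pos ha').ne'
    rw [nsmul_eq_mul]
    field_simp
  rw [h1, mul_one]

/-- the two-copy channel: coins `b` for the first transversal, the second one agrees with the first
on the edges of `A` and is flipped elsewhere -/
noncomputable def twoChan (M : ℕ) (h : Equiv.Perm (Fin (2 * M)))
    (z : (Fin (2 * M) → Bool) × (Fin (2 * M) → Bool)) : ℝ :=
  ∑ b : Fin M → Bool, ∑ A : Finset (Fin M),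
    wtA M A * (if newBit M h b = z.1 ∧ newBit M h (flp A b) = z.2 then 1 else 0)

theorem bitChan_eq_sum (M : ℕ) (h : Equiv.Perm (Fin (2 * M))) (τ : Fin (2 * M) → Bool) :
    bitChan M h τ = ∑ b : Fin M → Bool, (1 / 2 ^ M) * (if newBit M h b = τ then (1 : ℝ) else 0) := by
  unfold bitChan
  rw [Finset.card_filter, Nat.cast_sum, Finset.sum_div]
  apply Finset.sum_congr rfl
  intro b _
  split_ifs <;> simp

theorem sum_ite_and_right {T : Type*} [Fintype T] [DecidableEq T] (P : Prop) [Decidable P] (x : T) :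
    ∑ τ : T, (if P ∧ x = τ then (1 : ℝ) else 0) = if P then 1 else 0 := by
  by_cases hP : P
  · simp [hP]
  · simp [hP]

theorem sum_ite_and_left {T : Type*} [Fintype T] [DecidableEq T] (P : Prop) [Decidable P] (x : T) :
    ∑ τ : T, (if x = τ ∧ P then (1 : ℝ) else 0) = if P then 1 else 0 := by
  by_cases hP : P
  · simp [hP]
  · simp [hP]

theorem twoChan_marg1 (M : ℕ) (h : Equiv.Perm (Fin (2 * M))) (τ1 : Fin (2 * M) → Bool) :
    ∑ τ2, twoChan M h (τ1, τ2) = bitChan M h τ1 := by
  unfold twoChan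
  rw [Finset.sum_comm, bitChan_eq_sum]
  apply Finset.sum_congr rfl
  intro b _
  rw [Finset.sum_comm]
  have h1 : ∀ A : Finset (Fin M), ∑ τ2 : Fin (2 * M) → Bool,
      wtA M A * (if newBit M h b = τ1 ∧ newBit M h (flp A b) = τ2 then (1 : ℝ) else 0) =
      wtA M A * (if newBit M h b = τ1 then (1 : ℝ) else 0) := by
    intro A
    rw [← Finset.mul_sum, sum_ite_and_right]
  simp only [h1]
  rw [← Finset.sum_mul, sum_wtA]

/-- flipping outside `A` as a permutation of the coin vectors -/
def flpEquiv {M : ℕ} (A : Finset (Fin M)) : (Fin M → Bool) ≃ (Fin M → Bool) :=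
  ⟨flp A, flp A, flp_flp A, flp_flp A⟩

theorem twoChan_marg2 (M : ℕ) (h : Equiv.Perm (Fin (2 * M))) (τ2 : Fin (2 * M) → Bool) :
    ∑ τ1, twoChan M h (τ1, τ2) = bitChan M h τ2 := by
  unfold twoChan
  rw [Finset.sum_comm]
  have h1 : ∀ b : Fin M → Bool, ∑ τ1 : Fin (2 * M) → Bool, ∑ A : Finset (Fin M),
      wtA M A * (if newBit M h b = τ1 ∧ newBit M h (flp A b) = τ2 then (1 : ℝ) else 0) =
      ∑ A : Finset (Fin M), wtA M A * (if newBit M h (flp A b) = τ2 then (1 : ℝ) else 0) := by
    intro b
    rw [Finset.sum_comm]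
    simp only [← Finset.mul_sum, sum_ite_and_left]
  simp only [h1]
  rw [Finset.sum_comm, bitChan_eq_sum]
  have h2 : ∀ A : Finset (Fin M), ∑ b : Fin M → Bool,
      wtA M A * (if newBit M h (flp A b) = τ2 then (1 : ℝ) else 0) =
      wtA M A * ∑ b : Fin M → Bool, (if newBit M h b = τ2 then (1 : ℝ) else 0) := by
    intro A
    rw [← Finset.mul_sum]
    congr 1
    exact Equiv.sum_comp (flpEquiv A) (fun b => if newBit M h b = τ2 then (1 : ℝ) else 0)
  simp only [h2]
  rw [← Finset.sum_mul, sum_wtA, Finset.mul_sum]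

theorem bitChan_isChan (M : ℕ) : IsChan (bitChan M) := by
  intro h
  refine ⟨fun τ => by unfold bitChan; positivity, ?_⟩
  simp only [bitChan_eq_sum]
  rw [Finset.sum_comm]
  simp only [← Finset.mul_sum, Finset.sum_ite_eq, Finset.mem_univ, if_true, mul_one]
  simp

theorem twoChan_isChan (M : ℕ) : IsChan (twoChan M) := by
  intro h
  refine ⟨fun z => ?_, ?_⟩
  · unfold twoChan
    refine Finset.sum_nonneg (fun b _ => Finset.sum_nonneg (fun A _ => ?_))
    have := wtA_nonneg M A
    split_ifs <;> simp [this]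
  · rw [Fintype.sum_prod_type]
    simp only [twoChan_marg1]
    exact (bitChan_isChan M h).2

end Vale.Agent.P162.KL
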