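import Vale.Agent.P162.KL.Chan

namespace Vale.Agent.P162.KL

open Finset Real

/-- total mass of the joint law -/
theorem sum_joint {Om A B : Type*} [Fintype Om] [Fintype A] [DecidableEq A] [Fintype B]
    (f : Om → A) (K : Om → B → ℝ) (hK : IsChan K) (μ : Om → ℝ) :
    ∑ ab, joint f K μ ab = ∑ ω, μ ω := by
  unfold joint
  rw [Fintype.sum_prod_type]
  simp only
  calc ∑ a, ∑ b, ∑ ω, (if f ω = a then μ ω * K ω b else 0)
      = ∑ a, ∑ ω, ∑ b, (if f ω = a then μ ω * K ω b else 0) :=
        Finset.sum_congr rfl (fun a _ => Finset.sum_comm)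
    _ = ∑ ω, ∑ a, ∑ b, (if f ω = a then μ ω * K ω b else 0) := Finset.sum_comm
    _ = ∑ ω, μ ω := by
        refine Finset.sum_congr rfl (fun ω _ => ?_)
        rw [Finset.sum_eq_single (f ω)]
        · simp only [if_true]
          rw [← Finset.mul_sum, (hK ω).2, mul_one]
        · intro a _ ha
          simp [Ne.symm ha]
        · intro h
          exact absurd (Finset.mem_univ _) h

/-- the joint laws under `μ` and under the uniform law form a `Pair` -/
theorem pair_joint {Om A B : Type*} [Fintype Om] [Fintype A] [DecidableEq A] [Fintype B]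
    (f : Om → A) (K : Om → B → ℝ) (hK : IsChan K) (μ : Om → ℝ) (hμ : IsLaw μ) :
    Pair (joint f K μ) (joint f K (unif Om)) := by
  have hne : Nonempty Om := by
    by_contra hcon
    have : IsEmpty Om := not_nonempty_iff.mp hcon
    have h1 := hμ.2
    simp at h1
  have hcard : (0 : ℝ) < Fintype.card Om := by
    exact_mod_cast Fintype.card_pos
  have hupos : ∀ ω : Om, 0 < unif Om ω := fun ω => by
    unfold unif
    positivity
  refine ⟨?_, ?_, ?_, ?_, ?_⟩
  · intro ab
    unfold joint
    refine Finset.sum_nonneg (fun ω _ => ?_)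
    split_ifs
    · exact mul_nonneg (hμ.1 ω) ((hK ω).1 _)
    · exact le_rfl
  · intro ab
    unfold joint
    refine Finset.sum_nonneg (fun ω _ => ?_)
    split_ifs
    · exact mul_nonneg (hupos ω).le ((hK ω).1 _)
    · exact le_rfl
  · intro ab h0
    unfold joint at h0 ⊢
    have hz := (Finset.sum_eq_zero_iff_of_nonneg (fun ω _ => by
      split_ifs
      · exact mul_nonneg (hupos ω).le ((hK ω).1 _)
      · exact le_rfl)).1 h0
    refine Finset.sum_eq_zero (fun ω hω => ?_)
    have h1 := hz ω hω
    split_ifs with hf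
    · rw [if_pos hf] at h1
      have h2 : K ω ab.2 = 0 := by
        rcases mul_eq_zero.mp h1 with h | h
        · exact absurd h (hupos ω).ne'
        · exact h
      rw [h2, mul_zero]
    · rfl
  · rw [sum_joint f K hK, hμ.2]
  · rw [sum_joint f K hK]
    unfold unif
    rw [Finset.sum_const, Finset.card_univ, nsmul_eq_mul]
    field_simp

end Vale.Agent.P162.KL
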