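import Vale.Agent.P162.KL.BL
import Vale.Agent.P162.KL.PairLaw

/-!
P162 : LEMMA BL for the pair law of two even subsets with even intersection, explicit error
-/

namespace Vale.Agent.P162

open Finset

lemma forty_le_two_pow (k : ℕ) (hk : 16 ≤ k) : 40 * (2 * k + 1) ≤ 2 ^ k := by
  induction k, hk using Nat.le_induction with
  | base => norm_num
  | succ n hn ih =>
    rw [pow_succ]
    omega

lemma eps_scalar (M k : ℕ) (hk16 : 16 ≤ k) (h1 : 2 * k ≤ M) (h2 : M ≤ 2 * k + 1) :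
    (2 / (2 : ℝ) ^ M + 2 / (2 : ℝ) ^ (2 * M)) * (2 : ℝ) ^ k
      + ((2 + 8 / (2 : ℝ) ^ (2 * M)) + 1 / 2) / (Real.log ((2 : ℝ) ^ k) - 1) ≤ 9 / M := by
  obtain ⟨P, hP⟩ : ∃ P : ℝ, P = (2 : ℝ) ^ k := ⟨_, rfl⟩
  have hPpos : 0 < P := by rw [hP]; positivity
  have hkR : (16 : ℝ) ≤ k := by exact_mod_cast hk16
  have hMpos : (0 : ℝ) < M := by
    have : 0 < M := by omega
    exact_mod_cast this
  have hMle : (M : ℝ) ≤ 2 * k + 1 := by exact_mod_cast h2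
  have hPP : P * P ≤ (2 : ℝ) ^ M := by
    rw [hP, ← pow_add]
    exact pow_le_pow_right₀ (by norm_num) (by omega)
  have hM2 : (2 : ℝ) ^ M ≤ (2 : ℝ) ^ (2 * M) := pow_le_pow_right₀ (by norm_num) (by omega)
  have h2M : 0 < (2 : ℝ) ^ M := by positivity
  have h22M : 0 < (2 : ℝ) ^ (2 * M) := by positivity
  have h80 : (80 : ℝ) ≤ (2 : ℝ) ^ (2 * M) := by
    calc (80 : ℝ) ≤ (2 : ℝ) ^ 7 := by norm_num
      _ ≤ (2 : ℝ) ^ (2 * M) := pow_le_pow_right₀ (by norm_num) (by omega)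
  have hP40 : 40 * (2 * (k : ℝ) + 1) ≤ P := by
    rw [hP]
    exact_mod_cast forty_le_two_pow k hk16
  -- first term
  have t1 : (2 / (2 : ℝ) ^ M + 2 / (2 : ℝ) ^ (2 * M)) * P ≤ (1 / 10) / (2 * (k : ℝ) + 1) := by
    have a1 : 2 / (2 : ℝ) ^ (2 * M) ≤ 2 / (2 : ℝ) ^ M :=
      div_le_div_of_nonneg_left (by norm_num) h2M hM2
    have a2 : 2 / (2 : ℝ) ^ M ≤ 2 / (P * P) :=
      div_le_div_of_nonneg_left (by norm_num) (by positivity) hPP
    have a3 : (2 / (2 : ℝ) ^ M + 2 / (2 : ℝ) ^ (2 * M)) * P ≤ (2 / (P * P) + 2 / (P * P)) * P :=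
      mul_le_mul_of_nonneg_right (by linarith) hPpos.le
    have a4 : (2 / (P * P) + 2 / (P * P)) * P = 4 / P := by
      field_simp
      norm_num
    have a5 : 4 / P ≤ (1 / 10) / (2 * (k : ℝ) + 1) := by
      rw [div_le_div_iff₀ hPpos (by positivity)]
      linarith
    linarith
  -- second term
  have hlog : Real.log P = k * Real.log 2 := by rw [hP, Real.log_pow]
  have hl2 : (0.6931 : ℝ) < Real.log 2 := by
    have := Real.log_two_gt_d9
    linarith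
  have hden : 0.6931 * (k : ℝ) - 1 ≤ Real.log P - 1 := by
    rw [hlog]
    nlinarith
  have hden0 : 0 < 0.6931 * (k : ℝ) - 1 := by linarith
  have t2 : ((2 + 8 / (2 : ℝ) ^ (2 * M)) + 1 / 2) / (Real.log P - 1)
      ≤ (89 / 10) / (2 * (k : ℝ) + 1) := by
    have b1 : 8 / (2 : ℝ) ^ (2 * M) ≤ 1 / 10 := by
      rw [div_le_div_iff₀ h22M (by norm_num)]
      linarith
    have b2 : ((2 + 8 / (2 : ℝ) ^ (2 * M)) + 1 / 2) / (Real.log P - 1)
        ≤ (26 / 10) / (0.6931 * (k : ℝ) - 1) := by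
      apply div_le_div₀ (by norm_num) (by linarith) hden0 hden
    have b3 : (26 / 10) / (0.6931 * (k : ℝ) - 1) ≤ (89 / 10) / (2 * (k : ℝ) + 1) := by
      rw [div_le_div_iff₀ hden0 (by positivity)]
      linarith
    linarith
  have t3 : (1 / 10) / (2 * (k : ℝ) + 1) + (89 / 10) / (2 * (k : ℝ) + 1) = 9 / (2 * (k : ℝ) + 1) := by
    rw [← add_div]; norm_num
  have t4 : 9 / (2 * (k : ℝ) + 1) ≤ 9 / (M : ℝ) :=
    div_le_div_of_nonneg_left (by norm_num) hMpos hMle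
  rw [← hP]
  linarith

variable {S : Type*} [Fintype S] [DecidableEq S]

/-- LEMMA BL for the pair law, with the explicit error `9 / M`, `|S| = 2 M`, `M ≥ 32`. -/
theorem pair_BL (M : ℕ) (hM : 32 ≤ M) (hcard : Fintype.card S = 2 * M)
    (Q : Ev S → Ev S → ℝ) (q1 q2 : Ev S → ℝ) (hQ0 : ∀ x y, 0 ≤ Q x y)
    (hac : ∀ x y, Rw (x, y) = 0 → Q x y = 0)
    (hq1 : ∀ x, q1 x = ∑ y, Q x y) (hq2 : ∀ y, q2 y = ∑ x, Q x y)
    (hQs : ∑ x, ∑ y, Q x y = 1) :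
    (1 - 9 / (M : ℝ)) * (KL.kl q1 nuw + KL.kl q2 nuw) ≤
      ∑ x, ∑ y, Q x y * Real.log (Q x y / Rw (x, y)) := by
  have hne : Nonempty S := by
    apply Fintype.card_pos_iff.mp
    omega
  have hN : Even (Fintype.card S) := by rw [hcard]; exact even_two_mul M
  obtain ⟨k, hk⟩ : ∃ k, k = M / 2 := ⟨_, rfl⟩
  have hk16 : 16 ≤ k := by omega
  have hk1 : 2 * k ≤ M := by omega
  have hk2 : M ≤ 2 * k + 1 := by omega
  have hTT : TT S = (2 : ℝ) ^ (2 * M) := by unfold TT; rw [hcard]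
  have hsq : Real.sqrt (TT S) = (2 : ℝ) ^ M := by
    rw [hTT, mul_comm, pow_mul]
    exact Real.sqrt_sq (by positivity)
  obtain ⟨rho, hrho⟩ : ∃ rho, rho = 2 / Real.sqrt (TT S) + 2 / TT S := ⟨_, rfl⟩
  have hrho0 : 0 ≤ rho := by
    rw [hrho, hsq, hTT]; positivity
  have hL6 : (6 : ℝ) ≤ (2 : ℝ) ^ k := by
    calc (6 : ℝ) ≤ (2 : ℝ) ^ 16 := by norm_num
      _ ≤ (2 : ℝ) ^ k := pow_le_pow_right₀ (by norm_num) hk16
  have hw0 : (0 : ℝ) ≤ 2 + 8 / TT S := by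
    have := TT_pos (S := S)
    positivity
  have hcorr : ∀ (a b : Ev S → ℝ), ∑ x, nuw x * a x = 0 → ∑ y, nuw y * b y = 0 →
      ∑ x, ∑ y, Rw (x, y) * (a x * b y) ≤
        rho / 2 * (∑ x, nuw x * a x ^ 2 + ∑ y, nuw y * b y ^ 2) := by
    intro a b ha hb
    have h1 := Rw_corr hN a b ha hb
    rw [← hrho] at h1
    have hu : 0 ≤ ∑ x, nuw x * a x ^ 2 :=
      Finset.sum_nonneg (fun x _ => mul_nonneg (nuw_pos x).le (sq_nonneg _))
    have hv : 0 ≤ ∑ y, nuw y * b y ^ 2 :=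
      Finset.sum_nonneg (fun x _ => mul_nonneg (nuw_pos x).le (sq_nonneg _))
    obtain ⟨u, hu'⟩ : ∃ u, u = ∑ x, nuw x * a x ^ 2 := ⟨_, rfl⟩
    obtain ⟨v, hv'⟩ : ∃ v, v = ∑ y, nuw y * b y ^ 2 := ⟨_, rfl⟩
    rw [← hu'] at h1 hu ⊢
    rw [← hv'] at h1 hv ⊢
    have h2 : 2 * (Real.sqrt u * Real.sqrt v) ≤ u + v := by
      have h3 := sq_nonneg (Real.sqrt u - Real.sqrt v)
      have h4 := Real.sq_sqrt hu
      have h5 := Real.sq_sqrt hv
      nlinarith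
    have h6 : ∑ x, ∑ y, Rw (x, y) * (a x * b y) = ∑ x : Ev S, ∑ y : Ev S, Rw (x, y) * a x * b y := by
      refine Finset.sum_congr rfl fun x _ => Finset.sum_congr rfl fun y _ => ?_
      ring
    rw [h6]
    calc ∑ x : Ev S, ∑ y : Ev S, Rw (x, y) * a x * b y
        ≤ rho * Real.sqrt u * Real.sqrt v := h1
      _ = rho / 2 * (2 * (Real.sqrt u * Real.sqrt v)) := by ring
      _ ≤ rho / 2 * (u + v) := mul_le_mul_of_nonneg_left h2 (by positivity)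
  have hRs : ∑ x : Ev S, ∑ y : Ev S, Rw (x, y) = 1 := by
    have := sum_Rw (S := S) hN
    rwa [Fintype.sum_prod_type] at this
  have hBL := KL.lemma_BL (fun x y => Rw (x, y)) Q nuw q1 nuw q2 (2 + 8 / TT S) rho ((2 : ℝ) ^ k)
    (fun x y => Rw_nonneg (x, y)) hQ0 hac (fun x => (sum_Rw_right x).symm)
    (fun y => (sum_Rw_left y).symm) hq1 hq2 hRs hQs
    (fun x y => by
      have := Rw_le x y
      linarith [this, mul_assoc (2 + 8 / TT S) (nuw x) (nuw y)]) hw0 hrho0 hcorr hL6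
  have heps := eps_scalar M k hk16 hk1 hk2
  rw [← hTT, ← hsq, ← hrho] at heps
  -- nonnegativity of the two divergences
  have hq1nn : ∀ x, 0 ≤ q1 x := fun x => by rw [hq1 x]; exact Finset.sum_nonneg (fun y _ => hQ0 x y)
  have hq2nn : ∀ y, 0 ≤ q2 y := fun y => by rw [hq2 y]; exact Finset.sum_nonneg (fun x _ => hQ0 x y)
  have hq1s : ∑ x, q1 x = 1 := by simp only [hq1]; exact hQs
  have hq2s : ∑ y, q2 y = 1 := by simp only [hq2]; rw [Finset.sum_comm]; exact hQs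
  have hD1 : 0 ≤ KL.kl q1 nuw :=
    KL.kl_nonneg q1 nuw hq1nn (fun x => (nuw_pos x).le)
      (fun x hx => absurd hx (nuw_pos x).ne') (by rw [hq1s, sum_nuw hN])
  have hD2 : 0 ≤ KL.kl q2 nuw :=
    KL.kl_nonneg q2 nuw hq2nn (fun x => (nuw_pos x).le)
      (fun x hx => absurd hx (nuw_pos x).ne') (by rw [hq2s, sum_nuw hN])
  have hD : 0 ≤ KL.kl q1 nuw + KL.kl q2 nuw := add_nonneg hD1 hD2
  refine le_trans ?_ hBL
  apply mul_le_mul_of_nonneg_right _ hD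
  linarith

end Vale.Agent.P162
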