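import Vale.Agent.P162.KL.Prod
import Vale.Agent.P162.KL.EquivS

namespace Vale.Agent.P162.KL

open Finset Real

/-- tensorisation of SDPI, `R` equal factors -/
theorem SDPI_pi {A B : Type*} [Fintype A] [Fintype B] [DecidableEq A] [DecidableEq B]
    (K : A → B → ℝ) (hK : IsChan K) (η : ℝ) (s : SDPI K η) (R : ℕ) :
    SDPI (fun (a : Fin R → A) (b : Fin R → B) => ∏ i, K (a i) (b i)) η :=
  Tz.SDPI_pi_fin hK s R

end Vale.Agent.P162.KL
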