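import Vale.Agent.P162.KL.Tensor

namespace Vale.Agent.P162.KL

open Finset Real

/-- tensorisation of SDPI, two factors -/
theorem SDPI_prod {A1 A2 B1 B2 : Type*} [Fintype A1] [Fintype A2] [Fintype B1] [Fintype B2]
    (K1 : A1 → B1 → ℝ) (K2 : A2 → B2 → ℝ) (h1 : IsChan K1) (h2 : IsChan K2) (η : ℝ)
    (s1 : SDPI K1 η) (s2 : SDPI K2 η) :
    SDPI (fun (a : A1 × A2) (b : B1 × B2) => K1 a.1 b.1 * K2 a.2 b.2) η :=
  Tz.SDPI_prod h1 h2 s1 s2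

end Vale.Agent.P162.KL
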