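import Vale.Agent.P162.KL.Tensor

/-!
# P162 : tensorisation of the three-channel inequality `D(Ka) + D(Kb) ≤ D(Kc) + th D(input)`
-/

namespace Vale.Agent.P162.KL.SBT

open Finset Real Vale.Agent.P162.KL.Tz

/-- scaled divergence of the output of `K` for the (unnormalised) input weight `g` -/
noncomputable def sd {A X : Type*} [Fintype A] [Fintype X] (K : A → X → ℝ) (g : A → ℝ) : ℝ :=
  ∑ x, push K g x * Real.log (push K g x / ((∑ a, g a) * push K (unif A) x))

/-- scaled divergence of the (unnormalised) input weight `g` -/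
noncomputable def sd0 {A : Type*} [Fintype A] (g : A → ℝ) : ℝ :=
  ∑ a, g a * Real.log (g a / ((∑ a, g a) * unif A a))

/-- the three-channel inequality -/
def SB3 {A X Y Z : Type*} [Fintype A] [Fintype X] [Fintype Y] [Fintype Z] (Ka : A → X → ℝ)
    (Kb : A → Y → ℝ) (Kc : A → Z → ℝ) (th : ℝ) : Prop :=
  ∀ p : A → ℝ, IsLaw p → kl (push Ka p) (push Ka (unif A)) + kl (push Kb p) (push Kb (unif A)) ≤
    kl (push Kc p) (push Kc (unif A)) + th * kl p (unif A)

/-- mixing decreases the conditional divergence -/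
theorem cond_mix {I J Y : Type*} [Fintype I] [Fintype J] [Fintype Y] (L : I → J → ℝ)
    (hL : IsChan L) (F : I → Y → ℝ) (M : I → ℝ) (r : Y → ℝ) (hF : ∀ i y, 0 ≤ F i y)
    (hM : ∀ i, 0 ≤ M i) (hr : ∀ y, 0 ≤ r y) (hac : ∀ i y, M i * r y = 0 → F i y = 0) :
    ∑ j, ∑ y, (∑ i, L i j * F i y) *
        Real.log ((∑ i, L i j * F i y) / ((∑ i, L i j * M i) * r y)) ≤
      ∑ i, ∑ y, F i y * Real.log (F i y / (M i * r y)) := by
  have hls : ∀ j y, (∑ i, L i j * F i y) *
        Real.log ((∑ i, L i j * F i y) / ((∑ i, L i j * M i) * r y)) ≤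
      ∑ i, L i j * (F i y * Real.log (F i y / (M i * r y))) := by
    intro j y
    have h := log_sum Finset.univ (fun i => L i j * F i y) (fun i => L i j * (M i * r y))
      (fun i _ => mul_nonneg ((hL i).1 j) (hF i y))
      (fun i _ => mul_nonneg ((hL i).1 j) (mul_nonneg (hM i) (hr y))) ?_
    · have e1 : ∑ i, L i j * (M i * r y) = (∑ i, L i j * M i) * r y := by
        rw [Finset.sum_mul]
        apply Finset.sum_congr rfl
        intro i _
        ring
      rw [e1] at h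
      refine le_trans h (le_of_eq ?_)
      apply Finset.sum_congr rfl
      intro i _
      by_cases hk : L i j = 0
      · simp [hk]
      · rw [mul_div_mul_left _ _ hk, mul_assoc]
    · intro i _ hz
      rcases mul_eq_zero.1 hz with h0 | h0
      · rw [h0, zero_mul]
      · rw [hac i y h0, mul_zero]
  calc ∑ j, ∑ y, (∑ i, L i j * F i y) *
        Real.log ((∑ i, L i j * F i y) / ((∑ i, L i j * M i) * r y))
      ≤ ∑ j, ∑ y, ∑ i, L i j * (F i y * Real.log (F i y / (M i * r y))) :=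
        Finset.sum_le_sum (fun j _ => Finset.sum_le_sum (fun y _ => hls j y))
    _ = ∑ i, ∑ y, F i y * Real.log (F i y / (M i * r y)) := by
        have e : ∀ j, ∑ y, ∑ i, L i j * (F i y * Real.log (F i y / (M i * r y)))
            = ∑ i, L i j * ∑ y, (F i y * Real.log (F i y / (M i * r y))) := by
          intro j
          rw [Finset.sum_comm]
          apply Finset.sum_congr rfl
          intro i _
          rw [Finset.mul_sum]
        simp only [e]
        rw [Finset.sum_comm]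
        apply Finset.sum_congr rfl
        intro i _
        rw [← Finset.sum_mul, (hL i).2, one_mul]

section mix

variable {I J A X : Type*} [Fintype I] [Fintype J] [Fintype A] [Fintype X]

theorem sum_mix (L : I → J → ℝ) (g : I → A → ℝ) (j : J) :
    ∑ a, ∑ i, L i j * g i a = ∑ i, L i j * ∑ a, g i a := by
  rw [Finset.sum_comm]
  apply Finset.sum_congr rfl
  intro i _
  rw [Finset.mul_sum]

theorem push_mix (L : I → J → ℝ) (K : A → X → ℝ) (g : I → A → ℝ) (j : J) (x : X) :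
    push K (fun a => ∑ i, L i j * g i a) x = ∑ i, L i j * push K (g i) x := by
  unfold push
  simp only [Finset.sum_mul, Finset.mul_sum]
  rw [Finset.sum_comm]
  apply Finset.sum_congr rfl
  intro i _
  apply Finset.sum_congr rfl
  intro a _
  ring

theorem sd_mix [Nonempty A] (L : I → J → ℝ) (hL : IsChan L) (K : A → X → ℝ)
    (hK : ∀ a x, 0 ≤ K a x) (g : I → A → ℝ) (hg : ∀ i a, 0 ≤ g i a) :
    ∑ j, sd K (fun a => ∑ i, L i j * g i a) ≤ ∑ i, sd K (g i) := by
  have h := cond_mix L hL (fun i x => push K (g i) x) (fun i => ∑ a, g i a) (push K (unif A))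
    (fun i x => push_nonneg hK (hg i) x) (fun i => Finset.sum_nonneg (fun a _ => hg i a))
    (push_nonneg hK unif_nonneg) ?_
  · refine le_trans (le_of_eq ?_) h
    apply Finset.sum_congr rfl
    intro j _
    unfold sd
    simp only [push_mix, sum_mix]
  · intro i x hz
    rcases mul_eq_zero.1 hz with h3 | h3
    · have hz2 : ∀ a, g i a = 0 := fun a =>
        (Finset.sum_eq_zero_iff_of_nonneg (fun a _ => hg i a)).1 h3 a (Finset.mem_univ a)
      unfold push
      apply Finset.sum_eq_zero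
      intro a _
      rw [hz2 a, zero_mul]
    · unfold push
      apply Finset.sum_eq_zero
      intro a _
      rw [col_zero_of_push_unif hK h3 a, mul_zero]

theorem sd0_mix [Nonempty A] (L : I → J → ℝ) (hL : IsChan L) (g : I → A → ℝ)
    (hg : ∀ i a, 0 ≤ g i a) :
    ∑ j, sd0 (fun a => ∑ i, L i j * g i a) ≤ ∑ i, sd0 (g i) := by
  have h := cond_mix L hL g (fun i => ∑ a, g i a) (unif A) hg
    (fun i => Finset.sum_nonneg (fun a _ => hg i a)) unif_nonneg ?_
  · refine le_trans (le_of_eq ?_) h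
    apply Finset.sum_congr rfl
    intro j _
    unfold sd0
    simp only [sum_mix]
  · intro i a hz
    rcases mul_eq_zero.1 hz with h3 | h3
    · exact (Finset.sum_eq_zero_iff_of_nonneg (fun a _ => hg i a)).1 h3 a (Finset.mem_univ a)
    · exact absurd h3 (unif_pos a).ne'

end mix

section scaled

variable {A X Y Z : Type*} [Fintype A] [Fintype X] [Fintype Y] [Fintype Z]

theorem sd_zero (K : A → X → ℝ) (g : A → ℝ) (hz : ∀ a, g a = 0) : sd K g = 0 := by
  have hpz : ∀ b, push K g b = 0 := fun b => by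
    unfold push
    apply Finset.sum_eq_zero
    intro a _
    rw [hz a, zero_mul]
  simp [sd, hpz]

theorem sd_scale (K : A → X → ℝ) (g : A → ℝ) (m : ℝ) (hm : m = ∑ a, g a) (hpos : 0 < m) :
    sd K g = m * kl (push K (fun a => g a / m)) (push K (unif A)) := by
  have e1 : ∀ b, push K g b = m * push K (fun a => g a / m) b := by
    intro b
    unfold push
    rw [Finset.mul_sum]
    apply Finset.sum_congr rfl
    intro a _
    field_simp
  unfold sd kl
  rw [Finset.mul_sum, ← hm]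
  apply Finset.sum_congr rfl
  intro b _
  rw [e1 b, mul_div_mul_left _ _ hpos.ne']
  ring

theorem sd0_scale (g : A → ℝ) (m : ℝ) (hm : m = ∑ a, g a) (hpos : 0 < m) :
    sd0 g = m * kl (fun a => g a / m) (unif A) := by
  unfold sd0 kl
  rw [Finset.mul_sum, ← hm]
  apply Finset.sum_congr rfl
  intro a _
  have : g a / (m * unif A a) = g a / m / unif A a := by rw [div_div]
  rw [this]
  field_simp

theorem SB3_scaled {Ka : A → X → ℝ} {Kb : A → Y → ℝ} {Kc : A → Z → ℝ} {th : ℝ}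
    (h : SB3 Ka Kb Kc th) (g : A → ℝ) (hg : ∀ a, 0 ≤ g a) :
    sd Ka g + sd Kb g ≤ sd Kc g + th * sd0 g := by
  set m := ∑ a, g a with hm
  have hm0 : 0 ≤ m := Finset.sum_nonneg (fun a _ => hg a)
  rcases hm0.eq_or_lt with h0 | hpos
  · have hz : ∀ a, g a = 0 := fun a =>
      (Finset.sum_eq_zero_iff_of_nonneg (fun a _ => hg a)).1 h0.symm a (Finset.mem_univ a)
    rw [sd_zero _ _ hz, sd_zero _ _ hz, sd_zero _ _ hz]
    simp [sd0, hz]
  · have hp : IsLaw (fun a => g a / m) := by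
      refine ⟨fun a => div_nonneg (hg a) hm0, ?_⟩
      rw [← Finset.sum_div, ← hm, div_self hpos.ne']
    have h1 := h _ hp
    rw [sd_scale Ka g m hm hpos, sd_scale Kb g m hm hpos, sd_scale Kc g m hm hpos,
      sd0_scale g m hm hpos]
    have := mul_le_mul_of_nonneg_left h1 hm0
    linarith

end scaled

section chain

variable {A1 A2 X1 X2 : Type*} [Fintype A1] [Fintype A2] [Fintype X1] [Fintype X2]

theorem kl_prod_chain (K1 : A1 → X1 → ℝ) (K2 : A2 → X2 → ℝ) (hK1 : IsChan K1) (hK2 : IsChan K2)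
    (p : A1 × A2 → ℝ) (hp : IsLaw p) :
    kl (push (prodChan K1 K2) p) (push (prodChan K1 K2) (unif (A1 × A2))) =
      kl (push K1 (fun a1 => ∑ a2, p (a1, a2))) (push K1 (unif A1)) +
        ∑ x1, sd K2 (fun a2 => ∑ a1, K1 a1 x1 * p (a1, a2)) := by
  have hne : Nonempty (A1 × A2) := (IsLaw.nonempty hp)
  have hne1 : Nonempty A1 := hne.map Prod.fst
  have hne2 : Nonempty A2 := hne.map Prod.snd
  have hk1 : ∀ a b, 0 ≤ K1 a b := fun a b => (hK1 a).1 b
  have hk2 : ∀ a b, 0 ≤ K2 a b := fun a b => (hK2 a).1 b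
  set p1 : A1 → ℝ := fun a1 => ∑ a2, p (a1, a2) with hp1
  set g : X1 → A2 → ℝ := fun x1 a2 => ∑ a1, K1 a1 x1 * p (a1, a2) with hg
  set q : X1 × X2 → ℝ := push (prodChan K1 K2) p with hq
  have hq0 : ∀ z, 0 ≤ q z := (push_law (prodChan_isChan hK1 hK2) hp).1
  have hq2 : ∀ x1 x2, q (x1, x2) = push K2 (g x1) x2 := by
    intro x1 x2
    simp only [hq, hg, push, prodChan]
    rw [Fintype.sum_prod_type, Finset.sum_comm]
    apply Finset.sum_congr rfl
    intro a2 _
    rw [Finset.sum_mul]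
    apply Finset.sum_congr rfl
    intro a1 _
    ring
  have hmass : ∀ x1, ∑ a2, g x1 a2 = push K1 p1 x1 := by
    intro x1
    simp only [hg, hp1, push]
    rw [Finset.sum_comm]
    apply Finset.sum_congr rfl
    intro a1 _
    rw [← Finset.mul_sum, mul_comm]
  have hq1 : ∀ x1, ∑ x2, q (x1, x2) = push K1 p1 x1 := by
    intro x1
    simp only [hq2]
    rw [push_sum hK2, hmass]
  have hc := chain_prod q (push K1 (unif A1)) (push K2 (unif A2)) hq0 ?_ ?_
  · unfold kl
    simp only [push_unif_prod]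
    rw [hc]
    simp only [hq1]
    congr 1
    apply Finset.sum_congr rfl
    intro x1 _
    unfold sd
    simp only [hq2]
    rw [← hmass x1]
  · intro x1 hx1
    rw [hq1]
    unfold push
    apply Finset.sum_eq_zero
    intro a1 _
    rw [col_zero_of_push_unif hk1 hx1 a1, mul_zero]
  · intro x1 x2 hx2
    rw [hq2]
    unfold push
    apply Finset.sum_eq_zero
    intro a2 _
    rw [col_zero_of_push_unif hk2 hx2 a2, mul_zero]

theorem kl_in_chain (p : A1 × A2 → ℝ) (hp : IsLaw p) :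
    kl p (unif (A1 × A2)) =
      kl (fun a1 => ∑ a2, p (a1, a2)) (unif A1) + ∑ a1, sd0 (fun a2 => p (a1, a2)) := by
  have hne : Nonempty (A1 × A2) := (IsLaw.nonempty hp)
  have hne1 : Nonempty A1 := hne.map Prod.fst
  have hne2 : Nonempty A2 := hne.map Prod.snd
  have hc := chain_prod p (unif A1) (unif A2) hp.1 ?_ ?_
  · unfold kl sd0
    simp only [unif_prod]
    rw [hc]
  · intro a1 h
    exact absurd h (unif_pos a1).ne'
  · intro a1 a2 h
    exact absurd h (unif_pos a2).ne'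

end chain

section prod

variable {A1 A2 X1 X2 Y1 Y2 Z1 Z2 : Type*} [Fintype A1] [Fintype A2] [Fintype X1] [Fintype X2]
  [Fintype Y1] [Fintype Y2] [Fintype Z1] [Fintype Z2]

/-- **Tensorisation (two factors)**; in the first factor the outputs of `Ka1`, `Kb1` are
degradations of the output of `Kc1`. -/
theorem SB3_prod {Ka1 : A1 → X1 → ℝ} {Kb1 : A1 → Y1 → ℝ} {Kc1 : A1 → Z1 → ℝ}
    {Ka2 : A2 → X2 → ℝ} {Kb2 : A2 → Y2 → ℝ} {Kc2 : A2 → Z2 → ℝ} {th : ℝ} (hth : 0 ≤ th)
    (hKa1 : IsChan Ka1) (hKb1 : IsChan Kb1) (hKc1 : IsChan Kc1)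
    (hKa2 : IsChan Ka2) (hKb2 : IsChan Kb2) (hKc2 : IsChan Kc2)
    (Da : Z1 → X1 → ℝ) (hDa : IsChan Da) (hA : ∀ a x, Ka1 a x = ∑ z, Da z x * Kc1 a z)
    (Db : Z1 → Y1 → ℝ) (hDb : IsChan Db) (hB : ∀ a y, Kb1 a y = ∑ z, Db z y * Kc1 a z)
    (h1 : SB3 Ka1 Kb1 Kc1 th) (h2 : SB3 Ka2 Kb2 Kc2 th) :
    SB3 (prodChan Ka1 Ka2) (prodChan Kb1 Kb2) (prodChan Kc1 Kc2) th := by
  intro p hp
  have hne : Nonempty (A1 × A2) := (IsLaw.nonempty hp)
  have hne1 : Nonempty A1 := hne.map Prod.fst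
  have hne2 : Nonempty A2 := hne.map Prod.snd
  set p1 : A1 → ℝ := fun a1 => ∑ a2, p (a1, a2) with hp1
  have hp1law : IsLaw p1 := by
    refine ⟨fun a1 => Finset.sum_nonneg (fun a2 _ => hp.1 _), ?_⟩
    rw [← hp.2, Fintype.sum_prod_type]
  set gC : Z1 → A2 → ℝ := fun z a2 => ∑ a1, Kc1 a1 z * p (a1, a2) with hgC
  have hgC0 : ∀ z a2, 0 ≤ gC z a2 := fun z a2 =>
    Finset.sum_nonneg (fun a1 _ => mul_nonneg ((hKc1 a1).1 z) (hp.1 _))
  rw [kl_prod_chain Ka1 Ka2 hKa1 hKa2 p hp, kl_prod_chain Kb1 Kb2 hKb1 hKb2 p hp,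
    kl_prod_chain Kc1 Kc2 hKc1 hKc2 p hp, kl_in_chain p hp]
  have eA : ∀ x1, (fun a2 => ∑ a1, Ka1 a1 x1 * p (a1, a2)) =
      fun a2 => ∑ z, Da z x1 * gC z a2 := by
    intro x1
    funext a2
    simp only [hA, hgC, Finset.sum_mul, Finset.mul_sum]
    rw [Finset.sum_comm]
    apply Finset.sum_congr rfl
    intro z _
    apply Finset.sum_congr rfl
    intro a1 _
    ring
  have eB : ∀ y1, (fun a2 => ∑ a1, Kb1 a1 y1 * p (a1, a2)) =
      fun a2 => ∑ z, Db z y1 * gC z a2 := by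
    intro y1
    funext a2
    simp only [hB, hgC, Finset.sum_mul, Finset.mul_sum]
    rw [Finset.sum_comm]
    apply Finset.sum_congr rfl
    intro z _
    apply Finset.sum_congr rfl
    intro a1 _
    ring
  have sA : ∑ x1, sd Ka2 (fun a2 => ∑ a1, Ka1 a1 x1 * p (a1, a2)) ≤ ∑ z, sd Ka2 (gC z) := by
    simp only [eA]
    exact sd_mix Da hDa Ka2 (fun a x => (hKa2 a).1 x) gC hgC0
  have sB : ∑ y1, sd Kb2 (fun a2 => ∑ a1, Kb1 a1 y1 * p (a1, a2)) ≤ ∑ z, sd Kb2 (gC z) := by
    simp only [eB]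
    exact sd_mix Db hDb Kb2 (fun a x => (hKb2 a).1 x) gC hgC0
  have sC : ∑ z, sd0 (gC z) ≤ ∑ a1, sd0 (fun a2 => p (a1, a2)) :=
    sd0_mix Kc1 hKc1 (fun a1 a2 => p (a1, a2)) (fun a1 a2 => hp.1 _)
  have s2 : ∑ z, sd Ka2 (gC z) + ∑ z, sd Kb2 (gC z) ≤
      ∑ z, sd Kc2 (gC z) + th * ∑ z, sd0 (gC z) := by
    rw [← Finset.sum_add_distrib, Finset.mul_sum, ← Finset.sum_add_distrib]
    exact Finset.sum_le_sum (fun z _ => SB3_scaled h2 (gC z) (hgC0 z))
  have s1 := h1 p1 hp1law
  have s3 := mul_le_mul_of_nonneg_left sC hth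
  linarith

end prod

section equiv

variable {A A' X X' Y Y' Z Z' : Type*} [Fintype A] [Fintype A'] [Fintype X] [Fintype X']
  [Fintype Y] [Fintype Y'] [Fintype Z] [Fintype Z']

theorem kl_push_equiv (eA : A ≃ A') (e : X ≃ X') (K : A → X → ℝ) (K' : A' → X' → ℝ)
    (h : ∀ a x, K' (eA a) (e x) = K a x) (p : A' → ℝ) :
    kl (push K' p) (push K' (unif A')) = kl (push K (fun a => p (eA a))) (push K (unif A)) := by
  have hcard : Fintype.card A = Fintype.card A' := Fintype.card_congr eA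
  have e1 : ∀ (f : A' → ℝ) (x : X), push K' f (e x) = push K (fun a => f (eA a)) x := by
    intro f x
    unfold push
    rw [← Equiv.sum_comp eA]
    simp only [h]
  have e2 : (fun a => unif A' (eA a)) = unif A := by
    funext a
    simp [unif, hcard]
  unfold kl
  rw [← Equiv.sum_comp e]
  apply Finset.sum_congr rfl
  intro x _
  rw [e1, e1, e2]

theorem kl_in_equiv (eA : A ≃ A') (p : A' → ℝ) :
    kl p (unif A') = kl (fun a => p (eA a)) (unif A) := by
  have hcard : Fintype.card A = Fintype.card A' := Fintype.card_congr eA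
  unfold kl
  rw [← Equiv.sum_comp eA]
  apply Finset.sum_congr rfl
  intro a _
  simp [unif, hcard]

/-- renaming of the input and of the three outputs -/
theorem SB3_equiv (eA : A ≃ A') (eX : X ≃ X') (eY : Y ≃ Y') (eZ : Z ≃ Z')
    {Ka : A → X → ℝ} {Kb : A → Y → ℝ} {Kc : A → Z → ℝ}
    {Ka' : A' → X' → ℝ} {Kb' : A' → Y' → ℝ} {Kc' : A' → Z' → ℝ} {th : ℝ}
    (ha : ∀ a x, Ka' (eA a) (eX x) = Ka a x) (hb : ∀ a x, Kb' (eA a) (eY x) = Kb a x)
    (hc : ∀ a x, Kc' (eA a) (eZ x) = Kc a x) (h : SB3 Ka Kb Kc th) : SB3 Ka' Kb' Kc' th := by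
  intro p hp
  have hp' : IsLaw (fun a => p (eA a)) := by
    refine ⟨fun a => hp.1 _, ?_⟩
    rw [← hp.2]
    exact Equiv.sum_comp eA p
  rw [kl_push_equiv eA eX Ka Ka' ha, kl_push_equiv eA eY Kb Kb' hb,
    kl_push_equiv eA eZ Kc Kc' hc, kl_in_equiv eA]
  exact h _ hp'

end equiv

section pi

variable {A X Y Z : Type*} [Fintype A] [Fintype X] [Fintype Y] [Fintype Z]

theorem SB3_of_subsingleton [Subsingleton A] (Ka : A → X → ℝ) (Kb : A → Y → ℝ) (Kc : A → Z → ℝ)
    (th : ℝ) : SB3 Ka Kb Kc th := by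
  intro p hp
  have hne := (IsLaw.nonempty hp)
  have e : p = unif A := by
    funext a
    have h1 := hp.2
    rw [Fintype.sum_subsingleton p a] at h1
    have h2 : Fintype.card A = 1 := Fintype.card_eq_one_iff.2 ⟨a, fun b => Subsingleton.elim b a⟩
    simp [unif, h1, h2]
  rw [e, kl_self, kl_self, kl_self, kl_self, mul_zero]

/-- **Tensorisation (`n` equal factors).** -/
theorem SB3_pi_fin {Ka : A → X → ℝ} {Kb : A → Y → ℝ} {Kc : A → Z → ℝ} {th : ℝ} (hth : 0 ≤ th)
    (hKa : IsChan Ka) (hKb : IsChan Kb) (hKc : IsChan Kc)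
    (Da : Z → X → ℝ) (hDa : IsChan Da) (hA : ∀ a x, Ka a x = ∑ z, Da z x * Kc a z)
    (Db : Z → Y → ℝ) (hDb : IsChan Db) (hB : ∀ a y, Kb a y = ∑ z, Db z y * Kc a z)
    (h : SB3 Ka Kb Kc th) (n : ℕ) :
    SB3 (piChan (ι := Fin n) Ka) (piChan (ι := Fin n) Kb) (piChan (ι := Fin n) Kc) th := by
  induction n with
  | zero => exact SB3_of_subsingleton _ _ _ _
  | succ n ih =>
    refine SB3_equiv (consE n A) (consE n X) (consE n Y) (consE n Z) ?_ ?_ ?_
      (SB3_prod hth hKa hKb hKc (piChan_isChan hKa) (piChan_isChan hKb) (piChan_isChan hKc)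
        Da hDa hA Db hDb hB h ih)
    all_goals
      intro a x
      simp only [prodChan, piChan, consE, Equiv.coe_fn_mk]
      rw [Fin.prod_univ_succ]
      simp

end pi

end Vale.Agent.P162.KL.SBT
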