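import Vale.Agent.P162.KL.SizeLaws

/-!
# P162 : the comparison `pH ≤ κ(r) pu` on a general window, and the choice of the window
-/

namespace Vale.Agent.P162

open Finset

/-- On the window `r M ≤ a ≤ (1 - r) M` the hypergeometric law is at most
`exp ((1 - 2 r)^2 / (2 r))` times `pu`. -/
theorem pH_le_pu_window (r : ℝ) (hr0 : 0 < r) (hr1 : r ≤ 1 / 2) {M a : ℕ} (hM : 1 ≤ M)
    (h1 : r * M ≤ a) (h2 : (a : ℝ) ≤ (1 - r) * M) :
    pH M a ≤ Real.exp ((1 - 2 * r) ^ 2 / (2 * r)) * pu M a := by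
  have hM0 : (0 : ℝ) < M := by exact_mod_cast (by omega : 0 < M)
  have hq : 0 ≤ 1 - 2 * r := by linarith
  have hrM : 0 < r * M := mul_pos hr0 hM0
  have main : ∀ b : ℕ, b ≤ M / 2 → r * M ≤ b →
      rHu M b ≤ Real.exp ((1 - 2 * r) ^ 2 / (2 * r)) := by
    intro b hb hb3
    have hp := rHu_le_pow hM (dl := (1 - 2 * r) / (r * M)) (by positivity) (M / 2 - b) b
      (by omega) (by
      intro i hi hi2
      have e0 : (b : ℝ) ≤ i := by exact_mod_cast hi
      have e1 : r * M ≤ i := le_trans hb3 e0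
      have e2 : 2 * (i : ℝ) + 2 ≤ M := by exact_mod_cast (by omega : 2 * i + 2 ≤ M)
      have hi0 : (0 : ℝ) ≤ i := Nat.cast_nonneg i
      have hA : (M : ℝ) - 2 * i - 1 ≤ (1 - 2 * r) * M := by linarith
      have hB : r * M * M ≤ ((M : ℝ) - i) * (2 * (i : ℝ) + 1) := by
        have t1 : 0 ≤ ((M : ℝ) - i - M / 2) * (2 * (i : ℝ) + 1) :=
          mul_nonneg (by linarith) (by linarith)
        have t2 : 0 ≤ ((M : ℝ) / 2) * (2 * (i : ℝ) + 1 - 2 * (r * M)) :=
          mul_nonneg (by linarith) (by linarith)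
        nlinarith
      have hdiv : (M : ℝ) - 2 * i - 1
          ≤ (1 - 2 * r) / (r * M) * (((M : ℝ) - i) * (2 * (i : ℝ) + 1)) := by
        rw [div_mul_eq_mul_div, le_div_iff₀ hrM]
        have t3 := mul_le_mul_of_nonneg_left hB hq
        have t4 := mul_le_mul_of_nonneg_right hA hrM.le
        nlinarith
      have hid : ((i : ℝ) + 1) * (2 * (M : ℝ) - 2 * i - 1)
          = ((M : ℝ) - i) * (2 * (i : ℝ) + 1) + ((M : ℝ) - 2 * i - 1) := by ring
      rw [hid, one_add_mul]
      linarith)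
    refine hp.trans ((one_add_pow_le_exp (by positivity) _).trans ?_)
    apply Real.exp_le_exp.mpr
    have hk : ((M / 2 - b : ℕ) : ℝ) ≤ (1 - 2 * r) * M / 2 := by
      rw [Nat.cast_sub hb]
      have : ((M / 2 : ℕ) : ℝ) ≤ (M : ℝ) / 2 := by
        have := Nat.cast_div_le (α := ℝ) (m := M) (n := 2)
        simpa using this
      linarith
    calc ((M / 2 - b : ℕ) : ℝ) * ((1 - 2 * r) / (r * M))
        ≤ ((1 - 2 * r) * M / 2) * ((1 - 2 * r) / (r * M)) :=
          mul_le_mul_of_nonneg_right hk (by positivity)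
      _ = (1 - 2 * r) ^ 2 / (2 * r) := by field_simp
  have haM : a ≤ M := by
    have : (a : ℝ) ≤ M := by nlinarith
    exact_mod_cast this
  rw [pH_eq_rHu_mul haM]
  refine mul_le_mul_of_nonneg_right ?_ (pu_nonneg M a)
  by_cases h : a ≤ M / 2
  · exact main a h h1
  · have hs := rHu_symm (M := M) (a := M - a) (by omega)
    have e : M - (M - a) = a := by omega
    rw [e] at hs
    rw [hs]
    refine main (M - a) (by omega) ?_
    rw [Nat.cast_sub haM]
    linarith

/-- for every `c > 1` a window parameter `r < 1/2` with `κ(r) log (1/r) < c log 2` -/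
theorem exists_window (c : ℝ) (hc : 1 < c) :
    ∃ r : ℝ, 0 < r ∧ r < 1 / 2 ∧
      Real.exp ((1 - 2 * r) ^ 2 / (2 * r)) * Real.log (1 / r) < c * Real.log 2 := by
  have hcont : ContinuousAt
      (fun r : ℝ => Real.exp ((1 - 2 * r) ^ 2 / (2 * r)) * Real.log (1 / r)) (1 / 2) := by
    apply ContinuousAt.mul
    · apply Real.continuous_exp.continuousAt.comp
      exact ContinuousAt.div (by fun_prop) (by fun_prop) (by norm_num)
    · exact ContinuousAt.log (ContinuousAt.div continuousAt_const continuousAt_id (by norm_num))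
        (by norm_num)
  have hl2 : 0 < Real.log 2 := Real.log_pos (by norm_num)
  have hlt : (fun r : ℝ => Real.exp ((1 - 2 * r) ^ 2 / (2 * r)) * Real.log (1 / r)) (1 / 2)
      < c * Real.log 2 := by
    norm_num
    nlinarith
  have hev := hcont.eventually_lt continuousAt_const hlt
  have hpos : ∀ᶠ r : ℝ in nhds (1 / 2), 0 < r := eventually_gt_nhds (by norm_num)
  have hboth := (hev.and hpos).filter_mono (nhdsWithin_le_nhds (s := Set.Iio (1 / 2 : ℝ)))
  obtain ⟨r, ⟨h1, h2⟩, h3⟩ := (hboth.and self_mem_nhdsWithin).exists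
  exact ⟨r, h2, h3, h1⟩

end Vale.Agent.P162
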