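import Vale.Agent.P162.KL.Chan

/-!
# P162 : tensorisation of strong data processing inequalities
-/

namespace Vale.Agent.P162.KL.Tz

open Finset Real

section basics

variable {A B : Type*} [Fintype A] [Fintype B]

theorem IsLaw.nonempty {p : A → ℝ} (hp : IsLaw p) : Nonempty A := by
  by_contra h
  rw [not_nonempty_iff] at h
  have := hp.2
  simp at this

theorem unif_pos [Nonempty A] (a : A) : 0 < unif A a := by
  unfold unif
  have : 0 < (Fintype.card A : ℝ) := by exact_mod_cast Fintype.card_pos
  positivity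

theorem unif_nonneg (a : A) : 0 ≤ unif A a := by
  unfold unif
  positivity

theorem unif_sum [Nonempty A] : ∑ a, unif A a = 1 := by
  unfold unif
  have : (Fintype.card A : ℝ) ≠ 0 := by exact_mod_cast Fintype.card_ne_zero
  simp [Finset.card_univ, this]

theorem unif_isLaw [Nonempty A] : IsLaw (unif A) := ⟨unif_nonneg, unif_sum⟩

theorem kl_unif_nonneg {p : A → ℝ} (hp : IsLaw p) : 0 ≤ kl p (unif A) := by
  haveI := (IsLaw.nonempty hp)
  apply kl_nonneg p (unif A) hp.1 unif_nonneg
  · intro a h
    exact absurd h (unif_pos a).ne'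
  · rw [hp.2, unif_sum]

theorem SDPI_mono {K : A → B → ℝ} {η η' : ℝ} (h : SDPI K η) (hle : η ≤ η') : SDPI K η' := by
  intro p hp
  exact le_trans (h p hp) (mul_le_mul_of_nonneg_right hle (kl_unif_nonneg hp))

theorem push_nonneg {K : A → B → ℝ} (hK : ∀ a b, 0 ≤ K a b) {f : A → ℝ} (hf : ∀ a, 0 ≤ f a)
    (b : B) : 0 ≤ push K f b :=
  Finset.sum_nonneg (fun a _ => mul_nonneg (hf a) (hK a b))

theorem push_sum {K : A → B → ℝ} (hK : IsChan K) (f : A → ℝ) :
    ∑ b, push K f b = ∑ a, f a := by
  unfold push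
  rw [Finset.sum_comm]
  apply Finset.sum_congr rfl
  intro a _
  rw [← Finset.mul_sum, (hK a).2, mul_one]

theorem push_law {K : A → B → ℝ} (hK : IsChan K) {p : A → ℝ} (hp : IsLaw p) :
    IsLaw (push K p) :=
  ⟨push_nonneg (fun a b => (hK a).1 b) hp.1, by rw [push_sum hK, hp.2]⟩

/-- if the reference output vanishes at `b`, the whole column of the channel vanishes -/
theorem col_zero_of_push_unif [Nonempty A] {K : A → B → ℝ} (hK : ∀ a b, 0 ≤ K a b) {b : B}
    (h : push K (unif A) b = 0) (a : A) : K a b = 0 := by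
  unfold push at h
  have hz := (Finset.sum_eq_zero_iff_of_nonneg
    (fun a _ => mul_nonneg (unif_nonneg a) (hK a b))).1 h a (Finset.mem_univ a)
  rcases mul_eq_zero.1 hz with h0 | h0
  · exact absurd h0 (unif_pos a).ne'
  · exact h0

/-- renaming of inputs and outputs -/
theorem SDPI_equiv {A' B' : Type*} [Fintype A'] [Fintype B'] (eA : A ≃ A') (eB : B ≃ B')
    {K : A → B → ℝ} {η : ℝ} (h : SDPI K η) :
    SDPI (fun (a : A') (b : B') => K (eA.symm a) (eB.symm b)) η := by
  intro p hp
  have hp' : IsLaw (fun a => p (eA a)) := by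
    refine ⟨fun a => hp.1 _, ?_⟩
    rw [← hp.2]
    exact Equiv.sum_comp eA p
  have hcard : Fintype.card A = Fintype.card A' := Fintype.card_congr eA
  have e1 : ∀ (f : A' → ℝ) (b : B'), push (fun (a : A') (b : B') => K (eA.symm a) (eB.symm b)) f b
      = push K (fun a => f (eA a)) (eB.symm b) := by
    intro f b
    unfold push
    rw [← Equiv.sum_comp eA]
    simp
  have e2 : (fun a => unif A' (eA a)) = unif A := by
    funext a
    simp [unif, hcard]
  have e3 : kl p (unif A') = kl (fun a => p (eA a)) (unif A) := by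
    unfold kl
    rw [← Equiv.sum_comp eA]
    apply Finset.sum_congr rfl
    intro a _
    simp [unif, hcard]
  have e4 : kl (push (fun (a : A') (b : B') => K (eA.symm a) (eB.symm b)) p)
      (push (fun (a : A') (b : B') => K (eA.symm a) (eB.symm b)) (unif A'))
      = kl (push K (fun a => p (eA a))) (push K (unif A)) := by
    unfold kl
    rw [← Equiv.sum_comp eB]
    apply Finset.sum_congr rfl
    intro b _
    rw [e1, e1, e2]
    simp
  rw [e3, e4]
  exact h _ hp'

/-- the homogeneous form of a strong data processing inequality -/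
theorem SDPI_scaled {K : A → B → ℝ} {η : ℝ} (h : SDPI K η) (f : A → ℝ) (hf : ∀ a, 0 ≤ f a) :
    ∑ b, push K f b * Real.log (push K f b / ((∑ a, f a) * push K (unif A) b)) ≤
      η * ∑ a, f a * Real.log (f a / ((∑ a, f a) * unif A a)) := by
  set m := ∑ a, f a with hm
  have hm0 : 0 ≤ m := Finset.sum_nonneg (fun a _ => hf a)
  rcases hm0.eq_or_lt with h0 | hpos
  · have hz : ∀ a, f a = 0 := fun a =>
      (Finset.sum_eq_zero_iff_of_nonneg (fun a _ => hf a)).1 h0.symm a (Finset.mem_univ a)
    have hpz : ∀ b, push K f b = 0 := fun b => by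
      unfold push
      apply Finset.sum_eq_zero
      intro a _
      rw [hz a, zero_mul]
    simp [hz, hpz]
  · have hp : IsLaw (fun a => f a / m) := by
      refine ⟨fun a => div_nonneg (hf a) hm0, ?_⟩
      rw [← Finset.sum_div, ← hm, div_self hpos.ne']
    have h1 := h _ hp
    have e1 : ∀ b, push K f b = m * push K (fun a => f a / m) b := by
      intro b
      unfold push
      rw [Finset.mul_sum]
      apply Finset.sum_congr rfl
      intro a _
      field_simp
    have e2 : ∑ b, push K f b * Real.log (push K f b / (m * push K (unif A) b)) =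
        m * kl (push K (fun a => f a / m)) (push K (unif A)) := by
      unfold kl
      rw [Finset.mul_sum]
      apply Finset.sum_congr rfl
      intro b _
      rw [e1 b, mul_div_mul_left _ _ hpos.ne']
      ring
    have e3 : ∑ a, f a * Real.log (f a / (m * unif A a)) = m * kl (fun a => f a / m) (unif A) := by
      unfold kl
      rw [Finset.mul_sum]
      apply Finset.sum_congr rfl
      intro a _
      have : f a / (m * unif A a) = f a / m / unif A a := by rw [div_div]
      rw [this]
      field_simp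
    rw [e2, e3]
    calc m * kl (push K (fun a => f a / m)) (push K (unif A))
        ≤ m * (η * kl (fun a => f a / m) (unif A)) := mul_le_mul_of_nonneg_left h1 hm0
      _ = _ := by ring

end basics

/-- chain rule for a product reference weight -/
theorem chain_prod {X Y : Type*} [Fintype X] [Fintype Y] (f : X × Y → ℝ) (a : X → ℝ) (b : Y → ℝ)
    (hf : ∀ z, 0 ≤ f z) (ha : ∀ x, a x = 0 → ∑ y, f (x, y) = 0)
    (hb : ∀ x y, b y = 0 → f (x, y) = 0) :
    ∑ z, f z * Real.log (f z / (a z.1 * b z.2)) =
      ∑ x, (∑ y, f (x, y)) * Real.log ((∑ y, f (x, y)) / a x) +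
        ∑ x, ∑ y, f (x, y) * Real.log (f (x, y) / ((∑ y', f (x, y')) * b y)) := by
  rw [Fintype.sum_prod_type, ← Finset.sum_add_distrib]
  apply Finset.sum_congr rfl
  intro x _
  rw [Finset.sum_mul, ← Finset.sum_add_distrib]
  apply Finset.sum_congr rfl
  intro y _
  rcases (hf (x, y)).eq_or_lt with h0 | hpos
  · simp [← h0]
  · have hF : 0 < ∑ y', f (x, y') :=
      lt_of_lt_of_le hpos (Finset.single_le_sum (f := fun y' => f (x, y'))
        (fun y' _ => hf (x, y')) (Finset.mem_univ y))
    have hax : a x ≠ 0 := fun h => hF.ne' (ha x h)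
    have hby : b y ≠ 0 := fun h => hpos.ne' (hb x y h)
    have e : f (x, y) / (a x * b y) =
        ((∑ y', f (x, y')) / a x) * (f (x, y) / ((∑ y', f (x, y')) * b y)) := by
      field_simp
    rw [← mul_add, ← Real.log_mul (div_ne_zero hF.ne' hax)
      (div_ne_zero hpos.ne' (mul_ne_zero hF.ne' hby)), ← e]

/-- the product of two channels -/
noncomputable def prodChan {A1 A2 B1 B2 : Type*} (K1 : A1 → B1 → ℝ) (K2 : A2 → B2 → ℝ) :
    A1 × A2 → B1 × B2 → ℝ :=
  fun a b => K1 a.1 b.1 * K2 a.2 b.2

section prod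

variable {A1 A2 B1 B2 : Type*} [Fintype A1] [Fintype A2] [Fintype B1] [Fintype B2]

theorem prodChan_isChan {K1 : A1 → B1 → ℝ} {K2 : A2 → B2 → ℝ} (hK1 : IsChan K1)
    (hK2 : IsChan K2) : IsChan (prodChan K1 K2) := by
  intro a
  refine ⟨fun b => mul_nonneg ((hK1 a.1).1 b.1) ((hK2 a.2).1 b.2), ?_⟩
  unfold prodChan
  rw [Fintype.sum_prod_type]
  simp only []
  rw [← Finset.sum_mul_sum, (hK1 a.1).2, (hK2 a.2).2, one_mul]

theorem unif_prod (z : A1 × A2) : unif (A1 × A2) z = unif A1 z.1 * unif A2 z.2 := by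
  simp only [unif, Fintype.card_prod, Nat.cast_mul]
  rw [one_div, one_div, one_div, mul_inv]

theorem push_unif_prod (K1 : A1 → B1 → ℝ) (K2 : A2 → B2 → ℝ) (b : B1 × B2) :
    push (prodChan K1 K2) (unif (A1 × A2)) b =
      push K1 (unif A1) b.1 * push K2 (unif A2) b.2 := by
  unfold push prodChan
  rw [Fintype.sum_prod_type, Finset.sum_mul_sum]
  apply Finset.sum_congr rfl
  intro a1 _
  apply Finset.sum_congr rfl
  intro a2 _
  rw [unif_prod]
  ring

/-- **Tensorisation (two factors).** -/
theorem SDPI_prod {K1 : A1 → B1 → ℝ} {K2 : A2 → B2 → ℝ} {η : ℝ} (hK1 : IsChan K1)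
    (hK2 : IsChan K2) (h1 : SDPI K1 η) (h2 : SDPI K2 η) : SDPI (prodChan K1 K2) η := by
  intro p hp
  have hne : Nonempty (A1 × A2) := (IsLaw.nonempty hp)
  have hne1 : Nonempty A1 := hne.map Prod.fst
  have hne2 : Nonempty A2 := hne.map Prod.snd
  have hk1 : ∀ a b, 0 ≤ K1 a b := fun a b => (hK1 a).1 b
  have hk2 : ∀ a b, 0 ≤ K2 a b := fun a b => (hK2 a).1 b
  set p1 : A1 → ℝ := fun a1 => ∑ a2, p (a1, a2) with hp1
  set m : A1 → B2 → ℝ := fun a1 => push K2 (fun a2 => p (a1, a2)) with hm
  set q : B1 × B2 → ℝ := push (prodChan K1 K2) p with hq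
  set r1 := push K1 (unif A1) with hr1
  set r2 := push K2 (unif A2) with hr2
  have hp1law : IsLaw p1 := by
    refine ⟨fun a1 => Finset.sum_nonneg (fun a2 _ => hp.1 _), ?_⟩
    rw [← hp.2, Fintype.sum_prod_type]
  have hm0 : ∀ a1 b2, 0 ≤ m a1 b2 := fun a1 b2 => push_nonneg hk2 (fun a2 => hp.1 _) b2
  have hq0 : ∀ z, 0 ≤ q z := (push_law (prodChan_isChan hK1 hK2) hp).1
  have hqm : ∀ b1 b2, q (b1, b2) = ∑ a1, K1 a1 b1 * m a1 b2 := by
    intro b1 b2
    simp only [hq, hm, push, prodChan]
    rw [Fintype.sum_prod_type]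
    apply Finset.sum_congr rfl
    intro a1 _
    rw [Finset.mul_sum]
    apply Finset.sum_congr rfl
    intro a2 _
    ring
  have hmsum : ∀ a1, ∑ b2, m a1 b2 = p1 a1 := fun a1 => push_sum hK2 _
  have hq1 : ∀ b1, ∑ b2, q (b1, b2) = push K1 p1 b1 := by
    intro b1
    simp only [hqm]
    rw [Finset.sum_comm]
    unfold push
    apply Finset.sum_congr rfl
    intro a1 _
    rw [← Finset.mul_sum, hmsum, mul_comm]
  -- the divergence of the output
  have hD2 : kl q (push (prodChan K1 K2) (unif (A1 × A2))) =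
      kl (push K1 p1) r1 +
        ∑ b1, ∑ b2, q (b1, b2) * Real.log (q (b1, b2) / (push K1 p1 b1 * r2 b2)) := by
    have hc := chain_prod q r1 r2 hq0 ?_ ?_
    · unfold kl
      simp only [push_unif_prod]
      rw [hc]
      simp only [hq1]
    · intro b1 hb1
      rw [hq1]
      unfold push
      apply Finset.sum_eq_zero
      intro a1 _
      rw [col_zero_of_push_unif hk1 hb1 a1, mul_zero]
    · intro b1 b2 hb2
      rw [hqm]
      apply Finset.sum_eq_zero
      intro a1 _
      have : m a1 b2 = 0 := by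
        simp only [hm, push]
        apply Finset.sum_eq_zero
        intro a2 _
        rw [col_zero_of_push_unif hk2 hb2 a2, mul_zero]
      rw [this, mul_zero]
  -- the divergence of the input
  have hD0 : kl p (unif (A1 × A2)) =
      kl p1 (unif A1) +
        ∑ a1, ∑ a2, p (a1, a2) * Real.log (p (a1, a2) / (p1 a1 * unif A2 a2)) := by
    have hc := chain_prod p (unif A1) (unif A2) hp.1 ?_ ?_
    · unfold kl
      simp only [unif_prod]
      rw [hc]
    · intro a1 h
      exact absurd h (unif_pos a1).ne'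
    · intro a1 a2 h
      exact absurd h (unif_pos a2).ne'
  -- log-sum inequality for every output pair
  have hls : ∀ b1 b2, q (b1, b2) * Real.log (q (b1, b2) / (push K1 p1 b1 * r2 b2)) ≤
      ∑ a1, K1 a1 b1 * (m a1 b2 * Real.log (m a1 b2 / (p1 a1 * r2 b2))) := by
    intro b1 b2
    have h := log_sum Finset.univ (fun a1 => K1 a1 b1 * m a1 b2)
      (fun a1 => K1 a1 b1 * (p1 a1 * r2 b2))
      (fun a1 _ => mul_nonneg (hk1 a1 b1) (hm0 a1 b2))
      (fun a1 _ => mul_nonneg (hk1 a1 b1) (mul_nonneg (hp1law.1 a1)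
        (push_nonneg hk2 unif_nonneg b2))) ?_
    · have e1 : ∑ a1, K1 a1 b1 * (p1 a1 * r2 b2) = push K1 p1 b1 * r2 b2 := by
        unfold push
        rw [Finset.sum_mul]
        apply Finset.sum_congr rfl
        intro a1 _
        ring
      rw [e1, ← hqm] at h
      refine le_trans h (le_of_eq ?_)
      apply Finset.sum_congr rfl
      intro a1 _
      by_cases hk : K1 a1 b1 = 0
      · simp [hk]
      · rw [mul_div_mul_left _ _ hk, mul_assoc]
    · intro a1 _ hz
      rcases mul_eq_zero.1 hz with h0 | h0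
      · rw [h0, zero_mul]
      · have : m a1 b2 = 0 := by
          rcases mul_eq_zero.1 h0 with h3 | h3
          · have hz2 : ∀ a2, p (a1, a2) = 0 := fun a2 =>
              (Finset.sum_eq_zero_iff_of_nonneg (fun a2 _ => hp.1 (a1, a2))).1 h3 a2
                (Finset.mem_univ a2)
            simp only [hm, push]
            apply Finset.sum_eq_zero
            intro a2 _
            rw [hz2 a2, zero_mul]
          · simp only [hm, push]
            apply Finset.sum_eq_zero
            intro a2 _
            rw [col_zero_of_push_unif hk2 h3 a2, mul_zero]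
        rw [this, mul_zero]
  have hsecond : ∑ b1, ∑ b2, q (b1, b2) * Real.log (q (b1, b2) / (push K1 p1 b1 * r2 b2)) ≤
      ∑ a1, ∑ b2, m a1 b2 * Real.log (m a1 b2 / (p1 a1 * r2 b2)) := by
    calc ∑ b1, ∑ b2, q (b1, b2) * Real.log (q (b1, b2) / (push K1 p1 b1 * r2 b2))
        ≤ ∑ b1, ∑ b2, ∑ a1, K1 a1 b1 * (m a1 b2 * Real.log (m a1 b2 / (p1 a1 * r2 b2))) :=
          Finset.sum_le_sum (fun b1 _ => Finset.sum_le_sum (fun b2 _ => hls b1 b2))
      _ = ∑ a1, ∑ b2, m a1 b2 * Real.log (m a1 b2 / (p1 a1 * r2 b2)) := by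
          have e : ∀ b1, ∑ b2, ∑ a1, K1 a1 b1 * (m a1 b2 * Real.log (m a1 b2 / (p1 a1 * r2 b2)))
              = ∑ a1, K1 a1 b1 * ∑ b2, (m a1 b2 * Real.log (m a1 b2 / (p1 a1 * r2 b2))) := by
            intro b1
            rw [Finset.sum_comm]
            apply Finset.sum_congr rfl
            intro a1 _
            rw [Finset.mul_sum]
          simp only [e]
          rw [Finset.sum_comm]
          apply Finset.sum_congr rfl
          intro a1 _
          rw [← Finset.sum_mul, (hK1 a1).2, one_mul]
  have hthird : ∀ a1, ∑ b2, m a1 b2 * Real.log (m a1 b2 / (p1 a1 * r2 b2)) ≤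
      η * ∑ a2, p (a1, a2) * Real.log (p (a1, a2) / (p1 a1 * unif A2 a2)) := fun a1 =>
    SDPI_scaled h2 (fun a2 => p (a1, a2)) (fun a2 => hp.1 _)
  have hfirst : kl (push K1 p1) r1 ≤ η * kl p1 (unif A1) := h1 p1 hp1law
  rw [hD2, hD0, mul_add, Finset.mul_sum]
  exact add_le_add hfirst (le_trans hsecond (Finset.sum_le_sum (fun a1 _ => hthird a1)))

end prod

/-- the product of a family of copies of one channel -/
noncomputable def piChan {ι A B : Type*} [Fintype ι] (K : A → B → ℝ) :
    (ι → A) → (ι → B) → ℝ :=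
  fun a b => ∏ i, K (a i) (b i)

section pi

variable {A B : Type*} [Fintype A] [Fintype B]

theorem piChan_isChan {ι : Type*} [Fintype ι] [DecidableEq ι] {K : A → B → ℝ} (hK : IsChan K) :
    IsChan (piChan (ι := ι) K) := by
  intro a
  refine ⟨fun b => Finset.prod_nonneg (fun i _ => (hK (a i)).1 (b i)), ?_⟩
  have h := Finset.prod_univ_sum (fun _ : ι => (Finset.univ : Finset B)) (fun i b => K (a i) b)
  rw [Fintype.piFinset_univ] at h
  unfold piChan
  rw [← h]
  simp [(hK _).2]

theorem kl_self {X : Type*} [Fintype X] (p : X → ℝ) : kl p p = 0 := by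
  unfold kl
  apply Finset.sum_eq_zero
  intro a _
  by_cases h : p a = 0
  · rw [h, zero_mul]
  · rw [div_self h, Real.log_one, mul_zero]

/-- on a one point input type every inequality of this kind is trivial -/
theorem SDPI_of_subsingleton [Subsingleton A] (K : A → B → ℝ) (η : ℝ) : SDPI K η := by
  intro p hp
  have hne := (IsLaw.nonempty hp)
  have e : p = unif A := by
    funext a
    have h1 := hp.2
    rw [Fintype.sum_subsingleton p a] at h1
    have h2 : Fintype.card A = 1 := Fintype.card_eq_one_iff.2 ⟨a, fun b => Subsingleton.elim b a⟩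
    simp [unif, h1, h2]
  rw [e, kl_self, kl_self, mul_zero]

/-- splitting off the first coordinate -/
def consE (n : ℕ) (X : Type*) : X × (Fin n → X) ≃ (Fin (n + 1) → X) where
  toFun z := Fin.cons z.1 z.2
  invFun f := (f 0, fun i => f i.succ)
  left_inv z := by simp
  right_inv f := by
    funext i
    refine Fin.cases ?_ (fun j => ?_) i <;> simp

theorem SDPI_pi_fin {K : A → B → ℝ} {η : ℝ} (hK : IsChan K) (h : SDPI K η) (n : ℕ) :
    SDPI (piChan (ι := Fin n) K) η := by
  induction n with
  | zero => exact SDPI_of_subsingleton _ _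
  | succ n ih =>
    have h1 := SDPI_equiv (consE n A) (consE n B) (SDPI_prod hK (piChan_isChan hK) h ih)
    have e : (fun (a : Fin (n + 1) → A) (b : Fin (n + 1) → B) =>
        prodChan K (piChan (ι := Fin n) K) ((consE n A).symm a) ((consE n B).symm b)) =
        piChan (ι := Fin (n + 1)) K := by
      funext a b
      simp only [prodChan, piChan, consE, Equiv.coe_fn_symm_mk]
      rw [Fin.prod_univ_succ]
    rwa [e] at h1

/-- **Tensorisation (any finite family of copies).** -/
theorem SDPI_pi {ι : Type*} [Fintype ι] [DecidableEq ι] {K : A → B → ℝ} {η : ℝ} (hK : IsChan K)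
    (h : SDPI K η) : SDPI (piChan (ι := ι) K) η := by
  set e := Fintype.equivFin ι with he
  have h1 := SDPI_equiv (e.symm.arrowCongr (Equiv.refl A)) (e.symm.arrowCongr (Equiv.refl B))
    (SDPI_pi_fin hK h (Fintype.card ι))
  have e2 : (fun (a : ι → A) (b : ι → B) =>
      piChan (ι := Fin (Fintype.card ι)) K ((e.symm.arrowCongr (Equiv.refl A)).symm a)
        ((e.symm.arrowCongr (Equiv.refl B)).symm b)) = piChan (ι := ι) K := by
    funext a b
    simp only [piChan]
    rw [← Equiv.prod_comp e.symm]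
    apply Finset.prod_congr rfl
    intro i _
    simp [Equiv.arrowCongr]
  rwa [e2] at h1

end pi

end Vale.Agent.P162.KL.Tz
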