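import Vale.Agent.P162.KL.Tensor

/-!
# P162 : data processing for channels, superadditivity, the abstract two-copy theorem
-/

namespace Vale.Agent.P162.KL

open Finset Real Tz

section

variable {A B : Type*} [Fintype A] [Fintype B]

/-- Data processing inequality for a channel. -/
theorem kl_push_le (J : A → B → ℝ) (hJ : IsChan J) (p q : A → ℝ) (hp : ∀ a, 0 ≤ p a)
    (hq : ∀ a, 0 ≤ q a) (hac : ∀ a, q a = 0 → p a = 0) :
    kl (push J p) (push J q) ≤ kl p q := by
  unfold kl push
  have h1 : ∀ b : B, (∑ a, p a * J a b) * Real.log ((∑ a, p a * J a b) / (∑ a, q a * J a b)) ≤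
      ∑ a, J a b * (p a * Real.log (p a / q a)) := by
    intro b
    refine le_trans (log_sum Finset.univ (fun a => p a * J a b) (fun a => q a * J a b)
      (fun a _ => mul_nonneg (hp a) ((hJ a).1 b)) (fun a _ => mul_nonneg (hq a) ((hJ a).1 b))
      ?_) ?_
    · intro a _ h
      rcases mul_eq_zero.1 h with h0 | h0
      · rw [hac a h0, zero_mul]
      · rw [h0, mul_zero]
    · apply le_of_eq
      apply Finset.sum_congr rfl
      intro a _
      by_cases h0 : J a b = 0
      · simp [h0]
      · rw [mul_div_mul_right _ _ h0]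
        ring
  calc ∑ b, (∑ a, p a * J a b) * Real.log ((∑ a, p a * J a b) / (∑ a, q a * J a b))
      ≤ ∑ b, ∑ a, J a b * (p a * Real.log (p a / q a)) := Finset.sum_le_sum (fun b _ => h1 b)
    _ = ∑ a, p a * Real.log (p a / q a) := by
        rw [Finset.sum_comm]
        apply Finset.sum_congr rfl
        intro a _
        rw [← Finset.sum_mul, (hJ a).2, one_mul]

/-- Superadditivity of the divergence with respect to a product reference. -/
theorem kl_superadd {X Y : Type*} [Fintype X] [Fintype Y] (r : X × Y → ℝ) (n1 : X → ℝ)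
    (n2 : Y → ℝ) (hr : ∀ z, 0 ≤ r z) (hsum : ∑ z, r z = 1) (hn1 : ∀ x, 0 ≤ n1 x)
    (hn2 : ∀ y, 0 ≤ n2 y) (hac : ∀ z, n1 z.1 * n2 z.2 = 0 → r z = 0) :
    kl (fun x => ∑ y, r (x, y)) n1 + kl (fun y => ∑ x, r (x, y)) n2 ≤
      kl r (fun z => n1 z.1 * n2 z.2) := by
  have hch := chain_prod r n1 n2 hr
    (fun x hx => Finset.sum_eq_zero (fun y _ => hac (x, y) (by simp [hx])))
    (fun x y hy => hac (x, y) (by simp [hy]))
  unfold kl
  rw [hch]
  apply add_le_add le_rfl
  rw [Finset.sum_comm]
  apply Finset.sum_le_sum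
  intro y _
  have h := log_sum Finset.univ (fun x => r (x, y)) (fun x => (∑ y', r (x, y')) * n2 y)
    (fun x _ => hr _) (fun x _ => mul_nonneg (Finset.sum_nonneg (fun y' _ => hr _)) (hn2 y)) ?_
  · have e : ∑ x, (∑ y', r (x, y')) * n2 y = n2 y := by
      rw [← Finset.sum_mul, ← Fintype.sum_prod_type, hsum, one_mul]
    rw [e] at h
    exact h
  · intro x _ h0
    rcases mul_eq_zero.1 h0 with h1 | h1
    · exact (Finset.sum_eq_zero_iff_of_nonneg (fun y' _ => hr (x, y'))).1 h1 y (Finset.mem_univ y)
    · exact hac (x, y) (by simp [h1])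

/-- **Abstract two-copy theorem.** If two outputs of the channel `K` can be coupled (channel `J`) so
that under the uniform input they are independent, then `K` contracts the divergence by `1/2`. -/
theorem two_copy (K : A → B → ℝ) (J : A → B × B → ℝ) (hJ : IsChan J)
    (h1 : ∀ a b1, ∑ b2, J a (b1, b2) = K a b1) (h2 : ∀ a b2, ∑ b1, J a (b1, b2) = K a b2)
    (hprod : ∀ z : B × B,
      push J (unif A) z = push K (unif A) z.1 * push K (unif A) z.2) :
    SDPI K (1 / 2) := by
  intro p hp
  haveI := (Tz.IsLaw.nonempty hp)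
  have hKnn : ∀ a b, 0 ≤ K a b := by
    intro a b
    rw [← h1 a b]
    exact Finset.sum_nonneg (fun b2 _ => (hJ a).1 _)
  have hm1 : ∀ f : A → ℝ, (fun b1 => ∑ b2, push J f (b1, b2)) = push K f := by
    intro f
    funext b1
    unfold push
    rw [Finset.sum_comm]
    apply Finset.sum_congr rfl
    intro a _
    rw [← Finset.mul_sum, h1]
  have hm2 : ∀ f : A → ℝ, (fun b2 => ∑ b1, push J f (b1, b2)) = push K f := by
    intro f
    funext b2
    unfold push
    rw [Finset.sum_comm]
    apply Finset.sum_congr rfl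
    intro a _
    rw [← Finset.mul_sum, h2]
  have hlaw := push_law hJ hp
  have hsup := kl_superadd (push J p) (push K (unif A)) (push K (unif A)) hlaw.1 hlaw.2
    (push_nonneg hKnn unif_nonneg) (push_nonneg hKnn unif_nonneg) ?_
  · rw [hm1, hm2] at hsup
    have hdp := kl_push_le J hJ p (unif A) hp.1 unif_nonneg
      (fun a h => absurd h (unif_pos a).ne')
    have e : (fun z : B × B => push K (unif A) z.1 * push K (unif A) z.2) = push J (unif A) := by
      funext z
      rw [hprod]
    rw [e] at hsup
    linarith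
  · intro z hz
    rw [← hprod] at hz
    unfold push
    apply Finset.sum_eq_zero
    intro a _
    rw [col_zero_of_push_unif (fun a b => (hJ a).1 b) hz a, mul_zero]

/-- The product hypothesis of `two_copy` follows from a product shape with any constant. -/
theorem prod_of_shape (K : A → B → ℝ) (J : A → B × B → ℝ) [Nonempty A] (hJ : IsChan J)
    (h1 : ∀ a b1, ∑ b2, J a (b1, b2) = K a b1) (h2 : ∀ a b2, ∑ b1, J a (b1, b2) = K a b2)
    (κ : ℝ) (u : B → ℝ) (hs : ∀ z : B × B, push J (unif A) z = κ * u z.1 * u z.2) (z : B × B) :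
    push J (unif A) z = push K (unif A) z.1 * push K (unif A) z.2 := by
  have hm1 : ∀ b1, push K (unif A) b1 = κ * u b1 * ∑ b, u b := by
    intro b1
    have : push K (unif A) b1 = ∑ b2, push J (unif A) (b1, b2) := by
      unfold push
      rw [Finset.sum_comm]
      apply Finset.sum_congr rfl
      intro a _
      rw [← Finset.mul_sum, h1]
    rw [this, Finset.mul_sum]
    exact Finset.sum_congr rfl (fun b2 _ => hs (b1, b2))
  have hm2 : ∀ b2, push K (unif A) b2 = κ * u b2 * ∑ b, u b := by
    intro b2
    have : push K (unif A) b2 = ∑ b1, push J (unif A) (b1, b2) := by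
      unfold push
      rw [Finset.sum_comm]
      apply Finset.sum_congr rfl
      intro a _
      rw [← Finset.mul_sum, h2]
    rw [this, Finset.mul_sum]
    apply Finset.sum_congr rfl
    intro b1 _
    rw [hs (b1, b2)]
    ring
  have htot : κ * (∑ b, u b) * (∑ b, u b) = 1 := by
    have h := (push_law hJ (unif_isLaw (A := A))).2
    rw [Fintype.sum_prod_type] at h
    have : ∀ b1, ∑ b2, push J (unif A) (b1, b2) = κ * u b1 * ∑ b, u b := by
      intro b1
      rw [Finset.mul_sum]
      exact Finset.sum_congr rfl (fun b2 _ => hs (b1, b2))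
    simp only [this] at h
    rw [← Finset.sum_mul, ← Finset.mul_sum] at h
    exact h
  rw [hs, hm1, hm2]
  calc κ * u z.1 * u z.2 = κ * u z.1 * u z.2 * (κ * (∑ b, u b) * (∑ b, u b)) := by
        rw [htot, mul_one]
    _ = _ := by ring

end

end Vale.Agent.P162.KL
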